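import Vale.Agent.P253.Ext
import Vale.Agent.P274.SCV1

/-! Averaging over the circle. -/

namespace Vale.Agent.P253

open Complex Set Filter Topology Metric MeasureTheory
open scoped InnerProductSpace ContDiff

variable {n : ℕ}

theorem avg {U : Set (Cn n)} (hU : IsOpen U) {G : ℝ → Cn n → Cn n}
    (hG : ∀ θ, DifferentiableOn ℂ (G θ) U)
    (hc : ContinuousOn (fun p : ℝ × Cn n => G p.1 p.2) (univ ×ˢ U)) {x : Cn n} (hx : x ∈ U) :
    HasFDerivAt (fun z => ∫ θ in (0 : ℝ)..2 * Real.pi, G θ z)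
      (∫ θ in (0 : ℝ)..2 * Real.pi, fderiv ℂ (G θ) x) x := by
  obtain ⟨r, hr, hb⟩ := Metric.nhds_basis_closedBall.mem_iff.1 (hU.mem_nhds hx)
  have hb' : ball x r ⊆ U := ball_subset_closedBall.trans hb
  obtain ⟨M, hM⟩ := ((isCompact_Icc (a := (-10 : ℝ)) (b := 10)).prod
    (isCompact_closedBall x r)).exists_bound_of_continuousOn
    (hc.mono (prod_mono (subset_univ _) hb))
  have c1 : ∀ y ∈ U, Continuous fun θ => G θ y := fun y hy =>
    hc.comp_continuous (f := fun θ : ℝ => (θ, y)) (by fun_prop) fun θ => ⟨trivial, hy⟩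
  have sub : uIoc 0 (2 * Real.pi) ⊆ Ioo (-10 : ℝ) 10 := fun t ht => by
    rw [uIoc_of_le (by positivity)] at ht
    exact ⟨by linarith [ht.1], by linarith [ht.2, Real.pi_le_four]⟩
  have bd : ∀ θ ∈ Ioo (-10 : ℝ) 10, ∀ y ∈ ball x r, ‖G θ y‖ ≤ M := fun θ hθ y hy =>
    hM (θ, y) ⟨Ioo_subset_Icc_self hθ, ball_subset_closedBall hy⟩
  have M0 : 0 ≤ M := (norm_nonneg _).trans (bd 0 ⟨by norm_num, by norm_num⟩ x (mem_ball_self hr))
  have c2 : ContinuousOn (fun θ => fderiv ℂ (G θ) x) (Ioo (-10 : ℝ) 10) := fun θ hθ =>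
    ContinuousAt.continuousWithinAt ((P274.SCV1Aux.deriv_local (l := 𝓝 θ) (f := G) (g := G θ) hr
      (Filter.eventually_of_mem (isOpen_Ioo.mem_nhds hθ) fun t ht => ⟨(hG t).mono hb', bd t ht⟩)
      fun y hy => (c1 y (hb' hy)).tendsto θ).2.tendsto_at (mem_ball_self (by positivity)))
  refine (intervalIntegral.hasFDerivAt_integral_of_dominated_loc_of_lip (F := fun z θ => G θ z)
    (F' := fun θ => fderiv ℂ (G θ) x) (bound := fun _ => 4 * M / r)
    (ball_mem_nhds x (half_pos hr))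
    (Filter.eventually_of_mem (hU.mem_nhds hx) fun y hy => (c1 y hy).aestronglyMeasurable)
    ((c1 x hx).intervalIntegrable _ _) ((c2.mono sub).aestronglyMeasurable measurableSet_uIoc)
    (ae_of_all _ fun t ht => LipschitzOnWith.of_dist_le_mul fun y hy z hz => ?_)
    intervalIntegrable_const
    (ae_of_all _ fun t _ => ((hG t).differentiableAt (hU.mem_nhds hx)).hasFDerivAt)).2
  rw [dist_eq_norm, dist_eq_norm, Real.coe_nnabs, abs_of_nonneg (by positivity)]
  exact P274.norm_sub_le_of_bdd hr ((hG t).mono hb') (bd t (sub ht)) hy hz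

/-- The rotation as a continuous linear map. -/
noncomputable def rotL (a : Fin n → ℝ) (ζ : ℂ) : Cn n →L[ℂ] Cn n :=
  LinearMap.toContinuousLinearMap
    { toFun := rot a ζ
      map_add' := fun x y => by ext j; simp [rot, mul_add]
      map_smul' := fun c x => by ext j; simp [rot, mul_left_comm] }

theorem rotL_apply (a : Fin n → ℝ) (ζ : ℂ) (y : Cn n) : rotL a ζ y = rot a ζ y := rfl

theorem rot_cont (a : Fin n → ℝ) : Continuous fun p : ℝ × Cn n => rot a (-p.1) p.2 :=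
  (rot_action a).diff.continuous.comp (f := fun p : ℝ × Cn n => (-(p.1 : ℂ), p.2)) (by fun_prop)

theorem avg_equiv (a : Fin n → ℕ) {u : ℝ → Cn n} (hu : Continuous u)
    (hp : ∀ θ, u (θ + 2 * Real.pi) = u θ) (s : ℝ) :
    ∫ θ in (0 : ℝ)..2 * Real.pi, rot (fun j => a j) (-θ) (u (θ + s)) =
      rot (fun j => a j) s (∫ θ in (0 : ℝ)..2 * Real.pi, rot (fun j => a j) (-θ) (u θ)) := by
  set f : ℝ → Cn n := fun θ => rot (fun j => a j) (-θ) (u θ) with hf
  have cf : Continuous f := (rot_cont _).comp (f := fun θ : ℝ => (θ, u θ)) (by fun_prop)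
  have pf : Function.Periodic f (2 * Real.pi) := fun θ => by
    rw [hf]
    beta_reduce
    rw [hp]
    ext j
    have : exp (I * (a j : ℝ) * -((θ + 2 * Real.pi : ℝ) : ℂ)) = exp (I * (a j : ℝ) * -(θ : ℂ)) := by
      rw [exp_eq_exp_iff_exists_int]
      exact ⟨-(a j : ℤ), by push_cast; ring⟩
    exact congrArg (· * u θ j) this
  have e : ∀ θ : ℝ, rot (fun j => a j) (-θ) (u (θ + s)) = rotL (fun j => a j) s (f (θ + s)) :=
    fun θ => by
      rw [rotL_apply, hf]
      beta_reduce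
      rw [← (rot_action _).add]
      congr 1
      push_cast
      ring
  simp only [e]
  rw [ContinuousLinearMap.intervalIntegral_comp_comm _ (f := fun θ => f (θ + s))
    ((cf.comp (continuous_add_const s)).intervalIntegrable _ _), rotL_apply]
  congr 1
  refine (intervalIntegral.integral_comp_add_right f s).trans ?_
  have := pf.intervalIntegral_add_eq s 0
  rw [zero_add] at this
  rw [zero_add, add_comm, this]

theorem circle {Ω : Set (Cn n)} {h : Met n} {φ : ℝ → Cn n → Cn n} (hΩ : IsOpen Ω)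
    (hcon : IsPreconnected Ω) (hK : IsKaehler Ω h) (hB : ∀ z ∈ Ω, ∀ X Y, 0 ≤ bisec h z X Y)
    (hc : IsCompleteOn Ω h) {a : Fin n → ℕ} (ha : ∀ j, 0 < a j)
    (hφ : ∀ θ, DifferentiableOn ℂ (φ θ) Ω) (hP : ∀ θ, Preserves Ω h (φ θ))
    (cφ : ContinuousOn (fun p : ℝ × Cn n => φ p.1 p.2) (univ ×ˢ Ω))
    (ad : ∀ s t, ∀ z ∈ Ω, φ (s + t) z = φ s (φ t z))
    (pe : ∀ t, ∀ z ∈ Ω, φ (t + 2 * Real.pi) z = φ t z) {p : Cn n} (hp : p ∈ Ω)
    (hf : ∀ θ, φ θ p = p) (L : Cn n ≃L[ℂ] Cn n)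
    (hL : ∀ (θ : ℝ) X, L (fderiv ℂ (φ θ) p X) = rot (fun j => a j) θ (L X)) :
    ∃ ψ σ : Cn n → Cn n, DifferentiableOn ℂ ψ Ω ∧ Differentiable ℂ σ ∧
      (∀ w, σ w ∈ Ω ∧ ψ (σ w) = w) ∧ ∀ z ∈ Ω, σ (ψ z) = z := by
  set G : ℝ → Cn n → Cn n := fun θ z => rot (fun j => a j) (-θ) (L (φ θ z - p)) with hG
  have dG : ∀ θ, ∀ z ∈ Ω, HasFDerivAt (G θ) ((rotL (fun j => a j) (-θ)).comp
      ((L : Cn n →L[ℂ] Cn n).comp (fderiv ℂ (φ θ) z))) z := fun θ z hz =>
    (rotL (fun j => a j) (-θ)).hasFDerivAt.comp z ((L : Cn n →L[ℂ] Cn n).hasFDerivAt.comp z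
      (((hφ θ).differentiableAt (hΩ.mem_nhds hz)).hasFDerivAt.sub_const p))
  have cG : ContinuousOn (fun p : ℝ × Cn n => G p.1 p.2) (univ ×ˢ Ω) :=
    (rot_cont _).comp_continuousOn (continuousOn_fst.prodMk
      (L.continuous.comp_continuousOn (cφ.sub continuousOn_const)))
  have dψ := fun x hx => avg hΩ (fun θ z hz => (dG θ z hz).differentiableAt.differentiableWithinAt)
    cG (x := x) hx
  have hψ : DifferentiableOn ℂ (fun z => ∫ θ in (0 : ℝ)..2 * Real.pi, G θ z) Ω :=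
    fun x hx => (dψ x hx).differentiableAt.differentiableWithinAt
  refine ⟨fun z => ∫ θ in (0 : ℝ)..2 * Real.pi, G θ z, ?_⟩
  obtain ⟨σ, h1, h2, h3⟩ := core (a := fun j => a j) hΩ hcon hK hB hc (fun j => Nat.cast_pos.2 (ha j))
    (P274.analyticOnNhd_of_differentiableOn hΩ hψ)
    (fun θ => P274.analyticOnNhd_of_differentiableOn hΩ (hφ θ)) hP hp
    (by simp [hG, hf, ← rotL_apply])
    (by
      have e : ∀ θ : ℝ, fderiv ℂ (G θ) p = (L : Cn n →L[ℂ] Cn n) := fun θ => by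
        rw [(dG θ p hp).fderiv]
        ext1 X
        change rot _ _ (L (fderiv ℂ (φ θ) p X)) = L X
        rw [hL, ← (rot_action _).add, neg_add_cancel, (rot_action _).zero]
      rw [(dψ p hp).fderiv]
      simp only [e, intervalIntegral.integral_const]
      refine unit_of_inj fun x hx => ?_
      simpa [Real.pi_ne_zero] using hx)
    hf fun s z hz => by
      have := avg_equiv a (u := fun θ => L (φ θ z - p)) (L.continuous.comp ((cφ.comp_continuous
        (f := fun θ : ℝ => (θ, z)) (by fun_prop) fun θ => ⟨trivial, hz⟩).sub continuous_const))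
        (fun θ => by rw [pe θ z hz]) s
      simp only [ad _ s z hz] at this
      exact this
  exact ⟨σ, hψ, h1, h2, h3⟩

end Vale.Agent.P253
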