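import Vale.Agent.P253.Strip

/-! Orbits of the complex action stay in the domain. -/

namespace Vale.Agent.P253

open Complex Set Filter Topology
open scoped InnerProductSpace ContDiff

/-- The real part of a functional. -/
noncomputable def reQ {B : Type} [CStarAlgebra B] (φ : B →L[ℂ] ℂ) : B →L[ℝ] ℝ :=
  reCLM ∘L φ.restrictScalars ℝ

variable {n : ℕ}

/-- The functional `A ↦ ⟪x, A x⟫`. -/
noncomputable def ev (x : Cn n) : (Cn n →L[ℂ] Cn n) →L[ℂ] ℂ :=
  (innerSL ℂ x).comp (ContinuousLinearMap.apply ℂ (Cn n) x)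

theorem q_apply (x : Cn n) (A : Cn n →L[ℂ] Cn n) : reQ (ev x) A = (⟪x, A x⟫_ℂ).re := rfl

theorem inner_conj (x y : Cn n) (A D : Cn n →L[ℂ] Cn n) :
    ⟪x, (star D * A * D) y⟫_ℂ = ⟪D x, A (D y)⟫_ℂ :=
  ContinuousLinearMap.adjoint_inner_right D x (A (D y))

theorem q_one (x : Cn n) : reQ (ev x) 1 = ‖x‖ ^ 2 := inner_self_eq_norm_sq (𝕜 := ℂ) x

theorem fam : Fam fun x : Cn n => reQ (ev x) := by
  refine ⟨fun x D => ⟨D x, fun A => congrArg re (inner_conj x x A D)⟩, fun x A => ?_,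
    fun x => (sq_nonneg _).trans (q_one x).ge⟩
  have h1 : reQ (ev x) A ≤ ‖⟪x, A x⟫_ℂ‖ := re_le_norm _
  have h2 := norm_inner_le_norm (𝕜 := ℂ) x (A x)
  have h3 := mul_le_mul_of_nonneg_left (A.le_opNorm x) (norm_nonneg x)
  rw [q_one]
  nlinarith

theorem unit_of_pos {A : Cn n →L[ℂ] Cn n} (h : ∀ x, x ≠ 0 → 0 < (⟪x, A x⟫_ℂ).re) : IsUnit A := by
  have h1 : Function.Injective A := by
    refine (injective_iff_map_eq_zero A).2 fun x hx => ?_
    by_contra h0
    have := h x h0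
    simp [hx] at this
  exact ContinuousLinearMap.isUnit_iff_bijective.2
    ⟨h1, (LinearMap.injective_iff_surjective (f := (A : Cn n →ₗ[ℂ] Cn n))).1 h1⟩

namespace IsAction

variable {Φ : ℂ → Cn n → Cn n} (hΦ : IsAction Φ)
include hΦ

theorem diff : Differentiable ℂ fun p : ℂ × Cn n => Φ p.1 p.2 :=
  fun p => (hΦ.hol p trivial).differentiableAt

theorem fd (w : ℂ) (y : Cn n) : HasFDerivAt (Φ w)
    ((fderiv ℂ (fun p : ℂ × Cn n => Φ p.1 p.2) (w, y)).comp (.inr ℂ ℂ (Cn n))) y :=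
  (hΦ.diff (w, y)).hasFDerivAt.comp y (hasFDerivAt_prodMk_right w y)

theorem chain (v w : ℂ) (y : Cn n) :
    fderiv ℂ (Φ (v + w)) y = fderiv ℂ (Φ v) (Φ w y) * fderiv ℂ (Φ w) y := by
  have e : Φ (v + w) = Φ v ∘ Φ w := funext (hΦ.add v w)
  rw [e]
  exact fderiv_comp y (hΦ.fd v _).differentiableAt (hΦ.fd w y).differentiableAt

theorem fd0 (y : Cn n) : fderiv ℂ (Φ 0) y = 1 := by
  have e : Φ 0 = id := funext hΦ.zero
  rw [e]
  exact fderiv_id

theorem unit (w : ℂ) (y : Cn n) : IsUnit (fderiv ℂ (Φ w) y) := by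
  have h1 := hΦ.chain (-w) w y
  have h2 := hΦ.chain w (-w) (Φ w y)
  rw [neg_add_cancel, hΦ.fd0] at h1
  rw [add_neg_cancel, hΦ.fd0, ← hΦ.add, neg_add_cancel, hΦ.zero] at h2
  exact ⟨⟨_, _, h2.symm, h1.symm⟩, rfl⟩

theorem dc (σ : ℂ) (z : Cn n) : Differentiable ℂ fun w => Φ (σ * w) z :=
  hΦ.diff.comp (f := fun w => (σ * w, z)) (by fun_prop)

theorem dD (σ : ℂ) (z : Cn n) : Differentiable ℂ fun w => fderiv ℂ (Φ (σ * w)) z := by
  have h1 : Differentiable ℂ (fderiv ℂ fun p : ℂ × Cn n => Φ p.1 p.2) :=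
    fun p => (hΦ.hol.fderiv p trivial).differentiableAt
  simp only [fun w => (hΦ.fd w z).fderiv]
  exact (h1.comp (f := fun w => (σ * w, z)) (by fun_prop)).clm_comp (differentiable_const _)

theorem vel (σ : ℂ) (z : Cn n) (w : ℂ) : deriv (fun w => Φ (σ * w) z) w =
    fderiv ℂ (Φ (σ * w)) z (deriv (fun w => Φ (σ * w) z) 0) := by
  have h1 : HasDerivAt (fun u => Φ (σ * (u - w)) z) (deriv (fun w => Φ (σ * w) z) 0) w :=
    HasDerivAt.comp_sub_const (f := fun w => Φ (σ * w) z) w w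
      (by rw [sub_self]; exact (hΦ.dc σ z 0).hasDerivAt)
  have h2 : HasFDerivAt (Φ (σ * w)) (fderiv ℂ (Φ (σ * w)) z) (Φ (σ * (w - w)) z) := by
    rw [sub_self, mul_zero, hΦ.zero]
    exact (hΦ.fd _ z).differentiableAt.hasFDerivAt
  have h3 := h2.comp_hasDerivAt w h1
  have e : (Φ (σ * w) ∘ fun u => Φ (σ * (u - w)) z) = fun u => Φ (σ * u) z := funext fun u => by
    rw [Function.comp_apply, ← hΦ.add]
    congr 1
    ring
  rw [e] at h3
  exact h3.deriv

end IsAction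

variable {Ω : Set (Cn n)} {h : Met n}

theorem stay (hΩ : IsOpen Ω) (hc : IsCompleteOn Ω h) {c : ℂ → Cn n} (dc : Differentiable ℂ c)
    (h0 : c 0 ∈ Ω) (hb : ∀ T : ℝ, 0 < T → (∀ t ∈ Ico 0 T, c (t : ℝ) ∈ Ω) →
      ∃ K : ℝ, ∀ t ∈ Ico 0 T, sq h (c (t : ℝ)) (deriv c (t : ℝ)) ≤ K) : c 1 ∈ Ω := by
  by_contra h1
  have cc : Continuous fun t : ℝ => c t := dc.continuous.comp continuous_ofReal
  set S : Set ℝ := Ici 0 ∩ (fun t : ℝ => c t) ⁻¹' Ωᶜ with hS
  have cS : IsClosed S := isClosed_Ici.inter (hΩ.isClosed_compl.preimage cc)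
  have bS : BddBelow S := ⟨0, fun t ht => ht.1⟩
  have hT := cS.csInf_mem ⟨1, mem_Ici.2 zero_le_one, h1⟩ bS
  set T := sInf S with hTd
  have T0 : 0 < T := lt_of_le_of_ne hT.1 fun e => hT.2 (by rw [← e]; exact h0)
  have hm : ∀ t ∈ Ico 0 T, c (t : ℝ) ∈ Ω := fun t ht => by
    by_contra k
    exact absurd (csInf_le bS ⟨ht.1, k⟩) (not_le.2 ht.2)
  obtain ⟨K, hK⟩ := hb T T0 hm
  obtain ⟨t, -, ht, lt⟩ := exists_seq_strictMono_tendsto' T0
  have ht' : ∀ k, t k ∈ Ico 0 T := fun k => Ioo_subset_Ico_self (ht k)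
  obtain ⟨p, hp, lp⟩ := hc (fun k => c (t k)) fun ε hε => by
    have hK0 : 0 < √K + 1 := by positivity
    obtain ⟨N, hN⟩ := Metric.cauchySeq_iff.1 lt.cauchySeq (ε / (√K + 1)) (by positivity)
    refine ⟨N, fun k hk l hl => ?_⟩
    have seg : ∀ s ∈ Icc (0 : ℝ) 1, t k + s * (t l - t k) ∈ Ico 0 T := fun s hs => by
      have := (convex_Ico 0 T).add_smul_sub_mem (ht' k) (ht' l) hs
      rwa [smul_eq_mul] at this
    have cast : ∀ s : ℝ, (t k : ℂ) + s * (t l - t k : ℝ) = (t k + s * (t l - t k) : ℝ) :=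
      fun s => by push_cast; rfl
    refine ⟨fun s => c (t k + s * (t l - t k : ℝ)), ?_, by simp, by simp, fun s hs => ?_, ?_⟩
    · exact (dc.contDiff.restrict_scalars ℝ).comp
        (contDiff_const.add (ofRealCLM.contDiff.mul contDiff_const))
    · show c _ ∈ Ω
      rw [cast]
      exact hm _ (seg s hs)
    · refine (Real.le_norm_self _).trans_lt ((intervalIntegral.norm_integral_le_of_norm_le_const
        (C := |t l - t k| * √K) fun s hs => ?_).trans_lt ?_)
      · rw [uIoc_of_le zero_le_one] at hs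
        rw [(line dc _ _ s).deriv]
        beta_reduce
        rw [cast, Real.norm_of_nonneg (Real.sqrt_nonneg _),
          ← Real.sqrt_sq_eq_abs, ← Real.sqrt_mul (sq_nonneg _)]
        refine Real.sqrt_le_sqrt (le_trans (le_of_eq ?_) (mul_le_mul_of_nonneg_left
          (hK _ (seg s (Ioc_subset_Icc_self hs))) (sq_nonneg _)))
        rw [sq, sq, map_smul, inner_smul_left, inner_smul_right, conj_ofReal, re_ofReal_mul,
          re_ofReal_mul]
        ring
      · have := hN l hl k hk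
        rw [Real.dist_eq, lt_div_iff₀ hK0] at this
        simp only [sub_zero, abs_one, mul_one]
        nlinarith [abs_nonneg (t l - t k)]
  have e : p = c T := tendsto_nhds_unique lp ((cc.tendsto T).comp lt)
  rw [e] at hp
  exact hT.2 hp

theorem invariant (hΩ : IsOpen Ω) (hK : IsKaehler Ω h) (hB : ∀ z ∈ Ω, ∀ X Y, 0 ≤ bisec h z X Y)
    (hc : IsCompleteOn Ω h) {Φ : ℂ → Cn n → Cn n} (hΦ : IsAction Φ)
    (hP : ∀ θ : ℝ, Preserves Ω h (Φ θ)) (w : ℂ) : MapsTo (Φ w) Ω Ω := by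
  intro z hz
  have key := stay hΩ hc (hΦ.dc (w.im * I) z) (by rwa [mul_zero, hΦ.zero]) fun T hT hm => by
    obtain ⟨C, -, hC⟩ := strip (h := h) fam (hΦ.dc (w.im * I) z) (hΦ.dD (w.im * I) z)
      (fun u => hΦ.unit _ z) hT hΩ hK.smooth hK.herm (fun y hy => unit_of_pos (hK.pos y hy))
      (fun y hy x => by
        by_cases hx : x = 0
        · simp [q_apply, hx]
        · exact (hK.pos y hy x hx).le)
      (fun y hy Y x => hB y hy x Y) fun t ht s => by
        have e : w.im * I * ((t : ℝ) + s * I) = (-(w.im * s) : ℝ) + w.im * I * (t : ℝ) := by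
          push_cast
          linear_combination (w.im * s : ℂ) * I_mul_I
        obtain ⟨k1, k2⟩ := hP (-(w.im * s)) _ (hm t ht)
        refine ⟨by rw [e, hΦ.add]; exact k1, ?_⟩
        refine ContinuousLinearMap.ext fun Y => ext_inner_left ℂ fun X => ?_
        rw [HH, HH, inner_conj, inner_conj, e, hΦ.chain, hΦ.add]
        exact k2 _ _
    refine ⟨C * reQ (ev (deriv (fun u => Φ (w.im * I * u) z) 0)) 1, fun t ht => ?_⟩
    refine le_trans (le_of_eq ?_) (hC t ht _)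
    rw [hΦ.vel, q_apply, HH, inner_conj]
    rfl
  have e : w = (w.re : ℝ) + w.im * I * 1 := by rw [mul_one, re_add_im]
  rw [e, hΦ.add]
  exact (hP _ _ key).1

theorem all_of_closure (hΩ : IsOpen Ω) {Φ : ℂ → Cn n → Cn n} (hΦ : IsAction Φ)
    (hI : ∀ w, MapsTo (Φ w) Ω Ω) (hp : ∀ z, ∃ p ∈ Ω, p ∈ closure (range fun w => Φ w z)) :
    Ω = univ := by
  refine eq_univ_of_forall fun z => ?_
  obtain ⟨p, hp1, hp2⟩ := hp z
  obtain ⟨_, k, w, rfl⟩ := mem_closure_iff.1 hp2 Ω hΩ hp1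
  have := hI (-w) k
  rwa [← hΦ.add, neg_add_cancel, hΦ.zero] at this

theorem rot_action (a : Fin n → ℝ) : IsAction (rot a) := by
  refine ⟨fun p _ => ?_, fun z => ?_, fun v w z => ?_⟩
  · refine ((EuclideanSpace.equiv (Fin n) ℂ).symm.analyticAt _).comp
      (f := fun p : ℂ × Cn n => fun j => exp (I * a j * p.1) * p.2 j) (AnalyticAt.pi fun j => ?_)
    exact (analyticAt_const.mul analyticAt_fst).cexp.mul
      (((EuclideanSpace.proj j : Cn n →L[ℂ] ℂ).analyticAt p.2).comp analyticAt_snd)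
  · ext j
    simp [rot]
  · ext j
    simp [rot, mul_add, exp_add, mul_assoc]

theorem rot_closure {a : Fin n → ℝ} (ha : ∀ j, 0 < a j) (z : Cn n) :
    0 ∈ closure (range fun w => rot a w z) := by
  refine mem_closure_of_tendsto (f := fun t : ℝ => rot a (I * t) z) (b := atTop) ?_
    (Eventually.of_forall fun t => ⟨_, rfl⟩)
  have h1 : Tendsto (fun t : ℝ => fun j => exp (I * a j * (I * t)) * z j) atTop (𝓝 0) := by
    refine tendsto_pi_nhds.2 fun j => ?_
    have e : ∀ t : ℝ, exp (I * a j * (I * t)) = (Real.exp (-(a j * t)) : ℝ) := fun t => by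
      push_cast
      congr 1
      linear_combination (a j * t : ℂ) * I_mul_I
    have h2 := (continuous_ofReal.tendsto 0).comp (Real.tendsto_exp_neg_atTop_nhds_zero.comp
      (tendsto_id.const_mul_atTop (ha j)))
    simpa [e] using h2.mul_const (z j)
  exact ((EuclideanSpace.equiv (Fin n) ℂ).symm.continuous.tendsto' 0 0 (map_zero _)).comp h1

theorem shift_action (b : Cn n) : IsAction fun (w : ℂ) (z : Cn n) => z + w • b :=
  ⟨fun _ _ => analyticAt_snd.add (analyticAt_fst.smul analyticAt_const), fun z => by simp,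
    fun v w z => by rw [add_smul]; abel⟩

theorem all_of_span {S : Set (Cn n)} (hS : Submodule.span ℂ S = ⊤) (hne : Ω.Nonempty)
    (hI : ∀ b ∈ S, ∀ w : ℂ, ∀ z ∈ Ω, z + w • b ∈ Ω) : Ω = univ := by
  have key : ∀ b ∈ Submodule.span ℂ S, ∀ w : ℂ, ∀ z ∈ Ω, z + w • b ∈ Ω := fun b hb => by
    induction hb using Submodule.span_induction with
    | mem b hb => exact hI b hb
    | zero => intro w z hz; simpa using hz
    | add b b' _ _ i1 i2 => intro w z hz; rw [smul_add, ← add_assoc]; exact i2 w _ (i1 w z hz)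
    | smul t b _ i1 => intro w z hz; rw [smul_smul]; exact i1 _ z hz
  obtain ⟨p, hp⟩ := hne
  refine eq_univ_of_forall fun z => ?_
  simpa using key (z - p) (hS ▸ Submodule.mem_top) 1 p hp

end Vale.Agent.P253
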