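import Vale.Agent.P253.Gen
import Vale.Agent.P253.Main

namespace Vale.Agent.P253G

open Complex Set
open scoped InnerProductSpace

variable {n : ℕ} {Ω : Set (Cn n)} {h : Met (Cn n)}

theorem del_eq (h : Met (Cn n)) (z Y : Cn n) : del h z Y = P253.del h z Y := rfl

theorem delb_eq (h : Met (Cn n)) (z Y : Cn n) : delb h z Y = P253.delb h z Y := rfl

theorem lap_eq (h : Met (Cn n)) (z Y : Cn n) : lap h z Y = P253.lap h z Y := rfl

theorem bisec_eq (h : Met (Cn n)) (z X Y : Cn n) : bisec h z X Y = P253.bisec h z X Y := by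
  unfold bisec P253.bisec
  rw [del_eq, delb_eq, lap_eq]
  rfl

theorem IsKaehler.old (hK : IsKaehler Ω h) : P253.IsKaehler Ω h where
  smooth := hK.smooth
  herm z hz := by
    rw [ContinuousLinearMap.isSelfAdjoint_iff_isSymmetric]
    intro X Y
    have := hK.symm z hz Y X
    unfold herm at this
    rw [inner_conj_symm] at this
    exact this.symm
  pos := hK.pos
  closed z hz X Y := by
    have := hK.closed z hz X Y
    rwa [del_eq, del_eq] at this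

theorem IsCompleteOn.old (hc : IsCompleteOn Ω h) : P253.IsCompleteOn Ω h := hc

theorem IsAction.old {Φ : ℂ → Cn n → Cn n} (hΦ : IsAction Φ) : P253.IsAction Φ :=
  ⟨hΦ.hol, hΦ.zero, hΦ.add⟩

theorem Preserves.old {f : Cn n → Cn n} (hf : Preserves Ω h f) : P253.Preserves Ω h f := hf

theorem symmetric (hΩ : IsOpen Ω) (hK : IsKaehler Ω h)
    (hB : ∀ z ∈ Ω, ∀ X Y, 0 ≤ bisec h z X Y) (hc : IsCompleteOn Ω h) :
    (∀ Φ : ℂ → Cn n → Cn n, IsAction Φ → (∀ θ : ℝ, Preserves Ω h (Φ θ)) →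
      (∀ w : ℂ, MapsTo (Φ w) Ω Ω) ∧
      ((∀ z, ∃ p ∈ Ω, p ∈ closure (range fun w => Φ w z)) → Ω = univ)) ∧
    (∀ a : Fin n → ℝ, (∀ j, 0 < a j) → 0 ∈ Ω → (∀ θ : ℝ, Preserves Ω h (rot a θ)) → Ω = univ) ∧
    (∀ S : Set (Cn n), Submodule.span ℂ S = ⊤ → Ω.Nonempty →
      (∀ b ∈ S, ∀ θ : ℝ, Preserves Ω h fun z => z + (θ : ℂ) • b) → Ω = univ) := by
  have hB' : ∀ z ∈ Ω, ∀ X Y, 0 ≤ P253.bisec h z X Y := fun z hz X Y => by
    rw [← bisec_eq]; exact hB z hz X Y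
  have key : ∀ Φ : ℂ → Cn n → Cn n, P253.IsAction Φ → (∀ θ : ℝ, Preserves Ω h (Φ θ)) →
      ∀ w : ℂ, MapsTo (Φ w) Ω Ω := fun Φ hΦ hP =>
    P253.invariant hΩ hK.old hB' hc.old hΦ fun θ => (hP θ).old
  exact ⟨fun Φ hΦ hP => ⟨key Φ hΦ.old hP, P253.all_of_closure hΩ hΦ.old (key Φ hΦ.old hP)⟩,
    fun a ha h0 hP => P253.all_of_closure hΩ (P253.rot_action a)
      (key _ (P253.rot_action a) hP) fun z => ⟨0, h0, P253.rot_closure ha z⟩,
    fun _ hS hne hP => P253.all_of_span hS hne fun b hb w _ hz =>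
      key _ (P253.shift_action b) (hP b hb) w hz⟩

end Vale.Agent.P253G
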