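import Vale.Agent.P253.Gen2
import Vale.Agent.P253.Bridge
import Vale.Agent.P253.Avg

namespace Vale.Agent.P253G

open Set

variable {n : ℕ} {Ω : Set (Cn n)} {h : Met (Cn n)}

theorem circle (hΩ : IsOpen Ω) (hK : IsKaehler Ω h)
    (hB : ∀ z ∈ Ω, ∀ X Y, 0 ≤ bisec h z X Y) (hc : IsCompleteOn Ω h)
    (φ : ℝ → Cn n → Cn n) (p : Cn n) (a : Fin n → ℕ) (L : Cn n ≃L[ℂ] Cn n)
    (hcon : IsPreconnected Ω) (hφ : IsCircleAction Ω h φ) (hp : p ∈ Ω) (hf : ∀ θ, φ θ p = p)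
    (ha : ∀ j, 0 < a j)
    (hL : ∀ (θ : ℝ) X, L (fderiv ℂ (φ θ) p X) = rot (fun j => a j) θ (L X)) : Biholo Ω :=
  P253.circle hΩ hcon hK.old (fun z hz X Y => by rw [← bisec_eq]; exact hB z hz X Y) hc.old ha
    hφ.hol (fun θ => (hφ.iso θ).old) hφ.cont hφ.add
    (fun t z hz => by rw [hφ.add t _ z hz, hφ.per z hz]) hp hf L hL

end Vale.Agent.P253G
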