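import Mathlib

/-! Kaehler metrics on open subsets of `ℂ^n`, bisectional curvature, completeness, holomorphic
actions of the additive group `ℂ`. -/

namespace Vale.Agent.P253

open Complex Set Filter Topology
open scoped InnerProductSpace ContDiff

/-- The space `ℂ^n`. -/
abbrev Cn (n : ℕ) : Type := EuclideanSpace ℂ (Fin n)

/-- Fields of matrices: the Hermitian metric at `z` is `(X, Y) ↦ ⟪X, h z Y⟫`. -/
abbrev Met (n : ℕ) : Type := Cn n → Cn n →L[ℂ] Cn n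

variable {n : ℕ}

/-- The squared length `|X|²` of the tangent vector `X` at `z`. -/
noncomputable def sq (h : Met n) (z X : Cn n) : ℝ := (⟪X, h z X⟫_ℂ).re

/-- The derivative `∂_Y h = ∑ Y_k ∂h/∂z_k`. -/
noncomputable def del (h : Met n) (z Y : Cn n) : Cn n →L[ℂ] Cn n :=
  (1 / 2 : ℂ) • (fderiv ℝ h z Y - I • fderiv ℝ h z (I • Y))

/-- The conjugate derivative `∑ conj(Y_k) ∂h/∂conj(z_k)`. -/
noncomputable def delb (h : Met n) (z Y : Cn n) : Cn n →L[ℂ] Cn n :=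
  (1 / 2 : ℂ) • (fderiv ℝ h z Y + I • fderiv ℝ h z (I • Y))

/-- The mixed second derivative `∑ Y_k conj(Y_l) ∂²h/∂z_k∂conj(z_l)`, a quarter of the Laplacian
along the complex line of `Y`. -/
noncomputable def lap (h : Met n) (z Y : Cn n) : Cn n →L[ℂ] Cn n :=
  (1 / 4 : ℂ) • (fderiv ℝ (fderiv ℝ h) z Y Y + fderiv ℝ (fderiv ℝ h) z (I • Y) (I • Y))

/-- The bisectional curvature `R(X, conj X, Y, conj Y)` at `z`. -/
noncomputable def bisec (h : Met n) (z X Y : Cn n) : ℝ :=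
  (⟪X, (delb h z Y * Ring.inverse (h z) * del h z Y - lap h z Y) X⟫_ℂ).re

/-- `h` is a smooth Kaehler metric on `Ω`. -/
structure IsKaehler (Ω : Set (Cn n)) (h : Met n) : Prop where
  smooth : ContDiffOn ℝ ∞ h Ω
  herm : ∀ z ∈ Ω, IsSelfAdjoint (h z)
  pos : ∀ z ∈ Ω, ∀ X, X ≠ 0 → 0 < sq h z X
  closed : ∀ z ∈ Ω, ∀ X Y, del h z X Y = del h z Y X

/-- The Riemannian distance of `x` and `y` in `(Ω, h)` is less than `ε`. -/
def Close (Ω : Set (Cn n)) (h : Met n) (x y : Cn n) (ε : ℝ) : Prop :=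
  ∃ γ : ℝ → Cn n, ContDiff ℝ 1 γ ∧ γ 0 = x ∧ γ 1 = y ∧ MapsTo γ (Icc 0 1) Ω ∧
    ∫ t in (0 : ℝ)..1, √(sq h (γ t) (deriv γ t)) < ε

/-- Every Cauchy sequence of `(Ω, h)` converges to a point of `Ω`. -/
def IsCompleteOn (Ω : Set (Cn n)) (h : Met n) : Prop :=
  ∀ x : ℕ → Cn n, (∀ ε > 0, ∃ N, ∀ k ≥ N, ∀ l ≥ N, Close Ω h (x k) (x l) ε) →
    ∃ p ∈ Ω, Tendsto x atTop (𝓝 p)

/-- A holomorphic action of the additive group `ℂ` on `ℂ^n`. -/
structure IsAction (Φ : ℂ → Cn n → Cn n) : Prop where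
  hol : AnalyticOnNhd ℂ (fun p : ℂ × Cn n => Φ p.1 p.2) univ
  zero : ∀ z, Φ 0 z = z
  add : ∀ v w z, Φ (v + w) z = Φ v (Φ w z)

/-- The holomorphic map `f` maps `Ω` to `Ω` and preserves the metric. -/
def Preserves (Ω : Set (Cn n)) (h : Met n) (f : Cn n → Cn n) : Prop :=
  ∀ z ∈ Ω, f z ∈ Ω ∧ ∀ X Y, ⟪fderiv ℂ f z X, h (f z) (fderiv ℂ f z Y)⟫_ℂ = ⟪X, h z Y⟫_ℂ

/-- The rotation `z_j ↦ exp (i a_j w) z_j`. -/
noncomputable def rot (a : Fin n → ℝ) (w : ℂ) (z : Cn n) : Cn n :=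
  WithLp.toLp 2 fun j => exp (I * a j * w) * z j

end Vale.Agent.P253
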