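import Vale.Agent.P253.Sec

/-! The extension step. -/

namespace Vale.Agent.P253

open Complex Set Filter Topology Metric
open scoped InnerProductSpace ContDiff

variable {n : ℕ} {Ω : Set (Cn n)} {h : Met n} {ψ σ₀ σ : Cn n → Cn n} {a : Fin n → ℝ}
  {φ : ℝ → Cn n → Cn n} {R : ℝ}

theorem rot_an (a : Fin n → ℝ) (ζ : ℂ) (y : Cn n) : AnalyticAt ℂ (rot a ζ) y :=
  ((rot_action a).hol (ζ, y) trivial).comp (f := fun y => (ζ, y))
    (analyticAt_const.prod analyticAt_id)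

theorem ray (hΩ : IsOpen Ω) (hK : IsKaehler Ω h) (hB : ∀ z ∈ Ω, ∀ X Y, 0 ≤ bisec h z X Y)
    (hc : IsCompleteOn Ω h) (ha : ∀ j, 0 < a j) (hψ : AnalyticOnNhd ℂ ψ Ω)
    (hφ : ∀ θ, AnalyticOnNhd ℂ (φ θ) Ω) (hP : ∀ θ, Preserves Ω h (φ θ))
    (g : Good Ω ψ σ₀ (ball 0 R) σ)
    (he : ∀ θ : ℝ, ∀ y ∈ ball (0 : Cn n) R, σ (rot a θ y) = φ θ (σ y))
    {w : Cn n} (hw : ‖w‖ = R) : ∃ (y : ℕ → Cn n) (x : Cn n), (∀ k, y k ∈ ball (0 : Cn n) R) ∧
      Tendsto y atTop (𝓝 w) ∧ x ∈ Ω ∧ Tendsto (fun k => σ (y k)) atTop (𝓝 x) ∧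
      IsUnit (fderiv ℂ ψ x) := by
  have hΦ := rot_action a
  have hR : 0 < R := by simpa using g.z
  have w0 : w ≠ 0 := fun e => by simp [e] at hw; exact hR.ne hw
  set z := rot a I w with hz
  set ρ : ℂ → Cn n := fun ζ => rot a (-I * ζ) z with hρ
  set E : ℂ → Cn n →L[ℂ] Cn n := fun ζ => fderiv ℂ (rot a (-I * ζ)) z with hE
  have mρ : ∀ ζ : ℂ, ζ.re < 1 → ρ ζ ∈ ball (0 : Cn n) R := fun ζ hζ => by
    rw [mem_ball_zero_iff, ← hw, hρ, hz]
    beta_reduce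
    rw [← hΦ.add]
    exact rot_lt ha (by simpa using hζ) w0
  have aρ : ∀ ζ, AnalyticAt ℂ ρ ζ := (hΦ.dc (-I) z).analyticAt
  have aE : ∀ ζ, AnalyticAt ℂ E ζ := (hΦ.dD (-I) z).analyticAt
  have ac : ∀ ζ : ℂ, ζ.re < 1 → AnalyticAt ℂ (fun ζ => σ (ρ ζ)) ζ := fun ζ hζ =>
    (g.pt _ (mρ ζ hζ)).1.comp (aρ ζ)
  have mc : ∀ t ∈ Ico (0 : ℝ) 1, σ (ρ t) ∈ Ω := fun t ht => (g.pt _ (mρ t ht.2)).2.1
  obtain ⟨C, -, hC⟩ := strip' (h := h) (c := fun ζ => σ (ρ ζ))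
    (D := fun ζ => fderiv ℂ σ (ρ ζ) * E ζ) fam ac
    (fun ζ hζ => ((g.pt _ (mρ ζ hζ)).1.fderiv.comp (aρ ζ)).mul (aE ζ))
    (fun ζ hζ => (g.inv hψ (mρ ζ hζ)).1.mul (hΦ.unit _ z)) one_pos hΩ hK.smooth hK.herm
    (fun y hy => unit_of_pos (hK.pos y hy))
    (fun y hy x => by
      by_cases hx : x = 0
      · simp [q_apply, hx]
      · exact (hK.pos y hy x hx).le)
    (fun y hy Y x => hB y hy x Y) fun t ht s => by
      have e : -I * ((t : ℝ) + s * I) = (s : ℝ) + -I * (t : ℝ) := by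
        linear_combination (-s : ℂ) * I_mul_I
      have e1 : ρ ((t : ℝ) + s * I) = rot a s (ρ t) := by rw [hρ]; beta_reduce; rw [e, hΦ.add]
      have e2 : E ((t : ℝ) + s * I) = fderiv ℂ (rot a s) (ρ t) * E t := by
        rw [hE]; beta_reduce; rw [e, hΦ.chain]
      have m := mρ t ht.2
      have m' : rot a s (ρ t) ∈ ball (0 : Cn n) R := e1 ▸ mρ _ (by simpa using ht.2)
      have e3 : fderiv ℂ σ (rot a s (ρ t)) * fderiv ℂ (rot a s) (ρ t) =
          fderiv ℂ (φ s) (σ (ρ t)) * fderiv ℂ σ (ρ t) := by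
        have k : σ ∘ rot a s =ᶠ[𝓝 (ρ t)] φ s ∘ σ :=
          Filter.eventually_of_mem (isOpen_ball.mem_nhds m) (he s)
        have k1 := fderiv_comp (ρ t) (g.pt _ m').1.differentiableAt
          (rot_an a s (ρ t)).differentiableAt
        have k2 := fderiv_comp (ρ t) (hφ s _ (mc t ht)).differentiableAt
          (g.pt _ m).1.differentiableAt
        exact k1.symm.trans (k.fderiv_eq.trans k2)
      obtain ⟨k1, k2⟩ := hP s _ (mc t ht)
      refine ⟨by beta_reduce; rw [e1, he s _ m]; exact k1, ?_⟩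
      refine ContinuousLinearMap.ext fun Y => ext_inner_left ℂ fun X => ?_
      rw [HH, HH, inner_conj, inner_conj]
      beta_reduce
      rw [e1, e2, ← mul_assoc, e3, he s _ m]
      exact k2 _ _
  have hC' : ∀ t ∈ Ico (0 : ℝ) 1, ∀ x, sq h (σ (ρ t)) (fderiv ℂ σ (ρ t) (E t x)) ≤ C * ‖x‖ ^ 2 :=
    fun t ht x => by
      have := hC t ht x
      rw [q_one, q_apply, HH, inner_conj] at this
      exact this
  obtain ⟨t, ht, lt, x, hx, lx⟩ := lim hc (K := C * ‖deriv ρ 0‖ ^ 2) one_pos ac mc fun t ht => by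
    refine le_trans (le_of_eq ?_) (hC' t ht _)
    have k := ((g.pt _ (mρ t ht.2)).1.differentiableAt.hasFDerivAt.comp_hasDerivAt (t : ℂ)
      (aρ t).differentiableAt.hasDerivAt).deriv
    rw [hΦ.vel] at k
    exact congrArg _ k
  have lt' : Tendsto (fun k => (t k : ℂ)) atTop (𝓝 1) := by
    simpa [Function.comp_def] using (continuous_ofReal.tendsto 1).comp lt
  have ρ1 : ρ 1 = w := by
    rw [hρ, hz]
    beta_reduce
    rw [← hΦ.add, mul_one, neg_add_cancel, hΦ.zero]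
  refine ⟨fun k => ρ (t k), x, fun k => mρ _ (ht k).2,
    ρ1 ▸ ((aρ 1).continuousAt.tendsto.comp lt'), hx, lx, unit_of_inj fun u hu => ?_⟩
  by_contra u0
  obtain ⟨v, hv⟩ : IsUnit (E 1) := hΦ.unit _ z
  have l1 : Tendsto (fun k => Ring.inverse (E (t k))) atTop (𝓝 (Ring.inverse (E 1))) := by
    have := NormedRing.inverse_continuousAt v
    rw [hv] at this
    exact this.tendsto.comp ((aE 1).continuousAt.tendsto.comp lt')
  have l2 : Tendsto (fun k => fderiv ℂ ψ (σ (ρ (t k)))) atTop (𝓝 (fderiv ℂ ψ x)) :=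
    (hψ x hx).fderiv.continuousAt.tendsto.comp lx
  have l3 : Tendsto (fun k => C * ‖(Ring.inverse (E (t k)) * fderiv ℂ ψ (σ (ρ (t k)))) u‖ ^ 2) atTop
      (𝓝 (C * ‖(Ring.inverse (E 1) * fderiv ℂ ψ x) u‖ ^ 2)) :=
    (((((ContinuousLinearMap.apply ℂ (Cn n) u).continuous.tendsto _).comp
      (l1.mul l2)).norm).pow 2).const_mul C
  have l4 : Tendsto (fun k => sq h (σ (ρ (t k))) u) atTop (𝓝 (sq h x u)) :=
    ((reQ (ev u)).continuous.tendsto _).comp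
      ((hK.smooth.continuousOn.continuousAt (hΩ.mem_nhds hx)).tendsto.comp lx)
  have l5 := le_of_tendsto_of_tendsto' l4 l3 fun k => by
    refine le_trans (le_of_eq ?_) (hC' _ (ht k) _)
    have k1 : IsUnit (E (t k)) := hΦ.unit _ z
    have k2 : fderiv ℂ σ (ρ (t k)) * (E (t k) * (Ring.inverse (E (t k)) *
        fderiv ℂ ψ (σ (ρ (t k))))) = 1 := by
      rw [← mul_assoc (E (t k)), Ring.mul_inverse_cancel _ k1, one_mul]
      exact (g.inv hψ (mρ _ (ht k).2)).2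
    exact congrArg _ (congrArg (fun A : Cn n →L[ℂ] Cn n => A u) k2).symm
  rw [ContinuousLinearMap.mul_apply, hu, map_zero, norm_zero] at l5
  have := hK.pos x hx u u0
  simp at l5
  linarith

theorem extend (hΩ : IsOpen Ω) (hψ : AnalyticOnNhd ℂ ψ Ω) (g : Good Ω ψ σ₀ (ball 0 R) σ)
    {w x : Cn n} (hw : ‖w‖ = R) {y : ℕ → Cn n} (hy : ∀ k, y k ∈ ball (0 : Cn n) R)
    (ly : Tendsto y atTop (𝓝 w)) (hx : x ∈ Ω) (lx : Tendsto (fun k => σ (y k)) atTop (𝓝 x))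
    (hu : IsUnit (fderiv ℂ ψ x)) : ∃ V s, Good Ω ψ σ₀ V s ∧ w ∈ V := by
  classical
  have hR : 0 < R := by simpa using g.z
  have e : ψ x = w := tendsto_nhds_unique ((hψ x hx).continuousAt.tendsto.comp lx)
    (ly.congr fun k => (g.pt _ (hy k)).2.2.symm)
  obtain ⟨τ, t1, t2, t3⟩ := locinv (hψ x hx) hu
  have t4 : ∀ᶠ v in 𝓝 (ψ x), τ v ∈ Ω :=
    t1.continuousAt.eventually (hΩ.mem_nhds (by rw [t2.self_of_nhds]; exact hx))
  rw [e] at t1 t3 t4
  obtain ⟨ε, hε, hb⟩ := Metric.eventually_nhds_iff_ball.1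
    (t1.eventually_analyticAt.and (t4.and t3))
  obtain ⟨k, k1, k2⟩ := ((lx.eventually t2.eventually_nhds).and
    (ly.eventually (ball_mem_nhds w hε))).exists
  have ag : EqOn τ σ (ball 0 R ∩ ball w ε) :=
    AnalyticOnNhd.eqOn_of_preconnected_of_eventuallyEq (fun v hv => (hb v hv.2).1)
      (fun v hv => (g.pt v hv.1).1) ((convex_ball _ _).inter (convex_ball _ _)).isPreconnected
      ⟨hy k, k2⟩ (by
        filter_upwards [(g.pt _ (hy k)).1.continuousAt.eventually k1,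
          isOpen_ball.mem_nhds (hy k)] with v h1 h2
        rwa [(g.pt v h2).2.2] at h1)
  let s : Cn n → Cn n := fun v => if v ∈ ball w ε then τ v else σ v
  have s1 : ∀ v ∈ ball w ε, s v = τ v := fun v hv => if_pos hv
  have s2 : ∀ v ∈ ball (0 : Cn n) R, s v = σ v := fun v hv => by
    by_cases k : v ∈ ball w ε
    · exact (s1 v k).trans (ag ⟨hv, k⟩)
    · exact if_neg k
  refine ⟨ball 0 R ∪ ball w ε, s, ⟨isOpen_ball.union isOpen_ball, star_two hw hR, Or.inl g.z, ?_,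
    EventuallyEq.trans (Filter.eventually_of_mem (isOpen_ball.mem_nhds g.z) s2) g.ev⟩,
    Or.inr (mem_ball_self hε)⟩
  rintro v (hv | hv)
  · rw [s2 v hv]
    exact ⟨(g.pt v hv).1.congr (EventuallyEq.symm
      (Filter.eventually_of_mem (isOpen_ball.mem_nhds hv) s2)), (g.pt v hv).2⟩
  · rw [s1 v hv]
    exact ⟨(hb v hv).1.congr (EventuallyEq.symm
      (Filter.eventually_of_mem (isOpen_ball.mem_nhds hv) s1)), (hb v hv).2⟩

theorem core (hΩ : IsOpen Ω) (hcon : IsPreconnected Ω) (hK : IsKaehler Ω h)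
    (hB : ∀ z ∈ Ω, ∀ X Y, 0 ≤ bisec h z X Y)
    (hc : IsCompleteOn Ω h) (ha : ∀ j, 0 < a j) (hψ : AnalyticOnNhd ℂ ψ Ω)
    (hφ : ∀ θ, AnalyticOnNhd ℂ (φ θ) Ω) (hP : ∀ θ, Preserves Ω h (φ θ)) {p : Cn n} (hp : p ∈ Ω)
    (h0 : ψ p = 0) (hu : IsUnit (fderiv ℂ ψ p)) (hf : ∀ θ, φ θ p = p)
    (he : ∀ θ : ℝ, ∀ z ∈ Ω, ψ (φ θ z) = rot a θ (ψ z)) :
    ∃ σ : Cn n → Cn n, Differentiable ℂ σ ∧ (∀ w, σ w ∈ Ω ∧ ψ (σ w) = w) ∧
      ∀ z ∈ Ω, σ (ψ z) = z := by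
  obtain ⟨τ, t1, t2, t3⟩ := locinv (hψ p hp) hu
  have t0 : τ 0 = p := h0 ▸ t2.self_of_nhds
  rw [h0] at t1 t3
  have t4 : ∀ᶠ v in 𝓝 0, τ v ∈ Ω := t1.continuousAt.eventually (hΩ.mem_nhds (t0 ▸ hp))
  obtain ⟨ε, hε, hb⟩ := Metric.eventually_nhds_iff_ball.1
    (t1.eventually_analyticAt.and (t4.and t3))
  obtain ⟨s, g⟩ := all_of_extend (Ω := Ω) (ψ := ψ) (σ₀ := τ) ⟨ball 0 ε, τ, isOpen_ball,
    (convex_ball _ _).starConvex (mem_ball_self hε), mem_ball_self hε, hb, EventuallyEq.rfl⟩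
    fun R s w g hw => by
      have he' : ∀ θ : ℝ, ∀ y ∈ ball (0 : Cn n) R, s (rot a θ y) = φ θ (s y) := fun θ => by
        have mr : ∀ y ∈ ball (0 : Cn n) R, rot a θ y ∈ ball (0 : Cn n) R := fun y hy =>
          mem_ball_zero_iff.2 ((rot_le ha (by simp) y).trans_lt (mem_ball_zero_iff.1 hy))
        refine AnalyticOnNhd.eqOn_of_preconnected_of_eventuallyEq (f := fun y => s (rot a θ y))
          (g := fun y => φ θ (s y)) (fun y hy => (g.pt _ (mr y hy)).1.comp (rot_an a θ y))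
          (fun y hy => (hφ θ _ (g.pt y hy).2.1).comp (g.pt y hy).1)
          (convex_ball _ _).isPreconnected g.z ?_
        have s0 : s 0 = p := g.ev.self_of_nhds.trans t0
        have r0 : rot a θ 0 = 0 := by ext j; simp [rot]
        have c1 : Tendsto (fun y => φ θ (s y)) (𝓝 0) (𝓝 p) := by
          have := ((hφ θ _ (g.pt 0 g.z).2.1).comp (g.pt 0 g.z).1).continuousAt.tendsto
          rwa [Function.comp_apply, s0, hf] at this
        have c2 : Tendsto (rot a θ) (𝓝 0) (𝓝 0) := by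
          have := (rot_an a θ 0).continuousAt.tendsto
          rwa [r0] at this
        filter_upwards [c1.eventually t2, c2.eventually g.ev, isOpen_ball.mem_nhds g.z]
          with y h1 h2 h3
        rw [h2, ← h1, he θ _ (g.pt y h3).2.1, (g.pt y h3).2.2]
      obtain ⟨y, x, y1, y2, y3, y4, y5⟩ := ray hΩ hK hB hc ha hψ hφ hP g he' hw
      exact extend hΩ hψ g hw y1 y2 y3 y4 y5
  refine ⟨s, fun w => (g.pt w trivial).1.differentiableAt, fun w => (g.pt w trivial).2, ?_⟩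
  refine AnalyticOnNhd.eqOn_of_preconnected_of_eventuallyEq (f := fun z => s (ψ z)) (g := id)
    (fun z hz => (g.pt _ trivial).1.comp (hψ z hz)) analyticOnNhd_id hcon hp ?_
  have c1 : Tendsto ψ (𝓝 p) (𝓝 0) := h0 ▸ (hψ p hp).continuousAt.tendsto
  filter_upwards [c1.eventually g.ev, t2] with z h1 h2
  exact h1.trans h2

end Vale.Agent.P253
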