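import Mathlib

/-! Kaehler metrics on open subsets of a complex inner product space, bisectional curvature,
completeness, holomorphic actions of the additive group `ℂ`. -/

namespace Vale.Agent.P253G

open Complex Set Filter Topology
open scoped InnerProductSpace ContDiff

section Calculus

variable {E F : Type} [NormedAddCommGroup E] [NormedSpace ℂ E] [NormedAddCommGroup F]
  [NormedSpace ℂ F]

/-- The real derivative of `f` at `z` in the direction `Y`. -/
noncomputable def d1 (f : E → F) (z Y : E) : F := fderiv ℝ f z Y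

/-- The second real derivative of `f` at `z` in the direction `Y`. -/
noncomputable def d2 (f : E → F) (z Y : E) : F := fderiv ℝ (fderiv ℝ f) z Y Y

/-- The derivative `∂_Y f = ∑ Y_k ∂f/∂z_k`. -/
noncomputable def del (f : E → F) (z Y : E) : F :=
  (1 / 2 : ℂ) • (d1 f z Y - I • d1 f z (I • Y))

/-- The conjugate derivative `∑ conj(Y_k) ∂f/∂conj(z_k)`. -/
noncomputable def delb (f : E → F) (z Y : E) : F :=
  (1 / 2 : ℂ) • (d1 f z Y + I • d1 f z (I • Y))

/-- The mixed second derivative `∑ Y_k conj(Y_l) ∂²f/∂z_k∂conj(z_l)`, a quarter of the Laplacian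
along the complex line of `Y`. -/
noncomputable def lap (f : E → F) (z Y : E) : F :=
  (1 / 4 : ℂ) • (d2 f z Y + d2 f z (I • Y))

/-- `f` is smooth, in the real sense, on `Ω`. -/
def Smooth (f : E → F) (Ω : Set E) : Prop := ContDiffOn ℝ ∞ f Ω

end Calculus

/-- Fields of operators: the Hermitian metric at `z` is `(X, Y) ↦ ⟪X, h z Y⟫`. -/
abbrev Met (E : Type) [NormedAddCommGroup E] [InnerProductSpace ℂ E] : Type := E → E →L[ℂ] E

variable {E : Type} [NormedAddCommGroup E] [InnerProductSpace ℂ E]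

/-- The Hermitian product of the tangent vectors `X`, `Y` at `z`. -/
noncomputable def herm (h : Met E) (z X Y : E) : ℂ := ⟪X, h z Y⟫_ℂ

/-- The bisectional curvature `R(X, conj X, Y, conj Y)` at `z`. -/
noncomputable def bisec (h : Met E) (z X Y : E) : ℝ :=
  (⟪X, delb h z Y (Ring.inverse (h z) (del h z Y X)) - lap h z Y X⟫_ℂ).re

/-- `h` is a smooth Kaehler metric on `Ω`. -/
structure IsKaehler (Ω : Set E) (h : Met E) : Prop where
  smooth : Smooth h Ω
  symm : ∀ z ∈ Ω, ∀ X Y, herm h z Y X = (starRingEnd ℂ) (herm h z X Y)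
  pos : ∀ z ∈ Ω, ∀ X, X ≠ 0 → 0 < (herm h z X X).re
  closed : ∀ z ∈ Ω, ∀ X Y, del h z X Y = del h z Y X

/-- The Riemannian distance of `x` and `y` in `(Ω, h)` is less than `ε`. -/
def Close (Ω : Set E) (h : Met E) (x y : E) (ε : ℝ) : Prop :=
  ∃ γ : ℝ → E, ContDiff ℝ 1 γ ∧ γ 0 = x ∧ γ 1 = y ∧ MapsTo γ (Icc 0 1) Ω ∧
    ∫ t in (0 : ℝ)..1, √(herm h (γ t) (deriv γ t) (deriv γ t)).re < ε

/-- Every Cauchy sequence of `(Ω, h)` converges to a point of `Ω`. -/
def IsCompleteOn (Ω : Set E) (h : Met E) : Prop :=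
  ∀ x : ℕ → E, (∀ ε > 0, ∃ N, ∀ k ≥ N, ∀ l ≥ N, Close Ω h (x k) (x l) ε) →
    ∃ p ∈ Ω, Tendsto x atTop (𝓝 p)

/-- A holomorphic action of the additive group `ℂ` on `E`. -/
structure IsAction (Φ : ℂ → E → E) : Prop where
  hol : AnalyticOnNhd ℂ (fun p : ℂ × E => Φ p.1 p.2) univ
  zero : ∀ z, Φ 0 z = z
  add : ∀ v w z, Φ (v + w) z = Φ v (Φ w z)

/-- The holomorphic map `f` maps `Ω` to `Ω` and preserves the metric. -/
def Preserves (Ω : Set E) (h : Met E) (f : E → E) : Prop :=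
  ∀ z ∈ Ω, f z ∈ Ω ∧ ∀ X Y, herm h (f z) (fderiv ℂ f z X) (fderiv ℂ f z Y) = herm h z X Y

/-- The space `ℂ^n`. -/
abbrev Cn (n : ℕ) : Type := EuclideanSpace ℂ (Fin n)

/-- The rotation `z_j ↦ exp (i a_j w) z_j`. -/
noncomputable def rot {n : ℕ} (a : Fin n → ℝ) (w : ℂ) (z : Cn n) : Cn n :=
  WithLp.toLp 2 fun j => exp (I * a j * w) * z j

end Vale.Agent.P253G
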