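import Vale.Agent.P253.Gen

/-! Circle actions and biholomorphisms onto the whole space. -/

namespace Vale.Agent.P253G

open Set

variable {E : Type} [NormedAddCommGroup E] [InnerProductSpace ℂ E]

/-- A continuous action of the circle `ℝ / 2πℤ` on `Ω` by holomorphic isometries. -/
structure IsCircleAction (Ω : Set E) (h : Met E) (φ : ℝ → E → E) : Prop where
  hol : ∀ θ, DifferentiableOn ℂ (φ θ) Ω
  iso : ∀ θ, Preserves Ω h (φ θ)
  cont : ContinuousOn (fun p : ℝ × E => φ p.1 p.2) (univ ×ˢ Ω)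
  add : ∀ s t, ∀ z ∈ Ω, φ (s + t) z = φ s (φ t z)
  per : ∀ z ∈ Ω, φ (2 * Real.pi) z = z

/-- `Ω` is biholomorphic to the whole space. -/
def Biholo (Ω : Set E) : Prop :=
  ∃ ψ σ : E → E, DifferentiableOn ℂ ψ Ω ∧ Differentiable ℂ σ ∧
    (∀ w, σ w ∈ Ω ∧ ψ (σ w) = w) ∧ ∀ z ∈ Ω, σ (ψ z) = z

end Vale.Agent.P253G
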