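import Vale.Agent.P253.Main

/-! Local forms of the strip estimate. -/

namespace Vale.Agent.P253

open Complex Set Filter Topology
open scoped InnerProductSpace ContDiff

section Loc

variable {B ι : Type} [CStarAlgebra B] {q : ι → B →L[ℝ] ℝ} {n : ℕ}

theorem line' {V : Type} [NormedAddCommGroup V] [NormedSpace ℂ V] [NormedSpace ℝ V]
    [IsScalarTower ℝ ℂ V] {f : ℂ → V} (w u : ℂ) (s : ℝ) (hf : DifferentiableAt ℂ f (w + s * u)) :
    HasDerivAt (fun s : ℝ => f (w + s * u)) (u • deriv f (w + s * u)) s := by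
  have h1 : HasDerivAt (fun s : ℝ => w + s * u) u s := by
    simpa using (ofRealCLM.hasDerivAt.mul_const u).const_add w
  have h2 := (hf.hasDerivAt.hasFDerivAt.restrictScalars ℝ).comp_hasDerivAt s h1
  simpa [Function.comp_def] using h2

variable {h : Cn n → B} {c : ℂ → Cn n} {D : ℂ → B}

theorem ders' (w u : ℂ) (s : ℝ) (hc : AnalyticAt ℂ c (w + s * u))
    (hD : AnalyticAt ℂ D (w + s * u))
    (hh : ContDiffAt ℝ 2 h (c (w + s * u))) :
    HasDerivAt (fun s : ℝ => HH h c D (w + s * u)) (H1 h c D u (w + s * u)) s ∧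
    HasDerivAt (fun s : ℝ => H1 h c D u (w + s * u)) (H2 h c D u (w + s * u)) s := by
  have c1 := line' w u s hc.differentiableAt
  have c2 := (line' w u s hc.deriv.differentiableAt).fun_const_smul u
  have a1 := line' w u s hD.differentiableAt
  have a2 := (line' w u s hD.deriv.differentiableAt).fun_const_smul u
  have f1 : HasDerivAt (fun s : ℝ => h (c (w + s * u))) (P1 h c u (w + s * u)) s :=
    (hh.differentiableAt (by norm_num)).hasFDerivAt.comp_hasDerivAt s c1
  have g1 : DifferentiableAt ℝ (fderiv ℝ h) (c (w + s * u)) :=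
    (hh.fderiv_right (m := 1) (by norm_num)).differentiableAt (by norm_num)
  have g2 : HasDerivAt (fun s : ℝ => fderiv ℝ h (c (w + s * u)))
      (fderiv ℝ (fderiv ℝ h) (c (w + s * u)) (u • deriv c (w + s * u))) s :=
    g1.hasFDerivAt.comp_hasDerivAt s c1
  have f2 : HasDerivAt (fun s : ℝ => P1 h c u (w + s * u)) (P2 h c u (w + s * u)) s :=
    g2.clm_apply c2
  unfold HH H1 H2
  exact prod3 (a1 := fun s : ℝ => u • deriv D (w + s * u))
    (f1 := fun s : ℝ => P1 h c u (w + s * u)) a1 a2 f1 f2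

theorem strip' (hq : Fam q) {T : ℝ} (hc : ∀ w : ℂ, w.re < T → AnalyticAt ℂ c w)
    (hD : ∀ w : ℂ, w.re < T → AnalyticAt ℂ D w)
    (hu : ∀ w : ℂ, w.re < T → IsUnit (D w)) (hT : 0 < T) {Ω : Set (Cn n)} (hΩ : IsOpen Ω)
    (hh : ContDiffOn ℝ ∞ h Ω) (hs : ∀ z ∈ Ω, star (h z) = h z) (hi : ∀ z ∈ Ω, IsUnit (h z))
    (hp : ∀ z ∈ Ω, ∀ x, 0 ≤ q x (h z))
    (hR : ∀ z ∈ Ω, ∀ Y x, 0 ≤ q x
      ((1 / 2 : ℂ) • (fderiv ℝ h z Y + I • fderiv ℝ h z (I • Y)) * Ring.inverse (h z) *
        (1 / 2 : ℂ) • (fderiv ℝ h z Y - I • fderiv ℝ h z (I • Y)) -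
      (1 / 4 : ℂ) • (fderiv ℝ (fderiv ℝ h) z Y Y + fderiv ℝ (fderiv ℝ h) z (I • Y) (I • Y))))
    (hm : ∀ t ∈ Ico 0 T, ∀ s : ℝ, c ((t : ℝ) + s * I) ∈ Ω ∧
      HH h c D ((t : ℝ) + s * I) = HH h c D (t : ℝ)) :
    ∃ C : ℝ, 0 ≤ C ∧ ∀ t ∈ Ico 0 T, ∀ x, q x (HH h c D (t : ℝ)) ≤ C * q x 1 := by
  have at2 : ∀ z ∈ Ω, ContDiffAt ℝ 2 h z := fun z hz =>
    (hh.contDiffAt (hΩ.mem_nhds hz)).of_le (WithTop.coe_le_coe.2 le_top)
  have m0 : ∀ t ∈ Ico 0 T, c (t : ℝ) ∈ Ω := fun t ht => by simpa using (hm t ht 0).1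
  have dr := fun t (ht : t ∈ Ico 0 T) => ders' (h := h) 0 1 t (hc _ (by simpa using ht.2))
    (hD _ (by simpa using ht.2)) (at2 _ (by simpa using m0 t ht))
  simp only [zero_add, mul_one] at dr
  have sH : ∀ w, c w ∈ Ω → star (HH h c D w) = HH h c D w := fun w hw => by
    simp only [HH, star_mul, star_star, hs _ hw, mul_assoc]
  refine hq.riccati (H1 := fun t => H1 h c D 1 t) (H2 := fun t => H2 h c D 1 t)
    (fun t ht => (dr t ht).1) (fun t ht => (dr t ht).2) (fun t ht => sH _ (m0 t ht))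
    (fun t ht => ?_) (fun t ht => ((hu _ ht.2).star.mul (hi _ (m0 t ht))).mul (hu _ ht.2))
    (fun t ht => hq.pos (hp _ (m0 t ht)) _) (fun t ht x => ?_) hT
  · have ev : ∀ᶠ s : ℝ in 𝓝 t, c s ∈ Ω :=
      ((hc t ht.2).continuousAt.comp continuous_ofReal.continuousAt).eventually (hΩ.mem_nhds (m0 t ht))
    exact (dr t ht).1.star.unique ((dr t ht).1.congr_of_eventuallyEq (ev.mono fun s k => sH _ k))
  · have di := fun s : ℝ => ders' (h := h) t I s (hc _ (by simpa using ht.2))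
      (hD _ (by simpa using ht.2)) (at2 _ (hm t ht s).1)
    have z1 : ∀ s : ℝ, H1 h c D I (t + s * I) = 0 := fun s => by
      have := (di s).1
      simp only [fun s => (hm t ht s).2] at this
      exact this.unique (hasDerivAt_const _ _)
    have z2 : H2 h c D I (t + (0 : ℝ) * I) = 0 := by
      have := (di 0).2
      simp only [z1] at this
      exact this.unique (hasDerivAt_const _ _)
    have z1' := z1 0
    simp only [ofReal_zero, zero_mul, add_zero] at z1' z2
    obtain ⟨a, ha⟩ := hu t ht.2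
    obtain ⟨f, hf⟩ := hi _ (m0 t ht)
    set Y := deriv c t with hY
    set d := (1 / 2 : ℂ) • (fderiv ℝ h (c t) Y - I • fderiv ℝ h (c t) (I • Y)) with hd
    set e := (1 / 2 : ℂ) • (fderiv ℝ h (c t) Y + I • fderiv ℝ h (c t) (I • Y)) with he
    have p1 : P1 h c 1 t = d + e := by
      rw [P1, one_smul, hd, he]
      module
    have pI : P1 h c I t = I • (d - e) := by
      have : d - e = -(I • fderiv ℝ h (c t) (I • Y)) := by rw [hd, he]; module
      rw [this, smul_neg, smul_smul, I_mul_I, neg_one_smul, neg_neg, P1]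
    have qI : P2 h c I t = fderiv ℝ (fderiv ℝ h) (c t) (I • Y) (I • Y) -
        fderiv ℝ h (c t) (deriv (deriv c) t) := by
      rw [P2, smul_smul, I_mul_I, neg_one_smul, map_neg, sub_eq_add_neg]
    have hG : D t * Ring.inverse (HH h c D t) * star (D t) = Ring.inverse (h (c t)) := by
      have : HH h c D t = ↑(star a * f * a) := by simp [HH, ← ha, ← hf]
      rw [this, ← ha, ← hf, Ring.inverse_unit, Ring.inverse_unit, ← Units.coe_star,
        ← Units.val_mul, ← Units.val_mul]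
      congr 1
      group
    rw [H1, pI] at z1'
    rw [H2, pI, qI] at z2
    have key := alg hG (Ring.mul_inverse_cancel _ (hi _ (m0 t ht)))
      (Ring.inverse_mul_cancel _ (hi _ (m0 t ht))) z1' z2
      (r := fderiv ℝ (fderiv ℝ h) (c t) Y Y)
    simp only [H1, H2, p1, P2, one_smul]
    rw [key, map_smul, smul_eq_mul]
    exact mul_nonneg (by norm_num) (hq.pos (hR _ (m0 t ht) Y) _ x)

end Loc

variable {n : ℕ} {Ω : Set (Cn n)} {h : Met n}

theorem lim (hc : IsCompleteOn Ω h) {c : ℂ → Cn n} {T K : ℝ} (T0 : 0 < T)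
    (dc : ∀ w : ℂ, w.re < T → AnalyticAt ℂ c w) (hm : ∀ t ∈ Ico 0 T, c (t : ℝ) ∈ Ω)
    (hK : ∀ t ∈ Ico 0 T, sq h (c (t : ℝ)) (deriv c (t : ℝ)) ≤ K) :
    ∃ t : ℕ → ℝ, (∀ k, t k ∈ Ico 0 T) ∧ Tendsto t atTop (𝓝 T) ∧
      ∃ p ∈ Ω, Tendsto (fun k => c (t k)) atTop (𝓝 p) := by
  obtain ⟨t, -, ht, lt⟩ := exists_seq_strictMono_tendsto' T0
  have ht' : ∀ k, t k ∈ Ico 0 T := fun k => Ioo_subset_Ico_self (ht k)
  refine ⟨t, ht', lt, hc (fun k => c (t k)) fun ε hε => ?_⟩
  have hK0 : 0 < 2 * √K + 1 := by positivity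
  obtain ⟨N, hN⟩ := Metric.cauchySeq_iff.1 lt.cauchySeq (ε / (2 * √K + 1)) (by positivity)
  refine ⟨N, fun k hk l hl => ?_⟩
  set g : ℝ → ℝ := fun s => t k + (1 - Real.cos (Real.pi * s)) / 2 * (t l - t k) with hg
  have seg : ∀ s, g s ∈ Ico 0 T := fun s => by
    have := (convex_Ico 0 T).add_smul_sub_mem (ht' k) (ht' l)
      (t := (1 - Real.cos (Real.pi * s)) / 2)
      ⟨by linarith [Real.cos_le_one (Real.pi * s)], by linarith [Real.neg_one_le_cos (Real.pi * s)]⟩
    rwa [smul_eq_mul] at this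
  have dg : ∀ s, HasDerivAt g (Real.sin (Real.pi * s) * Real.pi / 2 * (t l - t k)) s := fun s => by
    have h1 : HasDerivAt (fun s => Real.cos (Real.pi * s)) (-Real.sin (Real.pi * s) * Real.pi) s := by
      simpa using ((hasDerivAt_id s).const_mul Real.pi).cos
    refine ((((h1.const_sub 1).div_const 2).mul_const (t l - t k)).const_add (t k)).congr_deriv ?_
    ring
  have cg : ContDiff ℝ 1 g := by rw [hg]; fun_prop
  refine ⟨fun s => c (g s), contDiff_iff_contDiffAt.2 fun s => ?_, by simp [hg], by simp [hg],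
    fun s _ => hm _ (seg s), ?_⟩
  · exact ((dc _ (seg s).2).contDiffAt.restrict_scalars ℝ).comp s
      (ofRealCLM.contDiff.comp cg).contDiffAt
  · refine (Real.le_norm_self _).trans_lt ((intervalIntegral.norm_integral_le_of_norm_le_const
      (C := 2 * |t l - t k| * √K) fun s _ => ?_).trans_lt ?_)
    · have h2 := ((dc _ (seg s).2).differentiableAt.hasDerivAt.hasFDerivAt.restrictScalars
        ℝ).comp_hasDerivAt s (dg s).ofReal_comp
      set r := Real.sin (Real.pi * s) * Real.pi / 2 * (t l - t k) with hr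
      have h3 : deriv (fun s => c (g s)) s = (r : ℂ) • deriv c (g s) := h2.deriv
      have h4 : |r| ≤ 2 * |t l - t k| := by
        rw [hr, abs_mul]
        refine mul_le_mul_of_nonneg_right ?_ (abs_nonneg _)
        rw [abs_div, abs_mul, abs_of_pos Real.pi_pos, abs_two]
        nlinarith [Real.abs_sin_le_one (Real.pi * s), Real.pi_le_four, Real.pi_pos,
          abs_nonneg (Real.sin (Real.pi * s))]
      refine le_trans ?_ (mul_le_mul_of_nonneg_right h4 (Real.sqrt_nonneg K))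
      rw [h3, Real.norm_of_nonneg (Real.sqrt_nonneg _),
        ← Real.sqrt_sq_eq_abs, ← Real.sqrt_mul (sq_nonneg _)]
      refine Real.sqrt_le_sqrt (le_trans (le_of_eq ?_) (mul_le_mul_of_nonneg_left
        (hK _ (seg s)) (sq_nonneg _)))
      rw [sq, sq, map_smul, inner_smul_left, inner_smul_right, conj_ofReal, re_ofReal_mul,
        re_ofReal_mul]
      ring
    · have := hN l hl k hk
      rw [Real.dist_eq, lt_div_iff₀ hK0] at this
      simp only [sub_zero, abs_one, mul_one]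
      nlinarith [abs_nonneg (t l - t k)]

end Vale.Agent.P253
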