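import Vale.Agent.P253.MDefs
import Vale.Agent.P253.Bridge
import Vale.Agent.P253.Avg

/-! Calculus on manifolds. -/

namespace Vale.Agent.P253G

open Complex Set Filter Topology Metric
open scoped InnerProductSpace Manifold ContDiff

variable {n : ℕ} {M N P : Type} [TopologicalSpace M] [ChartedSpace (Cn n) M]
  [TopologicalSpace N] [ChartedSpace (Cn n) N] [TopologicalSpace P] [ChartedSpace (Cn n) P]

variable (n) in
abbrev HA (f : M → N) (x : M) : Prop := ContMDiffAt 𝓘(ℂ, Cn n) 𝓘(ℂ, Cn n) ω f x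

variable (n) in
abbrev MD (f : M → N) (x : M) : Prop := MDifferentiableAt 𝓘(ℂ, Cn n) 𝓘(ℂ, Cn n) f x

theorem HA.md {f : M → N} {x : M} (h : HA n f x) : MD n f x := h.mdifferentiableAt (by simp)

theorem dM_comp {f : M → N} {g : N → P} {x : M} (hg : MD n g (f x)) (hf : MD n f x) :
    dM (Cn n) (g ∘ f) x = dM (Cn n) g (f x) * dM (Cn n) f x := mfderiv_comp x hg hf

theorem dM_congr {f g : M → N} {x : M} (h : f =ᶠ[𝓝 x] g) : dM (Cn n) f x = dM (Cn n) g x :=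
  h.mfderiv_eq

theorem dM_id (x : M) : dM (Cn n) (id : M → M) x = 1 := mfderiv_id

theorem dM_eq (f : Cn n → Cn n) (x : Cn n) : dM (Cn n) f x = fderiv ℂ f x := mfderiv_eq_fderiv

theorem HA.an {f : Cn n → Cn n} {x : Cn n} (h : HA n f x) : AnalyticAt ℂ f x :=
  (contMDiffAt_iff_contDiffAt.1 h).analyticAt

theorem ha_of_an {f : Cn n → Cn n} {x : Cn n} (h : AnalyticAt ℂ f x) : HA n f x :=
  contMDiffAt_iff_contDiffAt.2 h.contDiffAt

theorem inv_of_comp {f : M → N} {s : N → M} {w : N} (hf : MD n f (s w)) (hs : MD n s w)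
    (e : f ∘ s =ᶠ[𝓝 w] id) :
    IsUnit (dM (Cn n) s w) ∧ dM (Cn n) s w * dM (Cn n) f (s w) = 1 := by
  have h1 : dM (Cn n) f (s w) * dM (Cn n) s w = 1 := by
    rw [← dM_comp hf hs, dM_congr e, dM_id]
  have h2 : IsUnit (dM (Cn n) s w) := P253.unit_of_inj fun x hx => by
    have := congrArg (fun A : Cn n →L[ℂ] Cn n => A x) h1
    simpa [hx] using this.symm
  obtain ⟨u, hu⟩ := h2
  refine ⟨⟨u, hu⟩, ?_⟩
  rw [← hu] at h1 ⊢
  rw [Units.eq_inv_of_mul_eq_one_right h1, Units.mul_inv]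

theorem dM_self {s : Cn n → M} {w : Cn n} (hs : MD n s w) :
    dM (Cn n) s w = fderiv ℂ (chartAt (Cn n) (s w) ∘ s) w := by
  unfold dM
  rw [hs.mfderiv]
  simp only [writtenInExtChartAt, mfld_simps, fderivWithin_univ]
  rfl

theorem curve {γ : ℝ → M} {t : ℝ} (h1 : ContinuousAt γ t)
    (h2 : ContDiffAt ℝ 1 (chartAt (Cn n) (γ t) ∘ γ) t) :
    ContMDiffAt 𝓘(ℝ, ℝ) 𝓘(ℝ, Cn n) 1 γ t ∧
      vel (Cn n) γ t = deriv (chartAt (Cn n) (γ t) ∘ γ) t := by
  have h3 : ContMDiffAt 𝓘(ℝ, ℝ) 𝓘(ℝ, Cn n) 1 γ t := by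
    rw [contMDiffAt_iff]
    refine ⟨h1, ?_⟩
    simp only [mfld_simps, contDiffWithinAt_univ]
    exact h2
  refine ⟨h3, ?_⟩
  unfold vel
  rw [(h3.mdifferentiableAt one_ne_zero).mfderiv]
  simp only [writtenInExtChartAt, mfld_simps, fderivWithin_univ]
  rfl

/-- Uniqueness of lifts. -/
theorem lift_eq {Y Z : Type} [TopologicalSpace Y] [T2Space M] {ψ : M → Z} {S : Set Y}
    (hS : IsPreconnected S) {f g : Y → M} (hf : ∀ y ∈ S, ContinuousAt f y)
    (hg : ∀ y ∈ S, ContinuousAt g y) (e : ∀ y ∈ S, ∀ᶠ y' in 𝓝 y, ψ (f y') = ψ (g y'))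
    (li : ∀ y ∈ S, ∃ U ∈ 𝓝 (f y), InjOn ψ U) {y₀ : Y} (h0 : y₀ ∈ S) (e0 : f y₀ = g y₀) :
    EqOn f g S := by
  have key : ∀ y ∈ S, f y = g y → f =ᶠ[𝓝 y] g := fun y hy k => by
    obtain ⟨U, hU, hi⟩ := li y hy
    filter_upwards [(hf y hy).eventually hU, (hg y hy).eventually (k ▸ hU), e y hy] with y' a b c
    exact hi a b c
  have := hS.subset_of_closure_inter_subset (u := {y | f =ᶠ[𝓝 y] g}) isOpen_setOfPred_eventually_nhds
    ⟨y₀, h0, key y₀ h0 e0⟩ fun y hy => key y hy.2 (tendsto_nhds_unique_of_frequently_eq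
      (hf y hy.2) (hg y hy.2) ((mem_closure_iff_frequently.1 hy.1).mono fun y' k => k.self_of_nhds))
  exact fun y hy => (this hy).self_of_nhds

variable [IsManifold 𝓘(ℂ, Cn n) ω M]

theorem ha_chart {x y : M} (hy : y ∈ (chartAt (Cn n) x).source) : HA n (chartAt (Cn n) x) y :=
  contMDiffOn_chart.contMDiffAt ((chartAt (Cn n) x).open_source.mem_nhds hy)

theorem ha_symm {x : M} {z : Cn n} (hz : z ∈ (chartAt (Cn n) x).target) :
    HA n (chartAt (Cn n) x).symm z :=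
  contMDiffOn_chart_symm.contMDiffAt ((chartAt (Cn n) x).open_target.mem_nhds hz)

theorem dM_chart {s : Cn n → M} {w : Cn n} {x : M} (hs : MD n s w)
    (hx : s w ∈ (chartAt (Cn n) x).source) : dM (Cn n) s w =
      dM (Cn n) (chartAt (Cn n) x).symm (chartAt (Cn n) x (s w)) *
        fderiv ℂ (chartAt (Cn n) x ∘ s) w := by
  have e : s =ᶠ[𝓝 w] (chartAt (Cn n) x).symm ∘ (chartAt (Cn n) x ∘ s) := by
    filter_upwards [hs.continuousAt.eventually ((chartAt (Cn n) x).open_source.mem_nhds hx)] with y k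
    exact ((chartAt (Cn n) x).left_inv k).symm
  rw [dM_congr e, dM_comp (f := chartAt (Cn n) x ∘ s) (ha_symm ((chartAt (Cn n) x).map_source hx)).md
    ((ha_chart hx).md.comp w hs), dM_eq]
  rfl

theorem locinvM {ψ : M → Cn n} {x : M} (hψ : HA n ψ x) (hu : IsUnit (dM (Cn n) ψ x)) :
    ∃ τ : Cn n → M, HA n τ (ψ x) ∧ (∀ᶠ y in 𝓝 x, τ (ψ y) = y) ∧
      ∀ᶠ w in 𝓝 (ψ x), ψ (τ w) = w := by
  set e := chartAt (Cn n) x with he
  have hx : x ∈ e.source := mem_chart_source _ x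
  have h0 : e.symm (e x) = x := e.left_inv hx
  have hz := ha_symm (e.map_source hx)
  have h1 : HA n ψ (e.symm (e x)) := by rwa [h0]
  have h2 : IsUnit (dM (Cn n) e.symm (e x)) :=
    (inv_of_comp (f := e) (by rw [h0]; exact (ha_chart hx).md) hz.md
      (e.eventually_right_inverse' hx)).1
  obtain ⟨τ, t1, t2, t3⟩ := P253.locinv (ψ := ψ ∘ e.symm) (x := e x) (HA.an (h1.comp _ hz)) (by
    rw [← dM_eq, dM_comp h1.md hz.md, h0]
    exact hu.mul h2)
  have t0 := t2.self_of_nhds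
  rw [Function.comp_apply, h0] at t0 t1 t3
  refine ⟨e.symm ∘ τ, ContMDiffAt.comp _ (by rw [t0]; exact hz) (ha_of_an t1), ?_, t3⟩
  filter_upwards [(e.continuousAt hx).eventually t2, e.open_source.mem_nhds hx] with y k1 k2
  rw [Function.comp_apply, e.left_inv k2] at k1
  rw [Function.comp_apply, k1, e.left_inv k2]

end Vale.Agent.P253G
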