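import Vale.Agent.P253.Loc

/-! The pointwise curvature inequality. -/

namespace Vale.Agent.P253

open Complex Set Filter Topology
open scoped InnerProductSpace ContDiff

variable {B ι : Type} [CStarAlgebra B] {q : ι → B →L[ℝ] ℝ} {n : ℕ}
  {h : Cn n → B} {c : ℂ → Cn n} {D : ℂ → B}

theorem point (hq : Fam q) {t : ℝ} (hc : AnalyticAt ℂ c t) (hD : AnalyticAt ℂ D t)
    (hu : IsUnit (D t)) {Ω : Set (Cn n)} (hΩ : IsOpen Ω)
    (hh : ContDiffOn ℝ ∞ h Ω) (hs : ∀ z ∈ Ω, star (h z) = h z) (hi : ∀ z ∈ Ω, IsUnit (h z))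
    (hp : ∀ z ∈ Ω, ∀ x, 0 ≤ q x (h z))
    (hR : ∀ z ∈ Ω, ∀ Y x, 0 ≤ q x
      ((1 / 2 : ℂ) • (fderiv ℝ h z Y + I • fderiv ℝ h z (I • Y)) * Ring.inverse (h z) *
        (1 / 2 : ℂ) • (fderiv ℝ h z Y - I • fderiv ℝ h z (I • Y)) -
      (1 / 4 : ℂ) • (fderiv ℝ (fderiv ℝ h) z Y Y + fderiv ℝ (fderiv ℝ h) z (I • Y) (I • Y))))
    (m0 : c t ∈ Ω) (hm : ∀ᶠ s : ℝ in 𝓝 0, HH h c D (t + s * I) = HH h c D t) {H : ℝ → B}
    (hH : H =ᶠ[𝓝 t] fun s : ℝ => HH h c D s) :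
    HasDerivAt H (deriv H t) t ∧ HasDerivAt (deriv H) (deriv (deriv H) t) t ∧
      star (H t) = H t ∧ star (deriv H t) = deriv H t ∧ IsUnit (H t) ∧ (∀ x, 0 ≤ q x (H t)) ∧
      ∀ x, 0 ≤ q x (deriv H t * Ring.inverse (H t) * deriv H t - deriv (deriv H) t) := by
  have at2 : ∀ z ∈ Ω, ContDiffAt ℝ 2 h z := fun z hz =>
    (hh.contDiffAt (hΩ.mem_nhds hz)).of_le (WithTop.coe_le_coe.2 le_top)
  have ev : ∀ᶠ w in 𝓝 (t : ℂ), AnalyticAt ℂ c w ∧ AnalyticAt ℂ D w ∧ c w ∈ Ω :=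
    hc.eventually_analyticAt.and (hD.eventually_analyticAt.and
      (hc.continuousAt.eventually (hΩ.mem_nhds m0)))
  have ev1 := (continuous_ofReal.tendsto t).eventually ev
  have ev2 := (Continuous.tendsto' (f := fun s : ℝ => (t : ℂ) + s * I) (by fun_prop) 0 t
    (by simp)).eventually ev
  have dr := ev1.mono fun s k => ders' (h := h) (c := c) (D := D) 0 1 s (by simpa using k.1)
    (by simpa using k.2.1) (at2 _ (by simpa using k.2.2))
  simp only [zero_add, mul_one] at dr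
  have sH : ∀ w, c w ∈ Ω → star (HH h c D w) = HH h c D w := fun w hw => by
    simp only [HH, star_mul, star_star, hs _ hw, mul_assoc]
  have e1 : deriv H =ᶠ[𝓝 t] fun s : ℝ => H1 h c D 1 s :=
    hH.deriv.trans (dr.mono fun s k => k.1.deriv)
  have d1 := dr.self_of_nhds.1.congr_of_eventuallyEq hH
  have d2 := dr.self_of_nhds.2.congr_of_eventuallyEq e1
  rw [d2.deriv, d1.deriv, hH.self_of_nhds]
  refine ⟨d1, d2, sH _ m0, dr.self_of_nhds.1.star.unique
    (dr.self_of_nhds.1.congr_of_eventuallyEq (ev1.mono fun s k => sH _ k.2.2)),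
    (hu.star.mul (hi _ m0)).mul hu, hq.pos (hp _ m0) _, fun x => ?_⟩
  have di := ev2.mono fun s k => ders' (h := h) (c := c) (D := D) t I s k.1 k.2.1 (at2 _ k.2.2)
  have z1 : ∀ᶠ s : ℝ in 𝓝 0, H1 h c D I (t + s * I) = 0 := by
    filter_upwards [di, hm.eventually_nhds] with s k1 k2
    exact k1.1.unique ((hasDerivAt_const _ _).congr_of_eventuallyEq k2)
  have z2 : H2 h c D I (t + (0 : ℝ) * I) = 0 :=
    di.self_of_nhds.2.unique ((hasDerivAt_const _ _).congr_of_eventuallyEq z1)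
  have z1' := z1.self_of_nhds
  simp only [ofReal_zero, zero_mul, add_zero] at z1' z2
  obtain ⟨a, ha⟩ := hu
  obtain ⟨f, hf⟩ := hi _ m0
  set Y := deriv c t with hY
  set d := (1 / 2 : ℂ) • (fderiv ℝ h (c t) Y - I • fderiv ℝ h (c t) (I • Y)) with hd
  set e := (1 / 2 : ℂ) • (fderiv ℝ h (c t) Y + I • fderiv ℝ h (c t) (I • Y)) with he
  have p1 : P1 h c 1 t = d + e := by
    rw [P1, one_smul, hd, he]
    module
  have pI : P1 h c I t = I • (d - e) := by
    have : d - e = -(I • fderiv ℝ h (c t) (I • Y)) := by rw [hd, he]; module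
    rw [this, smul_neg, smul_smul, I_mul_I, neg_one_smul, neg_neg, P1]
  have qI : P2 h c I t = fderiv ℝ (fderiv ℝ h) (c t) (I • Y) (I • Y) -
      fderiv ℝ h (c t) (deriv (deriv c) t) := by
    rw [P2, smul_smul, I_mul_I, neg_one_smul, map_neg, sub_eq_add_neg]
  have hG : D t * Ring.inverse (HH h c D t) * star (D t) = Ring.inverse (h (c t)) := by
    have : HH h c D t = ↑(star a * f * a) := by simp [HH, ← ha, ← hf]
    rw [this, ← ha, ← hf, Ring.inverse_unit, Ring.inverse_unit, ← Units.coe_star,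
      ← Units.val_mul, ← Units.val_mul]
    congr 1
    group
  rw [H1, pI] at z1'
  rw [H2, pI, qI] at z2
  have key := alg hG (Ring.mul_inverse_cancel _ (hi _ m0))
    (Ring.inverse_mul_cancel _ (hi _ m0)) z1' z2
    (r := fderiv ℝ (fderiv ℝ h) (c t) Y Y)
  simp only [H1, H2, p1, P2, one_smul]
  rw [key, map_smul, smul_eq_mul]
  exact mul_nonneg (by norm_num) (hq.pos (hR _ m0 Y) _ x)

end Vale.Agent.P253
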