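import Vale.Agent.P253.M1
import Vale.Agent.P253.Point

/-! Sections with values in a manifold. -/

namespace Vale.Agent.P253G

open Complex Set Filter Topology Metric
open scoped InnerProductSpace Manifold ContDiff

variable {n : ℕ} {M : Type} [TopologicalSpace M] [ChartedSpace (Cn n) M]

theorem limM {G : M → Cn n →L[ℂ] Cn n} (hc : CompleteM G) {c : ℂ → M} {T K : ℝ} (T0 : 0 < T)
    (cc : ∀ w : ℂ, w.re < T → ContinuousAt c w)
    (dc : ∀ w : ℂ, w.re < T → AnalyticAt ℂ (chartAt (Cn n) (c w) ∘ c) w)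
    (hK : ∀ t ∈ Ico 0 T, (hermM G (c (t : ℝ)) (deriv (chartAt (Cn n) (c (t : ℝ)) ∘ c) (t : ℝ))
      (deriv (chartAt (Cn n) (c (t : ℝ)) ∘ c) (t : ℝ))).re ≤ K) :
    ∃ t : ℕ → ℝ, (∀ k, t k ∈ Ico 0 T) ∧ Tendsto t atTop (𝓝 T) ∧
      ∃ p, Tendsto (fun k => c (t k)) atTop (𝓝 p) := by
  obtain ⟨t, -, ht, lt⟩ := exists_seq_strictMono_tendsto' T0
  have ht' : ∀ k, t k ∈ Ico 0 T := fun k => Ioo_subset_Ico_self (ht k)
  refine ⟨t, ht', lt, hc (fun k => c (t k)) fun ε hε => ?_⟩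
  have hK0 : 0 < 2 * √K + 1 := by positivity
  obtain ⟨N, hN⟩ := Metric.cauchySeq_iff.1 lt.cauchySeq (ε / (2 * √K + 1)) (by positivity)
  refine ⟨N, fun k hk l hl => ?_⟩
  set g : ℝ → ℝ := fun s => t k + (1 - Real.cos (Real.pi * s)) / 2 * (t l - t k) with hg
  have seg : ∀ s, g s ∈ Ico 0 T := fun s => by
    have := (convex_Ico 0 T).add_smul_sub_mem (ht' k) (ht' l)
      (t := (1 - Real.cos (Real.pi * s)) / 2)
      ⟨by linarith [Real.cos_le_one (Real.pi * s)], by linarith [Real.neg_one_le_cos (Real.pi * s)]⟩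
    rwa [smul_eq_mul] at this
  have dg : ∀ s, HasDerivAt g (Real.sin (Real.pi * s) * Real.pi / 2 * (t l - t k)) s := fun s => by
    have h1 : HasDerivAt (fun s => Real.cos (Real.pi * s)) (-Real.sin (Real.pi * s) * Real.pi) s := by
      simpa using ((hasDerivAt_id s).const_mul Real.pi).cos
    refine ((((h1.const_sub 1).div_const 2).mul_const (t l - t k)).const_add (t k)).congr_deriv ?_
    ring
  have cg : ContDiff ℝ 1 g := by rw [hg]; fun_prop
  have cv := fun s => curve (n := n) (γ := fun s => c (g s)) (t := s)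
    ((cc _ (seg s).2).comp (f := fun s => (g s : ℂ))
      (continuous_ofReal.comp cg.continuous).continuousAt)
    (((dc _ (seg s).2).contDiffAt.restrict_scalars ℝ).comp s
      (ofRealCLM.contDiff.comp cg).contDiffAt)
  refine ⟨fun s => c (g s), fun s => (cv s).1, by simp [hg], by simp [hg], ?_⟩
  · refine (Real.le_norm_self _).trans_lt ((intervalIntegral.norm_integral_le_of_norm_le_const
      (C := 2 * |t l - t k| * √K) fun s _ => ?_).trans_lt ?_)
    · have h2 := ((dc _ (seg s).2).differentiableAt.hasDerivAt.hasFDerivAt.restrictScalars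
        ℝ).comp_hasDerivAt s (dg s).ofReal_comp
      set r := Real.sin (Real.pi * s) * Real.pi / 2 * (t l - t k) with hr
      have h3 : vel (Cn n) (fun s => c (g s)) s =
          (r : ℂ) • deriv (chartAt (Cn n) (c (g s)) ∘ c) (g s) := (cv s).2.trans h2.deriv
      have h4 : |r| ≤ 2 * |t l - t k| := by
        rw [hr, abs_mul]
        refine mul_le_mul_of_nonneg_right ?_ (abs_nonneg _)
        rw [abs_div, abs_mul, abs_of_pos Real.pi_pos, abs_two]
        nlinarith [Real.abs_sin_le_one (Real.pi * s), Real.pi_le_four, Real.pi_pos,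
          abs_nonneg (Real.sin (Real.pi * s))]
      refine le_trans ?_ (mul_le_mul_of_nonneg_right h4 (Real.sqrt_nonneg K))
      rw [h3, Real.norm_of_nonneg (Real.sqrt_nonneg _),
        ← Real.sqrt_sq_eq_abs, ← Real.sqrt_mul (sq_nonneg _)]
      refine Real.sqrt_le_sqrt (le_trans (le_of_eq ?_) (mul_le_mul_of_nonneg_left
        (hK _ (seg s)) (sq_nonneg _)))
      rw [hermM, hermM, map_smul, inner_smul_left, inner_smul_right, conj_ofReal, re_ofReal_mul,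
        re_ofReal_mul]
      ring
    · have := hN l hl k hk
      rw [Real.dist_eq, lt_div_iff₀ hK0] at this
      simp only [sub_zero, abs_one, mul_one]
      nlinarith [abs_nonneg (t l - t k)]

/-- Holomorphic sections of `ψ` over star-shaped domains with a given germ at the origin. -/
structure GoodM (ψ : M → Cn n) (σ₀ : Cn n → M) (V : Set (Cn n)) (s : Cn n → M) : Prop where
  op : IsOpen V
  st : StarConvex ℝ 0 V
  z : 0 ∈ V
  pt : ∀ w ∈ V, HA n s w ∧ ψ (s w) = w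
  ev : s =ᶠ[𝓝 0] σ₀

variable {ψ : M → Cn n} {σ₀ : Cn n → M}

theorem GoodM.sec {V : Set (Cn n)} {s : Cn n → M} (g : GoodM ψ σ₀ V s) {w : Cn n} (hw : w ∈ V) :
    ∀ᶠ y in 𝓝 w, ψ (s y) = y :=
  Filter.eventually_of_mem (g.op.mem_nhds hw) fun y hy => (g.pt y hy).2

variable [IsManifold 𝓘(ℂ, Cn n) ω M]

theorem GoodM.li {V : Set (Cn n)} {s : Cn n → M} (g : GoodM ψ σ₀ V s) (hψ : ∀ x, HA n ψ x)
    {w : Cn n} (hw : w ∈ V) : ∃ U ∈ 𝓝 (s w), InjOn ψ U := by
  obtain ⟨⟨u, hu⟩, h2⟩ := inv_of_comp (hψ _).md (g.pt w hw).1.md (g.sec hw)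
  rw [← hu] at h2
  obtain ⟨τ, -, t2, -⟩ := locinvM (hψ (s w)) ⟨u⁻¹, (Units.eq_inv_of_mul_eq_one_left h2).symm⟩
  exact ⟨_, t2, fun a ha b hb e => ha.symm.trans ((congrArg τ e).trans hb)⟩

variable [T2Space M]

theorem GoodM.agree {V V' : Set (Cn n)} {s s' : Cn n → M} (g : GoodM ψ σ₀ V s)
    (hψ : ∀ x, HA n ψ x) (g' : GoodM ψ σ₀ V' s') : EqOn s s' (V ∩ V') :=
  lift_eq ((g.st.inter g'.st).isPathConnected ⟨g.z, g'.z⟩).isConnected.isPreconnected
    (fun y hy => (g.pt y hy.1).1.continuousAt) (fun y hy => (g'.pt y hy.2).1.continuousAt)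
    (fun y hy => ((g.sec hy.1).and (g'.sec hy.2)).mono fun _ k => k.1.trans k.2.symm)
    (fun y hy => g.li hψ hy.1) ⟨g.z, g'.z⟩ (g.ev.trans g'.ev.symm).self_of_nhds

theorem all_of_extendM (hψ : ∀ x, HA n ψ x) (h0 : ∃ V s, GoodM ψ σ₀ V s)
    (hx : ∀ (R : ℝ) (s : Cn n → M) (w : Cn n), GoodM ψ σ₀ (ball 0 R) s → ‖w‖ = R →
      ∃ V s, GoodM ψ σ₀ V s ∧ w ∈ V) : ∃ s, GoodM ψ σ₀ univ s := by
  classical
  let P : Cn n → Prop := fun y => ∃ x : Set (Cn n) × (Cn n → M), GoodM ψ σ₀ x.1 x.2 ∧ y ∈ x.1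
  let σ : Cn n → M := fun y => if hy : P y then hy.choose.2 y else σ₀ y
  have e : ∀ V s, GoodM ψ σ₀ V s → EqOn σ s V := fun V s g y hy => by
    have hy' : P y := ⟨(V, s), g, hy⟩
    simp only [σ, dif_pos hy']
    exact hy'.choose_spec.1.agree hψ g ⟨hy'.choose_spec.2, hy⟩
  have e' : ∀ V s, GoodM ψ σ₀ V s → ∀ y ∈ V, σ =ᶠ[𝓝 y] s := fun V s g y hy =>
    Filter.eventually_of_mem (g.op.mem_nhds hy) (e V s g)
  obtain ⟨V, s, g⟩ := h0
  have gU : GoodM ψ σ₀ {y | P y} σ := by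
    refine ⟨isOpen_iff_mem_nhds.2 ?_, ?_, ⟨(V, s), g, g.z⟩, ?_, (e' V s g 0 g.z).trans g.ev⟩
    · rintro y ⟨x, gx, hy⟩
      exact mem_of_superset (gx.op.mem_nhds hy) fun y' hy' => ⟨x, gx, hy'⟩
    · rintro y ⟨x, gx, hy⟩ s b hs hb hsb
      exact ⟨x, gx, gx.st hy hs hb hsb⟩
    · rintro y ⟨x, gx, hy⟩
      rw [e _ _ gx hy]
      exact ⟨(gx.pt y hy).1.congr_of_eventuallyEq (e' _ _ gx y hy), (gx.pt y hy).2⟩
  by_cases k : ({y | P y}ᶜ).Nonempty
  · obtain ⟨w, hw, hd⟩ := gU.op.isClosed_compl.exists_infDist_eq_dist k 0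
    have hs : ball (0 : Cn n) ‖w‖ ⊆ {y | P y} := by
      have := ball_infDist_subset_compl (x := (0 : Cn n)) (s := {y | P y}ᶜ)
      rwa [hd, compl_compl, dist_zero_left] at this
    have hR : 0 < ‖w‖ := norm_pos_iff.2 fun e => hw (e ▸ gU.z)
    obtain ⟨V', s', g', hw'⟩ := hx ‖w‖ σ w ⟨isOpen_ball,
      (convex_ball _ _).starConvex (mem_ball_self hR), mem_ball_self hR,
      fun y hy => gU.pt y (hs hy), gU.ev⟩ rfl
    exact absurd ⟨(V', s'), g', hw'⟩ hw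
  · rw [not_nonempty_iff_eq_empty, compl_empty_iff] at k
    exact ⟨σ, k ▸ gU⟩

theorem extendM (hψ : ∀ x, HA n ψ x) {σ : Cn n → M} {R : ℝ} (g : GoodM ψ σ₀ (ball 0 R) σ)
    {w : Cn n} {x : M} (hw : ‖w‖ = R) {y : ℕ → Cn n} (hy : ∀ k, y k ∈ ball (0 : Cn n) R)
    (ly : Tendsto y atTop (𝓝 w)) (lx : Tendsto (fun k => σ (y k)) atTop (𝓝 x))
    (hu : IsUnit (dM (Cn n) ψ x)) : ∃ V s, GoodM ψ σ₀ V s ∧ w ∈ V := by
  classical
  have hR : 0 < R := by simpa using g.z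
  have e : ψ x = w := tendsto_nhds_unique ((hψ x).continuousAt.tendsto.comp lx)
    (ly.congr fun k => (g.pt _ (hy k)).2.symm)
  obtain ⟨τ, t1, t2, t3⟩ := locinvM (hψ x) hu
  rw [e] at t1 t3
  have t4 : ∀ᶠ v in 𝓝 w, HA n τ v := (contMDiffAt_iff_contMDiffAt_nhds (by simp)).1 t1
  obtain ⟨ε, hε, hb⟩ := Metric.eventually_nhds_iff_ball.1 (t4.and t3)
  obtain ⟨k, k1, k2⟩ := ((lx.eventually t2).and (ly.eventually (ball_mem_nhds w hε))).exists
  have ag : EqOn σ τ (ball 0 R ∩ ball w ε) :=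
    lift_eq ((convex_ball _ _).inter (convex_ball _ _)).isPreconnected
      (fun v hv => (g.pt v hv.1).1.continuousAt) (fun v hv => (hb v hv.2).1.continuousAt)
      (fun v hv => by
        filter_upwards [g.sec hv.1, isOpen_ball.mem_nhds hv.2] with u h1 h2
        exact h1.trans (hb u h2).2.symm)
      (fun v hv => g.li hψ hv.1) ⟨hy k, k2⟩ (by rw [← k1, (g.pt _ (hy k)).2])
  let s : Cn n → M := fun v => if v ∈ ball w ε then τ v else σ v
  have s1 : ∀ v ∈ ball w ε, s v = τ v := fun v hv => if_pos hv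
  have s2 : ∀ v ∈ ball (0 : Cn n) R, s v = σ v := fun v hv => by
    by_cases k : v ∈ ball w ε
    · exact (s1 v k).trans (ag ⟨hv, k⟩).symm
    · exact if_neg k
  refine ⟨ball 0 R ∪ ball w ε, s, ⟨isOpen_ball.union isOpen_ball, P253.star_two hw hR, Or.inl g.z,
    ?_, EventuallyEq.trans (Filter.eventually_of_mem (isOpen_ball.mem_nhds g.z) s2) g.ev⟩,
    Or.inr (mem_ball_self hε)⟩
  rintro v (hv | hv)
  · rw [s2 v hv]
    exact ⟨(g.pt v hv).1.congr_of_eventuallyEq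
      (Filter.eventually_of_mem (isOpen_ball.mem_nhds hv) s2), (g.pt v hv).2⟩
  · rw [s1 v hv]
    exact ⟨(hb v hv).1.congr_of_eventuallyEq
      (Filter.eventually_of_mem (isOpen_ball.mem_nhds hv) s1), (hb v hv).2⟩

end Vale.Agent.P253G
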