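import Vale.Agent.P253.M2

/-! The estimate along a ray, on a manifold. -/

namespace Vale.Agent.P253G

open Complex Set Filter Topology Metric
open scoped InnerProductSpace Manifold ContDiff

variable {n : ℕ} {M : Type} [TopologicalSpace M] [ChartedSpace (Cn n) M]
  [IsManifold 𝓘(ℂ, Cn n) ω M] {G : M → Cn n →L[ℂ] Cn n} {ψ : M → Cn n} {σ₀ σ : Cn n → M}
  {a : Fin n → ℝ} {φ : ℝ → M → M} {R : ℝ}

theorem in_chart {x : M} {h : Met (Cn n)} (hh : InChart G x h) {y : Cn n} (hs : MD n σ y)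
    (hx : σ y ∈ (chartAt (Cn n) x).source) (X Y : Cn n) :
    hermM G (σ y) (dM (Cn n) σ y X) (dM (Cn n) σ y Y) = herm h (chartAt (Cn n) x (σ y))
      (fderiv ℂ (chartAt (Cn n) x ∘ σ) y X) (fderiv ℂ (chartAt (Cn n) x ∘ σ) y Y) := by
  rw [hh _ ((chartAt (Cn n) x).map_source hx), (chartAt (Cn n) x).left_inv hx, dM_chart hs hx]
  rfl

theorem rayM (hK : KaehlerNonneg G) (hc : CompleteM G) (ha : ∀ j, 0 < a j) (hψ : ∀ x, HA n ψ x)
    (hφ : ∀ θ x, MD n (φ θ) x)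
    (hP : ∀ θ x X Y, hermM G (φ θ x) (dM (Cn n) (φ θ) x X) (dM (Cn n) (φ θ) x Y) = hermM G x X Y)
    (g : GoodM ψ σ₀ (ball 0 R) σ)
    (he : ∀ θ : ℝ, ∀ y ∈ ball (0 : Cn n) R, σ (P253.rot a θ y) = φ θ (σ y))
    {w : Cn n} (hw : ‖w‖ = R) : ∃ (y : ℕ → Cn n) (x : M), (∀ k, y k ∈ ball (0 : Cn n) R) ∧
      Tendsto y atTop (𝓝 w) ∧ Tendsto (fun k => σ (y k)) atTop (𝓝 x) ∧
      IsUnit (dM (Cn n) ψ x) := by
  have hΦ := P253.rot_action a
  have hR : 0 < R := by simpa using g.z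
  have w0 : w ≠ 0 := fun e => by simp [e] at hw; exact hR.ne hw
  set z := P253.rot a I w with hz
  set ρ : ℂ → Cn n := fun ζ => P253.rot a (-I * ζ) z with hρ
  set E : ℂ → Cn n →L[ℂ] Cn n := fun ζ => fderiv ℂ (P253.rot a (-I * ζ)) z with hE
  have mρ : ∀ ζ : ℂ, ζ.re < 1 → ρ ζ ∈ ball (0 : Cn n) R := fun ζ hζ => by
    rw [mem_ball_zero_iff, ← hw, hρ, hz]
    beta_reduce
    rw [← hΦ.add]
    exact P253.rot_lt ha (by simpa using hζ) w0
  have aρ : ∀ ζ, AnalyticAt ℂ ρ ζ := (hΦ.dc (-I) z).analyticAt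
  have aE : ∀ ζ, AnalyticAt ℂ E ζ := (hΦ.dD (-I) z).analyticAt
  have aσ : ∀ y ∈ ball (0 : Cn n) R, ∀ x : M, σ y ∈ (chartAt (Cn n) x).source →
      AnalyticAt ℂ (chartAt (Cn n) x ∘ σ) y := fun y hy x hx =>
    HA.an ((ha_chart hx).comp y (g.pt y hy).1)
  have cc : ∀ ζ : ℂ, ζ.re < 1 → ContinuousAt (fun ζ => σ (ρ ζ)) ζ := fun ζ hζ =>
    (g.pt _ (mρ ζ hζ)).1.continuousAt.comp (aρ ζ).continuousAt
  have iv : ∀ y ∈ ball (0 : Cn n) R, ∀ x : M, σ y ∈ (chartAt (Cn n) x).source →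
      IsUnit (fderiv ℂ (chartAt (Cn n) x ∘ σ) y) ∧ fderiv ℂ (chartAt (Cn n) x ∘ σ) y *
        fderiv ℂ (ψ ∘ (chartAt (Cn n) x).symm) (chartAt (Cn n) x (σ y)) = 1 := fun y hy x hx => by
    rw [← dM_eq, ← dM_eq]
    refine inv_of_comp (f := ψ ∘ (chartAt (Cn n) x).symm) (s := chartAt (Cn n) x ∘ σ)
      (HA.md ((hψ _).comp _ (ha_symm ((chartAt (Cn n) x).map_source hx))))
      (ha_of_an (aσ y hy x hx)).md ?_
    filter_upwards [g.sec hy, (g.pt y hy).1.continuousAt.eventually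
      ((chartAt (Cn n) x).open_source.mem_nhds hx)] with v k1 k2
    exact (congrArg ψ ((chartAt (Cn n) x).left_inv k2)).trans k1
  set H : ℂ → Cn n →L[ℂ] Cn n := fun ζ =>
    star (dM (Cn n) σ (ρ ζ) * E ζ) * G (σ (ρ ζ)) * (dM (Cn n) σ (ρ ζ) * E ζ) with hH
  have inv : ∀ t ∈ Ico (0 : ℝ) 1, ∀ s : ℝ, H ((t : ℝ) + s * I) = H (t : ℝ) := fun t ht s => by
    have e : -I * ((t : ℝ) + s * I) = (s : ℝ) + -I * (t : ℝ) := by
      linear_combination (-s : ℂ) * I_mul_I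
    have e1 : ρ ((t : ℝ) + s * I) = P253.rot a s (ρ t) := by
      rw [hρ]; beta_reduce; rw [e, hΦ.add]
    have e2 : E ((t : ℝ) + s * I) = fderiv ℂ (P253.rot a s) (ρ t) * E t := by
      rw [hE]; beta_reduce; rw [e, hΦ.chain]
    have m := mρ t ht.2
    have m' : P253.rot a s (ρ t) ∈ ball (0 : Cn n) R := e1 ▸ mρ _ (by simpa using ht.2)
    have e3 : dM (Cn n) σ (P253.rot a s (ρ t)) * fderiv ℂ (P253.rot a s) (ρ t) =
        dM (Cn n) (φ s) (σ (ρ t)) * dM (Cn n) σ (ρ t) := by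
      have k : σ ∘ P253.rot a s =ᶠ[𝓝 (ρ t)] φ s ∘ σ :=
        Filter.eventually_of_mem (isOpen_ball.mem_nhds m) (he s)
      rw [← dM_eq, ← dM_comp (g.pt _ m').1.md (ha_of_an (P253.rot_an a s (ρ t))).md, dM_congr k,
        dM_comp (hφ s _) (g.pt _ m).1.md]
    refine ContinuousLinearMap.ext fun Y => ext_inner_left ℂ fun X => ?_
    rw [hH]
    beta_reduce
    rw [P253.inner_conj, P253.inner_conj, e1, e2, ← mul_assoc, e3, he s _ m]
    exact hP s _ _ _
  set K : ℝ → Cn n →L[ℂ] Cn n := fun t => H t with hK'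
  have pt : ∀ t ∈ Ico (0 : ℝ) 1, HasDerivAt K (deriv K t) t ∧
      HasDerivAt (deriv K) (deriv (deriv K) t) t ∧ star (K t) = K t ∧
      star (deriv K t) = deriv K t ∧ IsUnit (K t) ∧ (∀ x, 0 ≤ P253.reQ (P253.ev x) (K t)) ∧
      ∀ x, 0 ≤ P253.reQ (P253.ev x) (deriv K t * Ring.inverse (K t) * deriv K t -
        deriv (deriv K) t) := fun t ht => by
    obtain ⟨h, h1, h2, h3⟩ := hK (σ (ρ t))
    have hx := mem_chart_source (Cn n) (σ (ρ t))
    set e := chartAt (Cn n) (σ (ρ t)) with he'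
    have loc : ∀ᶠ ζ in 𝓝 (t : ℂ), H ζ = P253.HH h (fun ζ => (e ∘ σ) (ρ ζ))
        (fun ζ => fderiv ℂ (e ∘ σ) (ρ ζ) * E ζ) ζ := by
      filter_upwards [(cc t ht.2).eventually (e.open_source.mem_nhds hx),
        (isOpen_lt continuous_re continuous_const).mem_nhds (show (t : ℂ).re < 1 from ht.2)]
        with ζ k1 k2
      refine ContinuousLinearMap.ext fun Y => ext_inner_left ℂ fun X => ?_
      rw [hH, P253.HH]
      beta_reduce
      rw [P253.inner_conj, P253.inner_conj]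
      exact in_chart h1 (g.pt _ (mρ ζ k2)).1.md k1 _ _
    exact P253.point (h := h) (H := K) P253.fam
      ((aσ _ (mρ t ht.2) _ hx).comp (aρ t)) (((aσ _ (mρ t ht.2) _ hx).fderiv.comp (aρ t)).mul (aE t))
      ((iv _ (mρ t ht.2) _ hx).1.mul (hΦ.unit _ z)) e.open_target h2.old.smooth h2.old.herm
      (fun y hy => P253.unit_of_pos (h2.old.pos y hy))
      (fun y hy x => by
        by_cases hx : x = 0
        · simp [P253.q_apply, hx]
        · exact (h2.old.pos y hy x hx).le)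
      (fun y hy Y x => (h3 y hy x Y).trans_eq (bisec_eq h y x Y)) (e.map_source hx)
      (((Continuous.tendsto' (f := fun s : ℝ => (t : ℂ) + s * I) (by fun_prop) 0 t
        (by simp)).eventually loc).mono fun s k => k.symm.trans ((inv t ht s).trans
          loc.self_of_nhds))
      ((continuous_ofReal.tendsto t).eventually loc)
  obtain ⟨C, -, hC⟩ := P253.fam.riccati (fun t ht => (pt t ht).1) (fun t ht => (pt t ht).2.1)
    (fun t ht => (pt t ht).2.2.1) (fun t ht => (pt t ht).2.2.2.1) (fun t ht => (pt t ht).2.2.2.2.1)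
    (fun t ht => (pt t ht).2.2.2.2.2.1) (fun t ht => (pt t ht).2.2.2.2.2.2) one_pos
  have hC' : ∀ t ∈ Ico (0 : ℝ) 1, ∀ x, (hermM G (σ (ρ t)) (dM (Cn n) σ (ρ t) (E t x))
      (dM (Cn n) σ (ρ t) (E t x))).re ≤ C * ‖x‖ ^ 2 := fun t ht x => by
    have := hC t ht x
    rw [P253.q_one, P253.q_apply, hK', hH] at this
    beta_reduce at this
    rw [P253.inner_conj] at this
    exact this
  obtain ⟨t, ht, lt, x, lx⟩ := limM hc (c := fun ζ => σ (ρ ζ)) (K := C * ‖deriv ρ 0‖ ^ 2) one_pos cc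
    (fun ζ hζ => (aσ _ (mρ ζ hζ) _ (mem_chart_source _ _)).comp (aρ ζ)) fun t ht => by
      refine le_trans (le_of_eq ?_) (hC' t ht _)
      have k := ((aσ _ (mρ t ht.2) _ (mem_chart_source _ _)).differentiableAt.hasFDerivAt.comp_hasDerivAt
        (t : ℂ) (aρ t).differentiableAt.hasDerivAt).deriv
      rw [hΦ.vel, ← dM_self (g.pt _ (mρ t ht.2)).1.md] at k
      exact congrArg (fun v => (hermM G (σ (ρ t)) v v).re) k
  have lt' : Tendsto (fun k => (t k : ℂ)) atTop (𝓝 1) := by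
    simpa [Function.comp_def] using (continuous_ofReal.tendsto 1).comp lt
  have ρ1 : ρ 1 = w := by
    rw [hρ, hz]
    beta_reduce
    rw [← hΦ.add, mul_one, neg_add_cancel, hΦ.zero]
  refine ⟨fun k => ρ (t k), x, fun k => mρ _ (ht k).2,
    ρ1 ▸ ((aρ 1).continuousAt.tendsto.comp lt'), lx, P253.unit_of_inj fun u' hu' => ?_⟩
  obtain ⟨h, h1, h2, -⟩ := hK x
  have hx := mem_chart_source (Cn n) x
  set e := chartAt (Cn n) x with he'
  have h0 : e.symm (e x) = x := e.left_inv hx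
  have hs := ha_symm (e.map_source hx)
  have i1 := (inv_of_comp (f := e) (by rw [h0]; exact (ha_chart hx).md) hs.md
    (e.eventually_right_inverse' hx)).2
  rw [h0] at i1
  have i2 : dM (Cn n) e.symm (e x) (dM (Cn n) e x u') = u' :=
    congrArg (fun A : Cn n →L[ℂ] Cn n => A u') i1
  set u := dM (Cn n) e x u' with hu0
  have aψ : HA n (ψ ∘ e.symm) (e x) := (hψ _).comp _ hs
  have hu : fderiv ℂ (ψ ∘ e.symm) (e x) u = 0 := by
    rw [← dM_eq, dM_comp (hψ _).md hs.md, h0]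
    exact (congrArg (dM (Cn n) ψ x) i2).trans hu'
  by_contra u0'
  have u0 : u ≠ 0 := fun k => u0' (by rw [← i2, k, map_zero])
  have lz : Tendsto (fun k => e (σ (ρ (t k)))) atTop (𝓝 (e x)) :=
    (e.continuousAt hx).tendsto.comp lx
  obtain ⟨v, hv⟩ : IsUnit (E 1) := hΦ.unit _ z
  have l1 : Tendsto (fun k => Ring.inverse (E (t k))) atTop (𝓝 (Ring.inverse (E 1))) := by
    have := NormedRing.inverse_continuousAt v
    rw [hv] at this
    exact this.tendsto.comp ((aE 1).continuousAt.tendsto.comp lt')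
  have l2 := aψ.an.fderiv.continuousAt.tendsto.comp lz
  have l3 : Tendsto (fun k => C * ‖(Ring.inverse (E (t k)) *
      fderiv ℂ (ψ ∘ e.symm) (e (σ (ρ (t k))))) u‖ ^ 2) atTop
      (𝓝 (C * ‖(Ring.inverse (E 1) * fderiv ℂ (ψ ∘ e.symm) (e x)) u‖ ^ 2)) :=
    (((((ContinuousLinearMap.apply ℂ (Cn n) u).continuous.tendsto _).comp
      (l1.mul l2)).norm).pow 2).const_mul C
  have l4 : Tendsto (fun k => (herm h (e (σ (ρ (t k)))) u u).re) atTop (𝓝 (herm h (e x) u u).re) :=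
    ((P253.reQ (P253.ev u)).continuous.tendsto _).comp
      ((h2.old.smooth.continuousOn.continuousAt
        (e.open_target.mem_nhds (e.map_source hx))).tendsto.comp lz)
  have l5 := le_of_tendsto_of_tendsto l4 l3 ((lx.eventually (e.open_source.mem_nhds hx)).mono
    fun k hk => by
      refine le_trans (le_of_eq ?_) (hC' _ (ht k) _)
      have k1 : IsUnit (E (t k)) := hΦ.unit _ z
      have k2 : fderiv ℂ (e ∘ σ) (ρ (t k)) * (E (t k) * (Ring.inverse (E (t k)) *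
          fderiv ℂ (ψ ∘ e.symm) (e (σ (ρ (t k)))))) = 1 := by
        rw [← mul_assoc (E (t k)), Ring.mul_inverse_cancel _ k1, one_mul]
        exact (iv _ (mρ _ (ht k).2) x hk).2
      rw [in_chart h1 (g.pt _ (mρ _ (ht k).2)).1.md hk]
      exact congrArg (fun v => (herm h (e (σ (ρ (t k)))) v v).re)
        (congrArg (fun A : Cn n →L[ℂ] Cn n => A u) k2).symm)
  have l6 : (Ring.inverse (E 1) * fderiv ℂ (ψ ∘ e.symm) (e x)) u = 0 :=
    (congrArg (Ring.inverse (E 1) : Cn n →L[ℂ] Cn n) hu).trans (map_zero _)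
  rw [l6, norm_zero] at l5
  have := h2.pos _ (e.map_source hx) u u0
  simp at l5
  linarith

end Vale.Agent.P253G
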