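import Vale.Agent.P253.M3

/-! The uniformization theorem for manifolds with a circle action. -/

namespace Vale.Agent.P253G

open Complex Set Filter Topology Metric
open scoped InnerProductSpace Manifold ContDiff

variable {n : ℕ} {M : Type} [TopologicalSpace M] [ChartedSpace (Cn n) M]
  [IsManifold 𝓘(ℂ, Cn n) ω M] [T2Space M] [PreconnectedSpace M] {G : M → Cn n →L[ℂ] Cn n}
  {φ : ℝ → M → M}

theorem coreM {ψ : M → Cn n} {a : Fin n → ℝ} (hK : KaehlerNonneg G) (hc : CompleteM G)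
    (ha : ∀ j, 0 < a j) (hψ : ∀ x, HA n ψ x) (hφ : ∀ θ x, MD n (φ θ) x)
    (hP : ∀ θ x X Y, hermM G (φ θ x) (dM (Cn n) (φ θ) x X) (dM (Cn n) (φ θ) x Y) = hermM G x X Y)
    {p : M} (h0 : ψ p = 0) (hu : IsUnit (dM (Cn n) ψ p)) (hf : ∀ θ, φ θ p = p)
    (he : ∀ (θ : ℝ) x, ψ (φ θ x) = P253.rot a θ (ψ x)) : BiholoM (Cn n) M := by
  obtain ⟨τ, t1, t2, t3⟩ := locinvM (hψ p) hu
  have t0 : τ 0 = p := h0 ▸ t2.self_of_nhds
  rw [h0] at t1 t3
  have t4 : ∀ᶠ v in 𝓝 0, HA n τ v := (contMDiffAt_iff_contMDiffAt_nhds (by simp)).1 t1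
  obtain ⟨ε, hε, hb⟩ := Metric.eventually_nhds_iff_ball.1 (t4.and t3)
  obtain ⟨s, g⟩ := all_of_extendM (σ₀ := τ) hψ ⟨ball 0 ε, τ, isOpen_ball,
    (convex_ball _ _).starConvex (mem_ball_self hε), mem_ball_self hε, hb, EventuallyEq.rfl⟩
    fun R s w g hw => by
      have he' : ∀ θ : ℝ, ∀ y ∈ ball (0 : Cn n) R, s (P253.rot a θ y) = φ θ (s y) := fun θ => by
        have mr : ∀ y ∈ ball (0 : Cn n) R, P253.rot a θ y ∈ ball (0 : Cn n) R := fun y hy =>
          mem_ball_zero_iff.2 ((P253.rot_le ha (by simp) y).trans_lt (mem_ball_zero_iff.1 hy))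
        have s0 : s 0 = p := g.ev.self_of_nhds.trans t0
        have r0 : P253.rot a θ 0 = 0 := map_zero (P253.rotL a θ)
        exact lift_eq (ψ := ψ) (f := fun y => s (P253.rot a θ y)) (g := fun y => φ θ (s y))
          (convex_ball _ _).isPreconnected
          (fun y hy => (g.pt _ (mr y hy)).1.continuousAt.comp (P253.rot_an a θ y).continuousAt)
          (fun y hy => (hφ θ _).continuousAt.comp (g.pt y hy).1.continuousAt)
          (fun y hy => Filter.eventually_of_mem (isOpen_ball.mem_nhds hy) fun v hv => by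
            rw [(g.pt _ (mr v hv)).2, he, (g.pt v hv).2])
          (fun y hy => g.li hψ (mr y hy)) g.z (by rw [r0, s0, hf])
      obtain ⟨y, x, y1, y2, y3, y4⟩ := rayM hK hc ha hψ hφ hP g he' hw
      exact extendM hψ g hw y1 y2 y3 y4
  refine ⟨ψ, s, fun x => (hψ x).md, fun w => (g.pt w trivial).1.md, fun w => (g.pt w trivial).2,
    fun x => ?_⟩
  exact lift_eq (ψ := ψ) (f := fun x => s (ψ x)) (g := id) isPreconnected_univ
    (fun y _ => (g.pt _ trivial).1.continuousAt.comp (hψ y).continuousAt)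
    (fun y _ => continuousAt_id) (fun y _ => Eventually.of_forall fun v => (g.pt _ trivial).2)
    (fun y _ => g.li hψ trivial) (mem_univ p)
    (by rw [h0]; exact g.ev.self_of_nhds.trans t0) (mem_univ x)

omit [T2Space M] [PreconnectedSpace M] in
theorem avgM {U : ℝ → M → Cn n} (mU : ∀ θ y, MD n (U θ) y)
    (cU : Continuous fun q : ℝ × M => U q.1 q.2) {ψ : M → Cn n}
    (hψ : ψ = fun y => ∫ θ in (0 : ℝ)..2 * Real.pi, U θ y) :
    (∀ x, HA n ψ x) ∧ ∀ (p : M) (L : Cn n →L[ℂ] Cn n), (∀ θ, dM (Cn n) (U θ) p = L) →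
      Function.Injective L → IsUnit (dM (Cn n) ψ p) := by
  have dψ : ∀ x : M, ∀ z ∈ (chartAt (Cn n) x).target, HasFDerivAt (ψ ∘ (chartAt (Cn n) x).symm)
      (∫ θ in (0 : ℝ)..2 * Real.pi, fderiv ℂ (U θ ∘ (chartAt (Cn n) x).symm) z) z := fun x z hz => by
    rw [hψ]
    exact P253.avg (G := fun θ => U θ ∘ (chartAt (Cn n) x).symm) (chartAt (Cn n) x).open_target
      (fun θ v hv => ((mU θ _).comp v (ha_symm hv).md).differentiableAt.differentiableWithinAt)
      (cU.comp_continuousOn (f := fun q : ℝ × Cn n => (q.1, (chartAt (Cn n) x).symm q.2))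
        (continuousOn_fst.prodMk
        ((chartAt (Cn n) x).continuousOn_symm.comp continuousOn_snd fun _ k => k.2))) hz
  have aψ : ∀ x, HA n ψ x := fun x => by
    have hx := mem_chart_source (Cn n) x
    have h1 := P274.analyticOnNhd_of_differentiableOn (chartAt (Cn n) x).open_target
      (fun z hz => (dψ x z hz).differentiableAt.differentiableWithinAt) _
      ((chartAt (Cn n) x).map_source hx)
    refine ((ha_of_an h1).comp x (ha_chart hx)).congr_of_eventuallyEq ?_
    filter_upwards [(chartAt (Cn n) x).eventually_left_inverse hx] with y k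
    exact (congrArg ψ k).symm
  refine ⟨aψ, fun p L hL hi => ?_⟩
  have hx := mem_chart_source (Cn n) p
  have e2 := (dψ p _ ((chartAt (Cn n) p).map_source hx)).fderiv
  have hs := ha_symm ((chartAt (Cn n) p).map_source hx)
  have hc := ha_chart hx
  generalize chartAt (Cn n) p = e at hx e2 hs hc
  have h0 : e.symm (e p) = p := e.left_inv hx
  have i1 := (inv_of_comp (f := e) (by rw [h0]; exact hc.md) hs.md
    (e.eventually_right_inverse' hx)).2
  rw [h0] at i1
  have e1 : ∀ θ : ℝ, fderiv ℂ (U θ ∘ e.symm) (e p) = L * dM (Cn n) e.symm (e p) :=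
    fun θ => by rw [← dM_eq, dM_comp (mU θ _) hs.md, h0, hL]
  simp only [e1, intervalIntegral.integral_const] at e2
  rw [← dM_eq, dM_comp (aψ _).md hs.md, h0] at e2
  refine P253.unit_of_inj fun u hu => hi ?_
  have i2 : dM (Cn n) e.symm (e p) (dM (Cn n) e p u) = u :=
    congrArg (fun A : Cn n →L[ℂ] Cn n => A u) i1
  have e3 := congrArg (fun A : Cn n →L[ℂ] Cn n => A (dM (Cn n) e p u)) e2
  simpa [i2, hu, Real.pi_ne_zero] using e3.symm

theorem rot_sub (a : Fin n → ℝ) (θ : ℝ) (b v : Cn n) :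
    HasFDerivAt (fun v => P253.rot a (-θ) (v - b)) (P253.rotL a (-θ)) v := by
  simpa [Function.comp_def, P253.rotL_apply] using
    (P253.rotL a (-θ)).hasFDerivAt.comp v ((hasFDerivAt_id v).sub_const b)

theorem circleM (hK : KaehlerNonneg G) (hc : CompleteM G) (hφ : CircleM G φ) {p : M}
    (hf : ∀ θ, φ θ p = p) {F : M → Cn n} (hF : Hol (Cn n) F)
    (hi : Function.Injective (dM (Cn n) F p)) {a : Fin n → ℕ} (ha : ∀ j, 0 < a j)
    (hL : ∀ (θ : ℝ) X, dM (Cn n) F p (dM (Cn n) (φ θ) p X) =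
      rot (fun j => a j) θ (dM (Cn n) F p X)) : BiholoM (Cn n) M := by
  have cF : Continuous F := MDifferentiable.continuous hF
  have mF : ∀ θ y, MD n (F ∘ φ θ) y := fun θ y => (hF _).comp y (hφ.hol θ y)
  have mR : ∀ (θ : ℝ) v, MD n (fun v => P253.rot (fun j => a j) (-θ) (v - F p)) v := fun θ v =>
    (rot_sub _ θ _ v).differentiableAt.mdifferentiableAt
  obtain ⟨aψ, uψ⟩ := avgM
    (U := fun θ => (fun v => P253.rot (fun j => a j) (-θ) (v - F p)) ∘ F ∘ φ θ)
    (fun θ y => (mR θ _).comp y (mF θ y))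
    ((P253.rot_cont _).comp (f := fun q : ℝ × M => (q.1, F (φ q.1 q.2) - F p))
      (continuous_fst.prodMk ((cF.comp hφ.cont).sub continuous_const))) rfl
  refine coreM (a := fun j => a j) hK hc (fun j => Nat.cast_pos.2 (ha j)) aψ hφ.hol hφ.iso (p := p)
    (by simp [hf, ← P253.rotL_apply]) (uψ p _ (fun θ => ?_) hi) hf fun s y => ?_
  · rw [dM_comp (mR θ _) (mF θ p), dM_eq, (rot_sub _ θ _ _).fderiv, dM_comp (hF _) (hφ.hol θ p), hf]
    refine ContinuousLinearMap.ext fun X => ?_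
    refine (congrArg (P253.rot (fun j => a j) (-θ)) (hL θ X)).trans ?_
    refine ((P253.rot_action _).add _ _ _).symm.trans ?_
    rw [neg_add_cancel, (P253.rot_action _).zero]
  · have := P253.avg_equiv a (u := fun θ => F (φ θ y) - F p) ((cF.comp (hφ.cont.comp
      (f := fun θ : ℝ => (θ, y)) (by fun_prop))).sub continuous_const)
      (fun θ => by rw [hφ.add, hφ.per]) s
    simp only [hφ.add] at this
    exact this

end Vale.Agent.P253G
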