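import Vale.Agent.P253.M4

/-! Final form. -/

namespace Vale.Agent.P253G

open Complex Set Filter Topology Metric
open scoped InnerProductSpace Manifold ContDiff

variable {n : ℕ} {M : Type} [TopologicalSpace M] [ChartedSpace (Cn n) M]

theorem analytic_manifold [IsManifold 𝓘(ℂ, Cn n) 1 M] : IsManifold 𝓘(ℂ, Cn n) ω M := by
  refine isManifold_of_contDiffOn _ _ _ fun e e' he he' => ?_
  have h1 := (StructureGroupoid.compatible (contDiffGroupoid 1 𝓘(ℂ, Cn n)) he he').1
  have h2 : ContDiffOn ℂ 1 (e.symm ≫ₕ e') (e.symm ≫ₕ e').source := by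
    simpa only [contDiffPregroupoid, mfld_simps] using h1
  have h3 := (P274.analyticOnNhd_of_differentiableOn (e.symm ≫ₕ e').open_source
    (h2.differentiableOn one_ne_zero)).contDiffOn_of_completeSpace (n := ω)
  simpa only [mfld_simps] using h3

theorem final [IsManifold 𝓘(ℂ, Cn n) 1 M] [T2Space M] [PreconnectedSpace M]
    {G : M → Cn n →L[ℂ] Cn n} (hK : KaehlerNonneg G) (hc : CompleteM G) {φ : ℝ → M → M}
    (hφ : CircleM G φ) {p : M} (hf : ∀ θ, φ θ p = p) {a : Fin n → ℕ} (ha : ∀ j, 0 < a j)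
    (L : Cn n ≃L[ℂ] Cn n)
    (hL : ∀ (θ : ℝ) X, L (dM (Cn n) (φ θ) p X) = rot (fun j => a j) θ (L X))
    {F : M → Cn n} (hF : Hol (Cn n) F) (hi : Function.Injective (dM (Cn n) F p)) :
    BiholoM (Cn n) M := by
  haveI : IsManifold 𝓘(ℂ, Cn n) ω M := analytic_manifold
  have hu : IsUnit (dM (Cn n) F p) :=
    P253.unit_of_inj ((injective_iff_map_eq_zero (dM (Cn n) F p)).1 hi)
  set B : Cn n →L[ℂ] Cn n := (L : Cn n →L[ℂ] Cn n) * Ring.inverse (dM (Cn n) F p) with hB
  have mB : ∀ v, MD n B v := fun v => B.differentiableAt.mdifferentiableAt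
  have e : dM (Cn n) (B ∘ F) p = (L : Cn n →L[ℂ] Cn n) := by
    rw [dM_comp (mB _) (hF p), dM_eq, B.fderiv, hB, mul_assoc, Ring.inverse_mul_cancel _ hu, mul_one]
  refine circleM hK hc hφ hf (F := B ∘ F) (fun x => (mB _).comp x (hF x)) ?_ ha ?_
  · rw [e]
    exact L.injective
  · rw [e]
    exact hL

end Vale.Agent.P253G
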