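import Vale.Agent.P253.Gen

/-! Kaehler metrics on complex manifolds modelled on a complex inner product space. -/

namespace Vale.Agent.P253G

open Set Filter Topology
open scoped InnerProductSpace Manifold

variable {E : Type} [NormedAddCommGroup E] [InnerProductSpace ℂ E]
  {M N : Type} [TopologicalSpace M] [ChartedSpace E M] [TopologicalSpace N] [ChartedSpace E N]

variable (E) in
/-- Holomorphic maps of complex manifolds. -/
def Hol (f : M → N) : Prop := MDifferentiable 𝓘(ℂ, E) 𝓘(ℂ, E) f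

variable (E) in
/-- The differential of `f` at `x`; tangent spaces are identified with the model space `E`. -/
noncomputable def dM (f : M → N) (x : M) : E →L[ℂ] E := mfderiv 𝓘(ℂ, E) 𝓘(ℂ, E) f x

/-- The Hermitian product `⟪X, g x Y⟫` of tangent vectors at `x`. -/
noncomputable def hermM (g : M → E →L[ℂ] E) (x : M) (X Y : E) : ℂ := ⟪X, g x Y⟫_ℂ

/-- `h` is the expression of the metric `g` in the chart at `x`. -/
def InChart (g : M → E →L[ℂ] E) (x : M) (h : Met E) : Prop :=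
  ∀ z ∈ (chartAt E x).target, ∀ X Y, herm h z X Y =
    hermM g ((chartAt E x).symm z) (dM E (chartAt E x).symm z X) (dM E (chartAt E x).symm z Y)

/-- `g` is a Kaehler metric with nonnegative bisectional curvature. -/
def KaehlerNonneg (g : M → E →L[ℂ] E) : Prop :=
  ∀ x : M, ∃ h : Met E, InChart g x h ∧ IsKaehler (chartAt E x).target h ∧
    ∀ z ∈ (chartAt E x).target, ∀ X Y, 0 ≤ bisec h z X Y

variable (E) in
/-- The velocity of a curve. -/
noncomputable def vel (γ : ℝ → M) (t : ℝ) : E := mfderiv 𝓘(ℝ, ℝ) 𝓘(ℝ, E) γ t (1 : ℝ)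

/-- The Riemannian distance of `x` and `y` is less than `ε`. -/
def CloseM (g : M → E →L[ℂ] E) (x y : M) (ε : ℝ) : Prop :=
  ∃ γ : ℝ → M, ContMDiff 𝓘(ℝ, ℝ) 𝓘(ℝ, E) 1 γ ∧ γ 0 = x ∧ γ 1 = y ∧
    ∫ t in (0 : ℝ)..1, √(hermM g (γ t) (vel E γ t) (vel E γ t)).re < ε

/-- Cauchy sequences of the Riemannian distance converge. -/
def CompleteM (g : M → E →L[ℂ] E) : Prop :=
  ∀ x : ℕ → M, (∀ ε > 0, ∃ K, ∀ k ≥ K, ∀ l ≥ K, CloseM g (x k) (x l) ε) →
    ∃ p, Tendsto x atTop (𝓝 p)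

/-- A continuous action of the circle `ℝ / 2πℤ` by holomorphic isometries. -/
structure CircleM (g : M → E →L[ℂ] E) (φ : ℝ → M → M) : Prop where
  hol : ∀ θ, Hol E (φ θ)
  iso : ∀ θ x X Y, hermM g (φ θ x) (dM E (φ θ) x X) (dM E (φ θ) x Y) = hermM g x X Y
  cont : Continuous fun p : ℝ × M => φ p.1 p.2
  add : ∀ s t x, φ (s + t) x = φ s (φ t x)
  per : ∀ x, φ (2 * Real.pi) x = x

variable (E M) in
/-- `M` is biholomorphic to the model space. -/
def BiholoM : Prop :=
  ∃ (ψ : M → E) (σ : E → M), Hol E ψ ∧ Hol E σ ∧ (∀ w, ψ (σ w) = w) ∧ ∀ x, σ (ψ x) = x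

end Vale.Agent.P253G
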