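import Vale.Agent.P253.M5

/-! The extension argument with a one-parameter group depending on the boundary point. -/

namespace Vale.Agent.P253G

open Complex Set Filter Topology Metric
open scoped InnerProductSpace Manifold ContDiff

variable {n : ℕ} {M : Type} [TopologicalSpace M] [ChartedSpace (Cn n) M]

theorem limN {G : M → Cn n →L[ℂ] Cn n} (hc : CompleteM G) {c : ℂ → M} {T K : ℝ} (T0 : 0 < T)
    (cc : ∀ t ∈ Ico 0 T, ContinuousAt c (t : ℝ))
    (dc : ∀ t ∈ Ico 0 T, AnalyticAt ℂ (chartAt (Cn n) (c (t : ℝ)) ∘ c) (t : ℝ))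
    (hK : ∀ t ∈ Ico 0 T, (hermM G (c (t : ℝ)) (deriv (chartAt (Cn n) (c (t : ℝ)) ∘ c) (t : ℝ))
      (deriv (chartAt (Cn n) (c (t : ℝ)) ∘ c) (t : ℝ))).re ≤ K) :
    ∃ t : ℕ → ℝ, (∀ k, t k ∈ Ico 0 T) ∧ Tendsto t atTop (𝓝 T) ∧
      ∃ p, Tendsto (fun k => c (t k)) atTop (𝓝 p) := by
  obtain ⟨t, -, ht, lt⟩ := exists_seq_strictMono_tendsto' T0
  have ht' : ∀ k, t k ∈ Ico 0 T := fun k => Ioo_subset_Ico_self (ht k)
  refine ⟨t, ht', lt, hc (fun k => c (t k)) fun ε hε => ?_⟩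
  have hK0 : 0 < 2 * √K + 1 := by positivity
  obtain ⟨N, hN⟩ := Metric.cauchySeq_iff.1 lt.cauchySeq (ε / (2 * √K + 1)) (by positivity)
  refine ⟨N, fun k hk l hl => ?_⟩
  set g : ℝ → ℝ := fun s => t k + (1 - Real.cos (Real.pi * s)) / 2 * (t l - t k) with hg
  have seg : ∀ s, g s ∈ Ico 0 T := fun s => by
    have := (convex_Ico 0 T).add_smul_sub_mem (ht' k) (ht' l)
      (t := (1 - Real.cos (Real.pi * s)) / 2)
      ⟨by linarith [Real.cos_le_one (Real.pi * s)], by linarith [Real.neg_one_le_cos (Real.pi * s)]⟩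
    rwa [smul_eq_mul] at this
  have dg : ∀ s, HasDerivAt g (Real.sin (Real.pi * s) * Real.pi / 2 * (t l - t k)) s := fun s => by
    have h1 : HasDerivAt (fun s => Real.cos (Real.pi * s)) (-Real.sin (Real.pi * s) * Real.pi) s := by
      simpa using ((hasDerivAt_id s).const_mul Real.pi).cos
    refine ((((h1.const_sub 1).div_const 2).mul_const (t l - t k)).const_add (t k)).congr_deriv ?_
    ring
  have cg : ContDiff ℝ 1 g := by rw [hg]; fun_prop
  have cv := fun s => curve (n := n) (γ := fun s => c (g s)) (t := s)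
    ((cc _ (seg s)).comp (f := fun s => (g s : ℂ))
      (continuous_ofReal.comp cg.continuous).continuousAt)
    (((dc _ (seg s)).contDiffAt.restrict_scalars ℝ).comp (f := fun s => (g s : ℂ)) s
      (ofRealCLM.contDiff.comp cg).contDiffAt)
  refine ⟨fun s => c (g s), fun s => (cv s).1, by simp [hg], by simp [hg], ?_⟩
  · refine (Real.le_norm_self _).trans_lt ((intervalIntegral.norm_integral_le_of_norm_le_const
      (C := 2 * |t l - t k| * √K) fun s _ => ?_).trans_lt ?_)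
    · have h2 := ((dc _ (seg s)).differentiableAt.hasDerivAt.hasFDerivAt.restrictScalars
        ℝ).comp_hasDerivAt s (dg s).ofReal_comp
      set r := Real.sin (Real.pi * s) * Real.pi / 2 * (t l - t k) with hr
      have h3 : vel (Cn n) (fun s => c (g s)) s =
          (r : ℂ) • deriv (chartAt (Cn n) (c (g s)) ∘ c) (g s) := (cv s).2.trans h2.deriv
      have h4 : |r| ≤ 2 * |t l - t k| := by
        rw [hr, abs_mul]
        refine mul_le_mul_of_nonneg_right ?_ (abs_nonneg _)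
        rw [abs_div, abs_mul, abs_of_pos Real.pi_pos, abs_two]
        nlinarith [Real.abs_sin_le_one (Real.pi * s), Real.pi_le_four, Real.pi_pos,
          abs_nonneg (Real.sin (Real.pi * s))]
      refine le_trans ?_ (mul_le_mul_of_nonneg_right h4 (Real.sqrt_nonneg K))
      rw [h3, Real.norm_of_nonneg (Real.sqrt_nonneg _),
        ← Real.sqrt_sq_eq_abs, ← Real.sqrt_mul (sq_nonneg _)]
      refine Real.sqrt_le_sqrt (le_trans (le_of_eq ?_) (mul_le_mul_of_nonneg_left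
        (hK _ (seg s)) (sq_nonneg _)))
      rw [hermM, hermM, map_smul, inner_smul_left, inner_smul_right, conj_ofReal, re_ofReal_mul,
        re_ofReal_mul]
      ring
    · have := hN l hl k hk
      rw [Real.dist_eq, lt_div_iff₀ hK0] at this
      simp only [sub_zero, abs_one, mul_one]
      nlinarith [abs_nonneg (t l - t k)]

theorem act_an {Φ : ℂ → Cn n → Cn n} (hΦ : P253.IsAction Φ) (ζ : ℂ) (y : Cn n) :
    AnalyticAt ℂ (Φ ζ) y :=
  (hΦ.hol (ζ, y) trivial).comp (f := fun y => (ζ, y)) (analyticAt_const.prod analyticAt_id)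

variable [IsManifold 𝓘(ℂ, Cn n) ω M] {G : M → Cn n →L[ℂ] Cn n} {ψ : M → Cn n} {σ₀ σ : Cn n → M}
  {Φ : ℂ → Cn n → Cn n} {φ : ℝ → M → M} {R : ℝ}

theorem rayN (hK : KaehlerNonneg G) (hc : CompleteM G) (hΦ : P253.IsAction Φ) (hψ : ∀ x, HA n ψ x)
    (hφ : ∀ θ x, MD n (φ θ) x)
    (hP : ∀ θ x X Y, hermM G (φ θ x) (dM (Cn n) (φ θ) x X) (dM (Cn n) (φ θ) x Y) = hermM G x X Y)
    (g : GoodM ψ σ₀ (ball 0 R) σ)
    (he : ∀ θ : ℝ, ∀ y ∈ ball (0 : Cn n) R, σ (Φ θ y) = φ θ (σ y))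
    {w : Cn n} (hw : ∀ ζ : ℂ, 0 < ζ.im → ζ.im < 2 → Φ ζ w ∈ ball (0 : Cn n) R) :
    ∃ (y : ℕ → Cn n) (x : M), (∀ k, y k ∈ ball (0 : Cn n) R) ∧
      Tendsto y atTop (𝓝 w) ∧ Tendsto (fun k => σ (y k)) atTop (𝓝 x) ∧
      IsUnit (dM (Cn n) ψ x) := by
  set z := Φ I w with hz
  set ρ : ℂ → Cn n := fun ζ => Φ (-I * ζ) z with hρ
  set E : ℂ → Cn n →L[ℂ] Cn n := fun ζ => fderiv ℂ (Φ (-I * ζ)) z with hE
  have mρ : ∀ ζ : ℂ, ζ.re ∈ Ioo (-1 : ℝ) 1 → ρ ζ ∈ ball (0 : Cn n) R := fun ζ hζ => by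
    rw [hρ, hz]
    beta_reduce
    rw [← hΦ.add]
    exact hw _ (by simpa using hζ.2) (by have := hζ.1; simp; linarith)
  have sb : ∀ {t : ℝ}, t ∈ Ico (0 : ℝ) 1 → (t : ℂ).re ∈ Ioo (-1 : ℝ) 1 := fun ht =>
    ⟨lt_of_lt_of_le (by norm_num) ht.1, ht.2⟩
  have aρ : ∀ ζ, AnalyticAt ℂ ρ ζ := (hΦ.dc (-I) z).analyticAt
  have aE : ∀ ζ, AnalyticAt ℂ E ζ := (hΦ.dD (-I) z).analyticAt
  have aσ : ∀ y ∈ ball (0 : Cn n) R, ∀ x : M, σ y ∈ (chartAt (Cn n) x).source →
      AnalyticAt ℂ (chartAt (Cn n) x ∘ σ) y := fun y hy x hx =>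
    HA.an ((ha_chart hx).comp y (g.pt y hy).1)
  have cc : ∀ ζ : ℂ, ζ.re ∈ Ioo (-1 : ℝ) 1 → ContinuousAt (fun ζ => σ (ρ ζ)) ζ := fun ζ hζ =>
    (g.pt _ (mρ ζ hζ)).1.continuousAt.comp (aρ ζ).continuousAt
  have iv : ∀ y ∈ ball (0 : Cn n) R, ∀ x : M, σ y ∈ (chartAt (Cn n) x).source →
      IsUnit (fderiv ℂ (chartAt (Cn n) x ∘ σ) y) ∧ fderiv ℂ (chartAt (Cn n) x ∘ σ) y *
        fderiv ℂ (ψ ∘ (chartAt (Cn n) x).symm) (chartAt (Cn n) x (σ y)) = 1 := fun y hy x hx => by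
    rw [← dM_eq, ← dM_eq]
    refine inv_of_comp (f := ψ ∘ (chartAt (Cn n) x).symm) (s := chartAt (Cn n) x ∘ σ)
      (HA.md ((hψ _).comp _ (ha_symm ((chartAt (Cn n) x).map_source hx))))
      (ha_of_an (aσ y hy x hx)).md ?_
    filter_upwards [g.sec hy, (g.pt y hy).1.continuousAt.eventually
      ((chartAt (Cn n) x).open_source.mem_nhds hx)] with v k1 k2
    exact (congrArg ψ ((chartAt (Cn n) x).left_inv k2)).trans k1
  set H : ℂ → Cn n →L[ℂ] Cn n := fun ζ =>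
    star (dM (Cn n) σ (ρ ζ) * E ζ) * G (σ (ρ ζ)) * (dM (Cn n) σ (ρ ζ) * E ζ) with hH
  have inv : ∀ t ∈ Ico (0 : ℝ) 1, ∀ s : ℝ, H ((t : ℝ) + s * I) = H (t : ℝ) := fun t ht s => by
    have e : -I * ((t : ℝ) + s * I) = (s : ℝ) + -I * (t : ℝ) := by
      linear_combination (-s : ℂ) * I_mul_I
    have e1 : ρ ((t : ℝ) + s * I) = Φ s (ρ t) := by
      rw [hρ]; beta_reduce; rw [e, hΦ.add]
    have e2 : E ((t : ℝ) + s * I) = fderiv ℂ (Φ s) (ρ t) * E t := by
      rw [hE]; beta_reduce; rw [e, hΦ.chain]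
    have m := mρ t (sb ht)
    have m' : Φ s (ρ t) ∈ ball (0 : Cn n) R := e1 ▸ mρ _ (by simpa using sb ht)
    have e3 : dM (Cn n) σ (Φ s (ρ t)) * fderiv ℂ (Φ s) (ρ t) =
        dM (Cn n) (φ s) (σ (ρ t)) * dM (Cn n) σ (ρ t) := by
      have k : σ ∘ Φ s =ᶠ[𝓝 (ρ t)] φ s ∘ σ :=
        Filter.eventually_of_mem (isOpen_ball.mem_nhds m) (he s)
      rw [← dM_eq, ← dM_comp (g.pt _ m').1.md (ha_of_an (act_an hΦ s (ρ t))).md, dM_congr k,
        dM_comp (hφ s _) (g.pt _ m).1.md]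
    refine ContinuousLinearMap.ext fun Y => ext_inner_left ℂ fun X => ?_
    rw [hH]
    beta_reduce
    rw [P253.inner_conj, P253.inner_conj, e1, e2, ← mul_assoc, e3, he s _ m]
    exact hP s _ _ _
  set K : ℝ → Cn n →L[ℂ] Cn n := fun t => H t with hK'
  have pt : ∀ t ∈ Ico (0 : ℝ) 1, HasDerivAt K (deriv K t) t ∧
      HasDerivAt (deriv K) (deriv (deriv K) t) t ∧ star (K t) = K t ∧
      star (deriv K t) = deriv K t ∧ IsUnit (K t) ∧ (∀ x, 0 ≤ P253.reQ (P253.ev x) (K t)) ∧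
      ∀ x, 0 ≤ P253.reQ (P253.ev x) (deriv K t * Ring.inverse (K t) * deriv K t -
        deriv (deriv K) t) := fun t ht => by
    obtain ⟨h, h1, h2, h3⟩ := hK (σ (ρ t))
    have hx := mem_chart_source (Cn n) (σ (ρ t))
    set e := chartAt (Cn n) (σ (ρ t)) with he'
    have loc : ∀ᶠ ζ in 𝓝 (t : ℂ), H ζ = P253.HH h (fun ζ => (e ∘ σ) (ρ ζ))
        (fun ζ => fderiv ℂ (e ∘ σ) (ρ ζ) * E ζ) ζ := by
      filter_upwards [(cc t (sb ht)).eventually (e.open_source.mem_nhds hx),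
        (isOpen_Ioo.preimage continuous_re).mem_nhds (sb ht)]
        with ζ k1 k2
      refine ContinuousLinearMap.ext fun Y => ext_inner_left ℂ fun X => ?_
      rw [hH, P253.HH]
      beta_reduce
      rw [P253.inner_conj, P253.inner_conj]
      exact in_chart h1 (g.pt _ (mρ ζ k2)).1.md k1 _ _
    exact P253.point (h := h) (H := K) P253.fam
      ((aσ _ (mρ t (sb ht)) _ hx).comp (aρ t)) (((aσ _ (mρ t (sb ht)) _ hx).fderiv.comp (aρ t)).mul (aE t))
      ((iv _ (mρ t (sb ht)) _ hx).1.mul (hΦ.unit _ z)) e.open_target h2.old.smooth h2.old.herm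
      (fun y hy => P253.unit_of_pos (h2.old.pos y hy))
      (fun y hy x => by
        by_cases hx : x = 0
        · simp [P253.q_apply, hx]
        · exact (h2.old.pos y hy x hx).le)
      (fun y hy Y x => (h3 y hy x Y).trans_eq (bisec_eq h y x Y)) (e.map_source hx)
      (((Continuous.tendsto' (f := fun s : ℝ => (t : ℂ) + s * I) (by fun_prop) 0 t
        (by simp)).eventually loc).mono fun s k => k.symm.trans ((inv t ht s).trans
          loc.self_of_nhds))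
      ((continuous_ofReal.tendsto t).eventually loc)
  obtain ⟨C, -, hC⟩ := P253.fam.riccati (fun t ht => (pt t ht).1) (fun t ht => (pt t ht).2.1)
    (fun t ht => (pt t ht).2.2.1) (fun t ht => (pt t ht).2.2.2.1) (fun t ht => (pt t ht).2.2.2.2.1)
    (fun t ht => (pt t ht).2.2.2.2.2.1) (fun t ht => (pt t ht).2.2.2.2.2.2) one_pos
  have hC' : ∀ t ∈ Ico (0 : ℝ) 1, ∀ x, (hermM G (σ (ρ t)) (dM (Cn n) σ (ρ t) (E t x))
      (dM (Cn n) σ (ρ t) (E t x))).re ≤ C * ‖x‖ ^ 2 := fun t ht x => by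
    have := hC t ht x
    rw [P253.q_one, P253.q_apply, hK', hH] at this
    beta_reduce at this
    rw [P253.inner_conj] at this
    exact this
  obtain ⟨t, ht, lt, x, lx⟩ := limN hc (c := fun ζ => σ (ρ ζ)) (K := C * ‖deriv ρ 0‖ ^ 2) one_pos
    (fun t ht => cc t (sb ht))
    (fun t ht => (aσ _ (mρ t (sb ht)) _ (mem_chart_source _ _)).comp (aρ t)) fun t ht => by
      refine le_trans (le_of_eq ?_) (hC' t ht _)
      have k := ((aσ _ (mρ t (sb ht)) _ (mem_chart_source _ _)).differentiableAt.hasFDerivAt.comp_hasDerivAt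
        (t : ℂ) (aρ t).differentiableAt.hasDerivAt).deriv
      rw [hΦ.vel, ← dM_self (g.pt _ (mρ t (sb ht))).1.md] at k
      exact congrArg (fun v => (hermM G (σ (ρ t)) v v).re) k
  have lt' : Tendsto (fun k => (t k : ℂ)) atTop (𝓝 1) := by
    simpa [Function.comp_def] using (continuous_ofReal.tendsto 1).comp lt
  have ρ1 : ρ 1 = w := by
    rw [hρ, hz]
    beta_reduce
    rw [← hΦ.add, mul_one, neg_add_cancel, hΦ.zero]
  refine ⟨fun k => ρ (t k), x, fun k => mρ _ (sb (ht k)),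
    ρ1 ▸ ((aρ 1).continuousAt.tendsto.comp lt'), lx, P253.unit_of_inj fun u' hu' => ?_⟩
  obtain ⟨h, h1, h2, -⟩ := hK x
  have hx := mem_chart_source (Cn n) x
  set e := chartAt (Cn n) x with he'
  have h0 : e.symm (e x) = x := e.left_inv hx
  have hs := ha_symm (e.map_source hx)
  have i1 := (inv_of_comp (f := e) (by rw [h0]; exact (ha_chart hx).md) hs.md
    (e.eventually_right_inverse' hx)).2
  rw [h0] at i1
  have i2 : dM (Cn n) e.symm (e x) (dM (Cn n) e x u') = u' :=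
    congrArg (fun A : Cn n →L[ℂ] Cn n => A u') i1
  set u := dM (Cn n) e x u' with hu0
  have aψ : HA n (ψ ∘ e.symm) (e x) := (hψ _).comp _ hs
  have hu : fderiv ℂ (ψ ∘ e.symm) (e x) u = 0 := by
    rw [← dM_eq, dM_comp (hψ _).md hs.md, h0]
    exact (congrArg (dM (Cn n) ψ x) i2).trans hu'
  by_contra u0'
  have u0 : u ≠ 0 := fun k => u0' (by rw [← i2, k, map_zero])
  have lz : Tendsto (fun k => e (σ (ρ (t k)))) atTop (𝓝 (e x)) :=
    (e.continuousAt hx).tendsto.comp lx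
  obtain ⟨v, hv⟩ : IsUnit (E 1) := hΦ.unit _ z
  have l1 : Tendsto (fun k => Ring.inverse (E (t k))) atTop (𝓝 (Ring.inverse (E 1))) := by
    have := NormedRing.inverse_continuousAt v
    rw [hv] at this
    exact this.tendsto.comp ((aE 1).continuousAt.tendsto.comp lt')
  have l2 := aψ.an.fderiv.continuousAt.tendsto.comp lz
  have l3 : Tendsto (fun k => C * ‖(Ring.inverse (E (t k)) *
      fderiv ℂ (ψ ∘ e.symm) (e (σ (ρ (t k))))) u‖ ^ 2) atTop
      (𝓝 (C * ‖(Ring.inverse (E 1) * fderiv ℂ (ψ ∘ e.symm) (e x)) u‖ ^ 2)) :=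
    (((((ContinuousLinearMap.apply ℂ (Cn n) u).continuous.tendsto _).comp
      (l1.mul l2)).norm).pow 2).const_mul C
  have l4 : Tendsto (fun k => (herm h (e (σ (ρ (t k)))) u u).re) atTop (𝓝 (herm h (e x) u u).re) :=
    ((P253.reQ (P253.ev u)).continuous.tendsto _).comp
      ((h2.old.smooth.continuousOn.continuousAt
        (e.open_target.mem_nhds (e.map_source hx))).tendsto.comp lz)
  have l5 := le_of_tendsto_of_tendsto l4 l3 ((lx.eventually (e.open_source.mem_nhds hx)).mono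
    fun k hk => by
      refine le_trans (le_of_eq ?_) (hC' _ (ht k) _)
      have k1 : IsUnit (E (t k)) := hΦ.unit _ z
      have k2 : fderiv ℂ (e ∘ σ) (ρ (t k)) * (E (t k) * (Ring.inverse (E (t k)) *
          fderiv ℂ (ψ ∘ e.symm) (e (σ (ρ (t k)))))) = 1 := by
        rw [← mul_assoc (E (t k)), Ring.mul_inverse_cancel _ k1, one_mul]
        exact (iv _ (mρ _ (sb (ht k))) x hk).2
      rw [in_chart h1 (g.pt _ (mρ _ (sb (ht k)))).1.md hk]
      exact congrArg (fun v => (herm h (e (σ (ρ (t k)))) v v).re)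
        (congrArg (fun A : Cn n →L[ℂ] Cn n => A u) k2).symm)
  have l6 : (Ring.inverse (E 1) * fderiv ℂ (ψ ∘ e.symm) (e x)) u = 0 :=
    (congrArg (Ring.inverse (E 1) : Cn n →L[ℂ] Cn n) hu).trans (map_zero _)
  rw [l6, norm_zero] at l5
  have := h2.pos _ (e.map_source hx) u u0
  simp at l5
  linarith

theorem coreN [T2Space M] [PreconnectedSpace M] (hK : KaehlerNonneg G) (hc : CompleteM G)
    (hψ : ∀ x, HA n ψ x) {p : M} (h0 : ψ p = 0) (hu : IsUnit (dM (Cn n) ψ p))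
    (hx : ∀ w : Cn n, w ≠ 0 → ∃ (Φ : ℂ → Cn n → Cn n) (φ : ℝ → M → M), P253.IsAction Φ ∧
      (∀ (θ : ℝ) y, ‖Φ θ y‖ ≤ ‖y‖) ∧ (∀ ζ : ℂ, 0 < ζ.im → ζ.im < 2 → ‖Φ ζ w‖ < ‖w‖) ∧
      (∀ θ x, MD n (φ θ) x) ∧ (∀ θ x X Y, hermM G (φ θ x) (dM (Cn n) (φ θ) x X)
        (dM (Cn n) (φ θ) x Y) = hermM G x X Y) ∧ (∀ θ, φ θ p = p) ∧
      ∀ (θ : ℝ) x, ψ (φ θ x) = Φ θ (ψ x)) : BiholoM (Cn n) M := by
  obtain ⟨τ, t1, t2, t3⟩ := locinvM (hψ p) hu
  have t0 : τ 0 = p := h0 ▸ t2.self_of_nhds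
  rw [h0] at t1 t3
  have t4 : ∀ᶠ v in 𝓝 0, HA n τ v := (contMDiffAt_iff_contMDiffAt_nhds (by simp)).1 t1
  obtain ⟨ε, hε, hb⟩ := Metric.eventually_nhds_iff_ball.1 (t4.and t3)
  obtain ⟨s, g⟩ := all_of_extendM (σ₀ := τ) hψ ⟨ball 0 ε, τ, isOpen_ball,
    (convex_ball _ _).starConvex (mem_ball_self hε), mem_ball_self hε, hb, EventuallyEq.rfl⟩
    fun R s w g hw => by
      have hR : 0 < R := by simpa using g.z
      obtain ⟨Φ, φ, hΦ, n1, n2, hφ, hP, hf, he⟩ := hx w (norm_pos_iff.1 (hw ▸ hR))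
      have he' : ∀ θ : ℝ, ∀ y ∈ ball (0 : Cn n) R, s (Φ θ y) = φ θ (s y) := fun θ => by
        have mr : ∀ y ∈ ball (0 : Cn n) R, Φ θ y ∈ ball (0 : Cn n) R := fun y hy =>
          mem_ball_zero_iff.2 ((n1 θ y).trans_lt (mem_ball_zero_iff.1 hy))
        have s0 : s 0 = p := g.ev.self_of_nhds.trans t0
        have r0 : Φ θ 0 = 0 := norm_le_zero_iff.1 ((n1 θ 0).trans_eq norm_zero)
        exact lift_eq (ψ := ψ) (f := fun y => s (Φ θ y)) (g := fun y => φ θ (s y))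
          (convex_ball _ _).isPreconnected
          (fun y hy => (g.pt _ (mr y hy)).1.continuousAt.comp (act_an hΦ θ y).continuousAt)
          (fun y hy => (hφ θ _).continuousAt.comp (g.pt y hy).1.continuousAt)
          (fun y hy => Filter.eventually_of_mem (isOpen_ball.mem_nhds hy) fun v hv => by
            rw [(g.pt _ (mr v hv)).2, he, (g.pt v hv).2])
          (fun y hy => g.li hψ (mr y hy)) g.z (by rw [r0, s0, hf])
      obtain ⟨y, x, y1, y2, y3, y4⟩ := rayN hK hc hΦ hψ hφ hP g he'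
        fun ζ h1 h2 => mem_ball_zero_iff.2 (hw ▸ n2 ζ h1 h2)
      exact extendM hψ g hw y1 y2 y3 y4
  refine ⟨ψ, s, fun x => (hψ x).md, fun w => (g.pt w trivial).1.md, fun w => (g.pt w trivial).2,
    fun x => ?_⟩
  exact lift_eq (ψ := ψ) (f := fun x => s (ψ x)) (g := id) isPreconnected_univ
    (fun y _ => (g.pt _ trivial).1.continuousAt.comp (hψ y).continuousAt)
    (fun y _ => continuousAt_id) (fun y _ => Eventually.of_forall fun v => (g.pt _ trivial).2)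
    (fun y _ => g.li hψ trivial) (mem_univ p)
    (by rw [h0]; exact g.ev.self_of_nhds.trans t0) (mem_univ x)

end Vale.Agent.P253G
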