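import Vale.Agent.P253.MDefs

/-! Actions of compact groups by holomorphic isometries. -/

namespace Vale.Agent.P253G

open scoped InnerProductSpace

/-- A continuous action of the group `K` on `M` by holomorphic isometries of `g`. -/
structure ActM {E : Type} [NormedAddCommGroup E] [InnerProductSpace ℂ E] {M : Type}
    [TopologicalSpace M] [ChartedSpace E M] {K : Type} [Group K] [TopologicalSpace K]
    (g : M → E →L[ℂ] E) (φ : K → M → M) : Prop where
  hol : ∀ k, Hol E (φ k)
  iso : ∀ k x X Y, hermM g (φ k x) (dM E (φ k) x X) (dM E (φ k) x Y) = hermM g x X Y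
  cont : Continuous fun q : K × M => φ q.1 q.2
  mul : ∀ k l x, φ (k * l) x = φ k (φ l x)
  one : ∀ x, φ 1 x = x

/-- The moment map of the isotropy representation at `p` vanishes only at the origin: for every
tangent vector `v ≠ 0` the representation contains a one-parameter group `exp (i θ A)` with
`g (v, A v) > 0`. -/
def Unstable {E : Type} [NormedAddCommGroup E] [InnerProductSpace ℂ E] {M : Type}
    [TopologicalSpace M] [ChartedSpace E M] {K : Type}
    (g : M → E →L[ℂ] E) (φ : K → M → M) (p : M) : Prop :=
  ∀ v : E, v ≠ 0 → ∃ (γ : ℝ → K) (A : E →L[ℂ] E),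
    (∀ θ : ℝ, dM E (φ (γ θ)) p = NormedSpace.exp ((Complex.I * θ) • A)) ∧
      0 < (hermM g p v (A v)).re

end Vale.Agent.P253G
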