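import Vale.Agent.P253.N1
import Vale.Agent.P253.NDefs

/-! Averaging over a compact group. -/

namespace Vale.Agent.P253G

open Complex Set Filter Topology Metric MeasureTheory
open scoped InnerProductSpace Manifold ContDiff

variable {n : ℕ} {K : Type} [TopologicalSpace K] [CompactSpace K]

theorem bdK {U : Set (Cn n)} (hU : IsOpen U) {G : K → Cn n → Cn n}
    (hG : ∀ k, DifferentiableOn ℂ (G k) U)
    (hc : ContinuousOn (fun p : K × Cn n => G p.1 p.2) (univ ×ˢ U)) {x : Cn n} (hx : x ∈ U) :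
    (Continuous fun k => fderiv ℂ (G k) x) ∧ (∀ y ∈ U, Continuous fun k => G k y) ∧
      ∃ r > 0, ∃ C : ℝ, 0 ≤ C ∧ ∀ k, ∀ y ∈ ball x r, ∀ z ∈ ball x r,
        ‖G k y - G k z‖ ≤ C * ‖y - z‖ := by
  obtain ⟨r, hr, hb⟩ := Metric.nhds_basis_closedBall.mem_iff.1 (hU.mem_nhds hx)
  have hb' : ball x r ⊆ U := ball_subset_closedBall.trans hb
  obtain ⟨M, hM⟩ := ((isCompact_univ (X := K)).prod
    (isCompact_closedBall x r)).exists_bound_of_continuousOn
    (hc.mono (prod_mono (subset_univ _) hb))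
  have c1 : ∀ y ∈ U, Continuous fun θ => G θ y := fun y hy =>
    hc.comp_continuous (f := fun θ : K => (θ, y)) (by fun_prop) fun θ => ⟨trivial, hy⟩
  have bd : ∀ θ, ∀ y ∈ ball x r, ‖G θ y‖ ≤ max M 0 := fun θ y hy =>
    (hM (θ, y) ⟨trivial, ball_subset_closedBall hy⟩).trans (le_max_left _ _)
  exact ⟨continuous_iff_continuousAt.2 fun θ => (P274.SCV1Aux.deriv_local (l := 𝓝 θ) (f := G)
    (g := G θ) hr (Eventually.of_forall fun t => ⟨(hG t).mono hb', bd t⟩)
    fun y hy => (c1 y (hb' hy)).tendsto θ).2.tendsto_at (mem_ball_self (by positivity)), c1,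
    r / 2, half_pos hr, 4 * max M 0 / r, by positivity,
    fun k y hy z hz => P274.norm_sub_le_of_bdd hr ((hG k).mono hb') (bd k) hy hz⟩

variable [MeasurableSpace K] [BorelSpace K] (μ : Measure K) [IsFiniteMeasure μ]

theorem intK {u : K → Cn n} (hu : Continuous u) : Integrable u μ :=
  integrableOn_univ.1 (hu.continuousOn.integrableOn_compact' isCompact_univ MeasurableSet.univ)

theorem avgK {U : Set (Cn n)} (hU : IsOpen U) {G : K → Cn n → Cn n}
    (hG : ∀ k, DifferentiableOn ℂ (G k) U)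
    (hc : ContinuousOn (fun p : K × Cn n => G p.1 p.2) (univ ×ˢ U)) {x : Cn n} (hx : x ∈ U) :
    HasFDerivAt (fun z => ∫ k, G k z ∂μ) (∫ k, fderiv ℂ (G k) x ∂μ) x := by
  obtain ⟨c2, c1, r, hr, C, hC, lip⟩ := bdK hU hG hc hx
  refine (hasFDerivAt_integral_of_dominated_loc_of_lip (F := fun z θ => G θ z)
    (F' := fun θ => fderiv ℂ (G θ) x) (bound := fun _ => C) (ball_mem_nhds x hr)
    (Filter.eventually_of_mem (hU.mem_nhds hx) fun y hy => (c1 y hy).aestronglyMeasurable)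
    (intK μ (c1 x hx)) c2.aestronglyMeasurable
    (ae_of_all _ fun t => LipschitzOnWith.of_dist_le_mul fun y hy z hz => ?_)
    (integrable_const _)
    (ae_of_all _ fun t => ((hG t).differentiableAt (hU.mem_nhds hx)).hasFDerivAt)).2
  rw [dist_eq_norm, dist_eq_norm, Real.coe_nnabs, abs_of_nonneg hC]
  exact lip t y hy z hz

variable {M : Type} [TopologicalSpace M] [ChartedSpace (Cn n) M] [IsManifold 𝓘(ℂ, Cn n) ω M]

omit [MeasurableSpace K] [BorelSpace K] in
theorem chartK {U : K → M → Cn n} (mU : ∀ θ y, MD n (U θ) y)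
    (cU : Continuous fun q : K × M => U q.1 q.2) (x : M) :
    (∀ k, DifferentiableOn ℂ (U k ∘ (chartAt (Cn n) x).symm) (chartAt (Cn n) x).target) ∧
    ContinuousOn (fun q : K × Cn n => (U q.1 ∘ (chartAt (Cn n) x).symm) q.2)
      (univ ×ˢ (chartAt (Cn n) x).target) :=
  ⟨fun θ v hv => ((mU θ _).comp v (ha_symm hv).md).differentiableAt.differentiableWithinAt,
    cU.comp_continuousOn (f := fun q : K × Cn n => (q.1, (chartAt (Cn n) x).symm q.2))
      (continuousOn_fst.prodMk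
        ((chartAt (Cn n) x).continuousOn_symm.comp continuousOn_snd fun _ k => k.2))⟩

theorem chart_inv (p : M) : dM (Cn n) (chartAt (Cn n) p).symm (chartAt (Cn n) p p) *
    dM (Cn n) (chartAt (Cn n) p) p = 1 := by
  have hx := mem_chart_source (Cn n) p
  have h0 := (chartAt (Cn n) p).left_inv hx
  have i1 := (inv_of_comp (f := chartAt (Cn n) p) (by rw [h0]; exact (ha_chart hx).md)
    (ha_symm ((chartAt (Cn n) p).map_source hx)).md
    ((chartAt (Cn n) p).eventually_right_inverse' hx)).2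
  rwa [h0] at i1

theorem chart_d {f : M → Cn n} {p : M} (hf : MD n f p) :
    fderiv ℂ (f ∘ (chartAt (Cn n) p).symm) (chartAt (Cn n) p p) * dM (Cn n) (chartAt (Cn n) p) p =
      dM (Cn n) f p := by
  have hx := mem_chart_source (Cn n) p
  have h0 := (chartAt (Cn n) p).left_inv hx
  rw [← dM_eq, dM_comp (by rwa [h0]) (ha_symm ((chartAt (Cn n) p).map_source hx)).md, h0, mul_assoc,
    chart_inv, mul_one]

omit [MeasurableSpace K] [BorelSpace K] in
theorem contK {U : K → M → Cn n} (mU : ∀ θ y, MD n (U θ) y)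
    (cU : Continuous fun q : K × M => U q.1 q.2) (p : M) :
    Continuous fun k => dM (Cn n) (U k) p := by
  have h := (bdK (chartAt (Cn n) p).open_target (chartK mU cU p).1 (chartK mU cU p).2
    ((chartAt (Cn n) p).map_source (mem_chart_source (Cn n) p))).1
  exact (h.mul continuous_const).congr fun k => chart_d (mU k p)

theorem avgN (hμ : μ.real univ ≠ 0) {U : K → M → Cn n} (mU : ∀ θ y, MD n (U θ) y)
    (cU : Continuous fun q : K × M => U q.1 q.2) {ψ : M → Cn n}
    (hψ : ψ = fun y => ∫ k, U k y ∂μ) :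
    (∀ x, HA n ψ x) ∧ ∀ (p : M) (L : Cn n →L[ℂ] Cn n), (∀ θ, dM (Cn n) (U θ) p = L) →
      Function.Injective L → IsUnit (dM (Cn n) ψ p) := by
  have dψ : ∀ x : M, ∀ z ∈ (chartAt (Cn n) x).target, HasFDerivAt (ψ ∘ (chartAt (Cn n) x).symm)
      (∫ k, fderiv ℂ (U k ∘ (chartAt (Cn n) x).symm) z ∂μ) z := fun x z hz => by
    rw [hψ]
    exact avgK μ (chartAt (Cn n) x).open_target (chartK mU cU x).1 (chartK mU cU x).2 hz
  have aψ : ∀ x, HA n ψ x := fun x => by
    have hx := mem_chart_source (Cn n) x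
    have h1 := P274.analyticOnNhd_of_differentiableOn (chartAt (Cn n) x).open_target
      (fun z hz => (dψ x z hz).differentiableAt.differentiableWithinAt) _
      ((chartAt (Cn n) x).map_source hx)
    refine ((ha_of_an h1).comp x (ha_chart hx)).congr_of_eventuallyEq ?_
    filter_upwards [(chartAt (Cn n) x).eventually_left_inverse hx] with y k
    exact (congrArg ψ k).symm
  refine ⟨aψ, fun p L hL hi => ?_⟩
  have hx := mem_chart_source (Cn n) p
  have e2 := (dψ p _ ((chartAt (Cn n) p).map_source hx)).fderiv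
  have hs := ha_symm ((chartAt (Cn n) p).map_source hx)
  have i1 := chart_inv (n := n) p
  generalize chartAt (Cn n) p = e at hx e2 hs i1
  have h0 : e.symm (e p) = p := e.left_inv hx
  have e1 : ∀ θ, fderiv ℂ (U θ ∘ e.symm) (e p) = L * dM (Cn n) e.symm (e p) :=
    fun θ => by rw [← dM_eq, dM_comp (mU θ _) hs.md, h0, hL]
  simp only [e1, integral_const] at e2
  rw [← dM_eq, dM_comp (aψ _).md hs.md, h0] at e2
  refine P253.unit_of_inj fun u hu => hi ?_
  have i2 : dM (Cn n) e.symm (e p) (dM (Cn n) e p u) = u :=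
    congrArg (fun A : Cn n →L[ℂ] Cn n => A u) i1
  have e3 := congrArg (fun A : Cn n →L[ℂ] Cn n => A (dM (Cn n) e p u)) e2
  simpa [i2, hu, hμ] using e3.symm

theorem shrink {a : Fin n → ℝ} {u : Cn n} (h : 0 < ∑ j, a j * ‖u j‖ ^ 2) : ∃ δ : ℝ, 0 < δ ∧
    ∀ ζ : ℂ, 0 < ζ.im → ζ.im < 2 → ‖P253.rot (fun j => δ * a j) ζ u‖ < ‖u‖ := by
  set f : ℝ → ℝ := fun t => ∑ j, Real.exp (-(a j * t)) ^ 2 * ‖u j‖ ^ 2 with hf
  have d : HasDerivAt f (-2 * ∑ j, a j * ‖u j‖ ^ 2) 0 := by
    have := HasDerivAt.fun_sum (u := Finset.univ) fun j _ =>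
      ((((hasDerivAt_id (0 : ℝ)).const_mul (a j)).neg.exp).pow 2).mul_const (‖u j‖ ^ 2)
    refine this.congr_deriv ?_
    rw [Finset.mul_sum]
    refine Finset.sum_congr rfl fun j _ => ?_
    simp
    ring
  have ev := (d.tendsto_slope_zero_right.eventually (gt_mem_nhds (by linarith : _ < (0 : ℝ))))
  obtain ⟨δ, hδ, hs⟩ := mem_nhdsGT_iff_exists_Ioo_subset.1 ev
  have hδ' : 0 < δ := hδ
  refine ⟨δ / 2, half_pos hδ', fun ζ h1 h2 => ?_⟩
  have h3 : 0 < δ / 2 * ζ.im := by positivity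
  have h4 : (δ / 2 * ζ.im)⁻¹ • (f (0 + δ / 2 * ζ.im) - f 0) < 0 := hs ⟨h3, by nlinarith⟩
  rw [smul_eq_mul, zero_add] at h4
  have h5 := (pos_iff_neg_of_mul_neg h4).1 (inv_pos.2 h3)
  refine (sq_lt_sq₀ (norm_nonneg _) (norm_nonneg _)).1 ?_
  rw [EuclideanSpace.norm_sq_eq, EuclideanSpace.norm_sq_eq]
  simp only [P253.rot_term]
  simp only [hf, mul_zero, neg_zero, Real.exp_zero, one_pow, one_mul, sub_neg] at h5
  refine lt_of_eq_of_lt (Finset.sum_congr rfl fun j _ => ?_) h5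
  rw [mul_comm (δ / 2) (a j), mul_assoc]

end Vale.Agent.P253G
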