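import Vale.Agent.P253.N2

/-! Uniformization for compact groups of symmetries. -/

namespace Vale.Agent.P253G

open Complex Set Filter Topology Metric MeasureTheory
open scoped InnerProductSpace Manifold ContDiff

variable {n : ℕ} {K : Type} [Group K] [TopologicalSpace K] [IsTopologicalGroup K] [CompactSpace K]
  {M : Type} [TopologicalSpace M] [ChartedSpace (Cn n) M] {G : M → Cn n →L[ℂ] Cn n}
  {φ : K → M → M} {p : M}

theorem lin_sub (A : Cn n →L[ℂ] Cn n) (b v : Cn n) : HasFDerivAt (fun v => A (v - b)) A v := by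
  simpa [Function.comp_def] using A.hasFDerivAt.comp v ((hasFDerivAt_id v).sub_const b)

theorem exp_add' (A : Cn n →L[ℂ] Cn n) (v w : ℂ) :
    NormedSpace.exp ((v + w) • A) = NormedSpace.exp (v • A) * NormedSpace.exp (w • A) := by
  refine (congrArg NormedSpace.exp (add_smul v w A)).trans ?_
  exact NormedSpace.exp_add_of_commute_of_mem_ball (𝕂 := ℂ)
    (((Commute.refl A).smul_left v).smul_right w)
    ((NormedSpace.expSeries_radius_eq_top ℂ (Cn n →L[ℂ] Cn n)).symm ▸ edist_lt_top _ _)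
    ((NormedSpace.expSeries_radius_eq_top ℂ (Cn n →L[ℂ] Cn n)).symm ▸ edist_lt_top _ _)

theorem exp_0 (A : Cn n →L[ℂ] Cn n) : NormedSpace.exp ((0 : ℂ) • A) = 1 :=
  (congrArg NormedSpace.exp (zero_smul ℂ A)).trans NormedSpace.exp_zero

theorem exp_action (A : Cn n →L[ℂ] Cn n) (c : ℂ) (L : Cn n ≃L[ℂ] Cn n) :
    P253.IsAction fun ζ y => L (NormedSpace.exp ((c * ζ) • A) (L.symm y)) := by
  refine ⟨P274.analyticOnNhd_of_differentiable (L.differentiable.comp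
    (Differentiable.clm_apply (fun q => ?_) (L.symm.differentiable.comp differentiable_snd))),
    fun z => by simp [exp_0], fun v w z => ?_⟩
  · exact (hasDerivAt_exp_smul_const A (c * q.1)).differentiableAt.comp
      (f := fun q : ℂ × Cn n => c * q.1) q (by fun_prop)
  · rw [mul_add, exp_add', L.symm_apply_apply]
    rfl

theorem shrink' {A : Cn n →L[ℂ] Cn n} (L : Cn n ≃L[ℂ] Cn n) {v : Cn n}
    (h : 0 < (⟪L v, L (A v)⟫_ℂ).re) : ∃ δ : ℝ, 0 < δ ∧ ∀ t : ℝ, 0 < t → t < 2 →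
      ‖L (NormedSpace.exp (-((δ * t : ℝ) : ℂ) • A) v)‖ < ‖L v‖ := by
  set u : ℝ → Cn n := fun s => L (NormedSpace.exp (-(s : ℂ) • A) v) with hu
  have u0 : u 0 = L v := by simp [hu, exp_0]
  have d0 : HasDerivAt u (-L (A v)) 0 := by
    have h1 := (hasDerivAt_exp_smul_const A (-((0 : ℝ) : ℂ))).clm_apply (hasDerivAt_const _ v)
    have h2 := ((L.hasFDerivAt.comp_hasDerivAt _ h1).hasFDerivAt.restrictScalars
      ℝ).comp_hasDerivAt (0 : ℝ) (ofRealCLM.hasDerivAt (x := 0)).neg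
    refine HasDerivAt.congr_deriv h2 ?_
    simp [exp_0]
  have d : HasDerivAt (fun s => ‖u s‖ ^ 2) (-2 * (⟪L v, L (A v)⟫_ℂ).re) 0 := by
    have h1 := reCLM.hasFDerivAt.comp_hasDerivAt (0 : ℝ) (d0.inner ℂ d0)
    have e : (reCLM ∘ fun s => ⟪u s, u s⟫_ℂ) = fun s => ‖u s‖ ^ 2 :=
      funext fun s => inner_self_eq_norm_sq (𝕜 := ℂ) (u s)
    rw [e] at h1
    refine h1.congr_deriv ?_
    have := inner_re_symm (𝕜 := ℂ) (L (A v)) (L v)
    simp only [u0, inner_neg_left, inner_neg_right, reCLM_apply, add_re, neg_re]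
    simp only [RCLike.re_to_complex] at this
    linarith
  have ev := (d.tendsto_slope_zero_right.eventually (gt_mem_nhds (by linarith : _ < (0 : ℝ))))
  obtain ⟨δ, hδ, hs⟩ := mem_nhdsGT_iff_exists_Ioo_subset.1 ev
  have hδ' : 0 < δ := hδ
  refine ⟨δ / 2, half_pos hδ', fun t h1 h2 => ?_⟩
  have h3 : 0 < δ / 2 * t := by positivity
  have h4 : (δ / 2 * t)⁻¹ • (‖u (0 + δ / 2 * t)‖ ^ 2 - ‖u 0‖ ^ 2) < 0 := hs ⟨h3, by nlinarith⟩
  rw [smul_eq_mul, zero_add, u0] at h4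
  exact (sq_lt_sq₀ (norm_nonneg _) (norm_nonneg _)).1
    (sub_neg.1 ((pos_iff_neg_of_mul_neg h4).1 (inv_pos.2 h3)))

theorem frame [IsManifold 𝓘(ℂ, Cn n) ω M] (hK : KaehlerNonneg G) (p : M) :
    ∃ L : Cn n ≃L[ℂ] Cn n, ∀ X Y, hermM G p X Y = ⟪L X, L Y⟫_ℂ := by
  obtain ⟨h, h1, h2, -⟩ := hK p
  have hx := mem_chart_source (Cn n) p
  have hz := (chartAt (Cn n) p).map_source hx
  have i1 : ∀ X, dM (Cn n) (chartAt (Cn n) p).symm (chartAt (Cn n) p p)
      (dM (Cn n) (chartAt (Cn n) p) p X) = X := fun X =>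
    congrArg (fun A : Cn n →L[ℂ] Cn n => A X) (chart_inv (n := n) p)
  set C := dM (Cn n) (chartAt (Cn n) p) p
  set z := chartAt (Cn n) p p
  have h0 : 0 ≤ h z := (ContinuousLinearMap.nonneg_iff_isPositive _).2
    (ContinuousLinearMap.isPositive_def'.2 ⟨h2.old.herm z hz, fun X => by
      rw [ContinuousLinearMap.reApplyInnerSelf_apply, inner_re_symm]
      by_cases k : X = 0
      · simp [k]
      · exact (h2.pos z hz X k).le⟩)
  have e : ∀ X Y, hermM G p X Y = ⟪(CFC.sqrt (h z) * C) X, (CFC.sqrt (h z) * C) Y⟫_ℂ := fun X Y => by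
    have k := h1 z hz (C X) (C Y)
    rw [i1, i1, (chartAt (Cn n) p).left_inv hx] at k
    have k2 := P253.inner_conj (C X) (C Y) 1 (CFC.sqrt (h z))
    rw [(IsSelfAdjoint.of_nonneg (CFC.sqrt_nonneg (h z))).star_eq, mul_one,
      CFC.sqrt_mul_sqrt_self _ h0] at k2
    exact k.symm.trans k2
  obtain ⟨u, hu⟩ : IsUnit (CFC.sqrt (h z) * C) := P253.unit_of_inj fun X hX => by
    by_contra k
    have k1 := h2.pos z hz (C X) fun k' => k (by rw [← i1 X, k', map_zero])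
    rw [h1 z hz, i1, (chartAt (Cn n) p).left_inv hx, e, hX] at k1
    simp at k1
  exact ⟨ContinuousLinearEquiv.unitsEquiv ℂ (Cn n) u, fun X Y => by rw [e, ← hu]; rfl⟩

theorem linearize [IsManifold 𝓘(ℂ, Cn n) ω M] (hφ : ActM G φ) (hf : ∀ k, φ k p = p)
    {F : M → Cn n} (hF : Hol (Cn n) F) (L : Cn n ≃L[ℂ] Cn n)
    (hL : dM (Cn n) F p = (L : Cn n →L[ℂ] Cn n)) :
    ∃ ψ : M → Cn n, (∀ x, HA n ψ x) ∧ ψ p = 0 ∧ IsUnit (dM (Cn n) ψ p) ∧
      ∀ k x, ψ (φ k x) = L (dM (Cn n) (φ k) p (L.symm (ψ x))) := by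
  borelize K
  have cF : Continuous F := MDifferentiable.continuous hF
  have mF : ∀ k y, MD n (F ∘ φ k) y := fun k y => (hF _).comp y (hφ.hol k y)
  have dF : ∀ k, dM (Cn n) (F ∘ φ k) p = (L : Cn n →L[ℂ] Cn n) * dM (Cn n) (φ k) p := fun k => by
    rw [dM_comp (hF _) (hφ.hol k p), hf, hL]
  have Dm : ∀ k l, dM (Cn n) (φ (k * l)) p = dM (Cn n) (φ k) p * dM (Cn n) (φ l) p := fun k l => by
    have e : φ (k * l) = φ k ∘ φ l := funext (hφ.mul k l)
    rw [e, dM_comp (hφ.hol k _) (hφ.hol l p), hf]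
  have D1 : dM (Cn n) (φ 1) p = 1 := by
    have e : φ 1 = id := funext hφ.one
    rw [e, dM_id]
  obtain ⟨r, hr⟩ : ∃ r : K → Cn n →L[ℂ] Cn n,
      r = fun k => dM (Cn n) (F ∘ φ k) p * (L.symm : Cn n →L[ℂ] Cn n) := ⟨_, rfl⟩
  have cr : Continuous r := hr ▸ (contK mF (cF.comp hφ.cont) p).mul continuous_const
  have ra : ∀ k y, r k y = L (dM (Cn n) (φ k) p (L.symm y)) := fun k y => by
    rw [hr]
    beta_reduce
    rw [dF]
    rfl
  have cU : Continuous fun q : K × M => r q.1 (F (φ q.1⁻¹ q.2) - F p) :=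
    (cr.comp continuous_fst).clm_apply ((cF.comp (hφ.cont.comp
      (f := fun q : K × M => (q.1⁻¹, q.2)) (by fun_prop))).sub continuous_const)
  have mR : ∀ k v, MD n (fun v => r k (v - F p)) v := fun k v =>
    (lin_sub _ _ v).differentiableAt.mdifferentiableAt
  obtain ⟨aψ, uψ⟩ := avgN (Measure.haar (G := K))
    (measureReal_ne_zero_iff (measure_ne_top _ _) |>.2
      (isOpen_univ.measure_ne_zero _ univ_nonempty))
    (U := fun k => (fun v => r k (v - F p)) ∘ F ∘ φ k⁻¹)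
    (fun k y => (mR k _).comp y (mF k⁻¹ y)) cU rfl
  refine ⟨_, aψ, by simp [hf], uψ p (L : Cn n →L[ℂ] Cn n) (fun k => ?_) L.injective, fun s y => ?_⟩
  · rw [dM_comp (mR k _) (mF k⁻¹ p), dM_eq, (lin_sub _ _ _).fderiv, dF]
    refine ContinuousLinearMap.ext fun X => (ra k _).trans (congrArg L ?_)
    refine (congrArg (dM (Cn n) (φ k) p) (L.symm_apply_apply _)).trans ?_
    have := congrArg (fun A : Cn n →L[ℂ] Cn n => A X) (Dm k k⁻¹)
    rw [mul_inv_cancel, D1] at this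
    exact this.symm
  · rw [← ra]
    refine Eq.trans ?_ (ContinuousLinearMap.integral_comp_comm (r s)
      (intK _ (cU.comp (f := fun k : K => (k, y)) (by fun_prop))))
    rw [← integral_mul_left_eq_self _ s]
    refine integral_congr_ae (ae_of_all _ fun k => ?_)
    change r (s * k) (F (φ (s * k)⁻¹ (φ s y)) - F p) = r s (r k (F (φ k⁻¹ y) - F p))
    rw [← hφ.mul, mul_inv_rev, inv_mul_cancel_right, ra, ra, ra, Dm, L.symm_apply_apply]
    rfl

theorem finalN [IsManifold 𝓘(ℂ, Cn n) 1 M] [T2Space M] [PreconnectedSpace M]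
    (hK : KaehlerNonneg G) (hc : CompleteM G) (hφ : ActM G φ) (hf : ∀ k, φ k p = p)
    (hU : Unstable G φ p) {F : M → Cn n} (hF : Hol (Cn n) F)
    (hi : Function.Injective (dM (Cn n) F p)) : BiholoM (Cn n) M := by
  haveI : IsManifold 𝓘(ℂ, Cn n) ω M := analytic_manifold
  obtain ⟨L, hL⟩ := frame hK p
  have hu : IsUnit (dM (Cn n) F p) :=
    P253.unit_of_inj ((injective_iff_map_eq_zero (dM (Cn n) F p)).1 hi)
  set B : Cn n →L[ℂ] Cn n := (L : Cn n →L[ℂ] Cn n) * Ring.inverse (dM (Cn n) F p) with hB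
  have mB : ∀ v, MD n B v := fun v => B.differentiableAt.mdifferentiableAt
  have e : dM (Cn n) (B ∘ F) p = (L : Cn n →L[ℂ] Cn n) := by
    rw [dM_comp (mB _) (hF p), dM_eq, B.fderiv, hB, mul_assoc, Ring.inverse_mul_cancel _ hu, mul_one]
  obtain ⟨ψ, h1, h2, h3, h4⟩ := linearize hφ hf (F := B ∘ F) (fun x => (mB _).comp x (hF x)) L e
  refine coreN hK hc h1 h2 h3 fun w hw => ?_
  obtain ⟨γ, A, k2, k3⟩ := hU (L.symm w) (by simpa using hw)
  rw [hL] at k3
  obtain ⟨δ, -, hδ⟩ := shrink' L k3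
  have k4 : ∀ θ : ℝ, NormedSpace.exp ((I * δ * θ) • A) = dM (Cn n) (φ (γ (δ * θ))) p := fun θ => by
    rw [k2, ofReal_mul, mul_assoc]
  have nL : ∀ (θ : ℝ) X, ‖L (NormedSpace.exp ((I * δ * θ) • A) X)‖ = ‖L X‖ := fun θ X => by
    have := hφ.iso (γ (δ * θ)) p X X
    rw [hf, hL, hL, ← k4] at this
    rw [@norm_eq_sqrt_re_inner ℂ, @norm_eq_sqrt_re_inner ℂ _ _ _ _ (L X), this]
  refine ⟨_, fun θ => φ (γ (δ * θ)), exp_action A (I * δ) L,
    fun θ y => by rw [nL, L.apply_symm_apply], fun ζ z1 z2 => ?_, fun θ => hφ.hol _,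
    fun θ => hφ.iso _, fun θ => hf _, fun θ x => by rw [h4, k4]⟩
  have e1 : I * δ * ζ = I * δ * ζ.re + -((δ * ζ.im : ℝ) : ℂ) := by
    nth_rewrite 1 [← re_add_im ζ]
    push_cast
    linear_combination (δ * ζ.im : ℂ) * I_mul_I
  have e2 := hδ ζ.im z1 z2
  rw [L.apply_symm_apply] at e2
  rw [e1, exp_add']
  exact (nL _ _).trans_lt e2

end Vale.Agent.P253G
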