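import Vale.Agent.P253.Gen

/-! The conclusions for domains. -/

namespace Vale.Agent.P253G

open Set

variable {E : Type} [NormedAddCommGroup E] [InnerProductSpace ℂ E]

/-- `h` is a complete Kaehler metric with nonnegative bisectional curvature on the open set `Ω`. -/
def GoodDomain (Ω : Set E) (h : Met E) : Prop :=
  IsOpen Ω ∧ IsKaehler Ω h ∧ (∀ z ∈ Ω, ∀ X Y, 0 ≤ bisec h z X Y) ∧ IsCompleteOn Ω h

/-- Holomorphic actions of `ℂ` whose real times preserve `(Ω, h)` preserve `Ω`. -/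
def Complexifies (Ω : Set E) (h : Met E) : Prop :=
  ∀ Φ : ℂ → E → E, IsAction Φ → (∀ θ : ℝ, Preserves Ω h (Φ θ)) → ∀ w : ℂ, MapsTo (Φ w) Ω Ω

/-- Real translations along a complex spanning set preserve `(Ω, h)`. -/
def IsTube (Ω : Set E) (h : Met E) : Prop :=
  ∃ S : Set E, Submodule.span ℂ S = ⊤ ∧ ∀ b ∈ S, ∀ θ : ℝ, Preserves Ω h fun z => z + (θ : ℂ) • b

end Vale.Agent.P253G
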