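import Vale.Agent.P253.Defs

/-! The matrix Riccati inequality. -/

namespace Vale.Agent.P253

open Complex Set Filter Topology
open scoped InnerProductSpace ContDiff

/-- A family of functionals that behaves like the quadratic forms of operators. -/
structure Fam {B ι : Type} [CStarAlgebra B] (q : ι → B →L[ℝ] ℝ) : Prop where
  conj : ∀ x D, ∃ y, ∀ A, q x (star D * A * D) = q y A
  le : ∀ x A, q x A ≤ ‖A‖ * q x 1
  one : ∀ x, 0 ≤ q x 1

variable {B ι : Type} [CStarAlgebra B] {q : ι → B →L[ℝ] ℝ}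

theorem Fam.pos (hq : Fam q) {A : B} (h : ∀ x, 0 ≤ q x A) (D : B) (x : ι) :
    0 ≤ q x (star D * A * D) := by
  obtain ⟨y, hy⟩ := hq.conj x D
  rw [hy]
  exact h y

theorem Fam.coercive (hq : Fam q) {H G : B} (hs : star G = G) (h1 : G * H = 1) (h2 : H * G = 1)
    (h0 : ∀ x, 0 ≤ q x H) (x : ι) : q x 1 ≤ (‖G‖ + 1) * q x H := by
  set d : ℝ := ‖G‖ + 1 with hd
  have hd0 : 0 < d := by positivity
  have e : star (d • (1 : B) - G) * H * (d • 1 - G) = (d * d) • H - (2 * d) • 1 + G := by
    simp only [star_sub, star_smul, star_one, hs, star_trivial, sub_mul, mul_sub, smul_mul_assoc,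
      mul_smul_comm, one_mul, mul_one, h1, h2]
    module
  have h3 := hq.pos h0 (d • (1 : B) - G) x
  rw [e, map_add, map_sub, map_smul, map_smul, smul_eq_mul, smul_eq_mul] at h3
  have h4 := hq.le x G
  refine le_of_mul_le_mul_left ?_ hd0
  nlinarith [hq.one x]

theorem Fam.riccati (hq : Fam q) {H H1 H2 : ℝ → B} {T : ℝ}
    (d1 : ∀ t ∈ Ico 0 T, HasDerivAt H (H1 t) t) (d2 : ∀ t ∈ Ico 0 T, HasDerivAt H1 (H2 t) t)
    (hs : ∀ t ∈ Ico 0 T, star (H t) = H t) (hs1 : ∀ t ∈ Ico 0 T, star (H1 t) = H1 t)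
    (hu : ∀ t ∈ Ico 0 T, IsUnit (H t)) (hp : ∀ t ∈ Ico 0 T, ∀ x, 0 ≤ q x (H t))
    (hc : ∀ t ∈ Ico 0 T, ∀ x, 0 ≤ q x (H1 t * Ring.inverse (H t) * H1 t - H2 t)) (hT : 0 < T) :
    ∃ C : ℝ, 0 ≤ C ∧ ∀ t ∈ Ico 0 T, ∀ x, q x (H t) ≤ C * q x 1 := by
  have z0 : (0 : ℝ) ∈ Ico 0 T := ⟨le_rfl, hT⟩
  obtain ⟨G, hG⟩ : ∃ G : ℝ → B, G = fun t => Ring.inverse (H t) := ⟨_, rfl⟩
  have hG' : ∀ t, Ring.inverse (H t) = G t := fun t => by rw [hG]
  have GH : ∀ t ∈ Ico 0 T, G t * H t = 1 := fun t ht => by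
    rw [← hG']; exact Ring.inverse_mul_cancel _ (hu t ht)
  have HG : ∀ t ∈ Ico 0 T, H t * G t = 1 := fun t ht => by
    rw [← hG']; exact Ring.mul_inverse_cancel _ (hu t ht)
  have sG : ∀ t ∈ Ico 0 T, star (G t) = G t := fun t ht => by
    rw [← hG', ← Ring.inverse_star, hs t ht]
  have dG : ∀ t ∈ Ico 0 T, HasDerivAt G (-(G t * H1 t * G t)) t := fun t ht => by
    obtain ⟨u, e⟩ := hu t ht
    have h1 := hasFDerivAt_ringInverse (𝕜 := ℝ) u
    rw [e] at h1
    have h2 := h1.comp_hasDerivAt t (d1 t ht)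
    have e2 : G t = ↑u⁻¹ := by rw [← hG', ← Ring.inverse_unit, e]
    rw [e2, hG]
    exact h2
  set l : ℝ := ‖H1 0‖ * (‖G 0‖ + 1) with hl
  have hl0 : 0 ≤ l := by positivity
  have key : ∀ t ∈ Ico 0 T, ∀ x, 0 ≤ q x (l • H t - H1 t) := by
    intro t ht
    have m0 : ∀ y, 0 ≤ q y (l • H 0 - H1 0) := fun y => by
      have b1 := hq.coercive (sG 0 z0) (GH 0 z0) (HG 0 z0) (hp 0 z0) y
      have b2 := hq.le y (H1 0)
      have b3 := mul_le_mul_of_nonneg_left b1 (norm_nonneg (H1 0))
      rw [map_sub, map_smul, smul_eq_mul, hl]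
      linarith
    have m2 : ∀ y, 0 ≤ q y (l • G t - G t * H1 t * G t) := fun y => by
      have dm : ∀ s ∈ Ico 0 T, HasDerivAt
          (fun s => Real.exp (l * s) * q y (l • G s - G s * H1 s * G s))
          (Real.exp (l * s) * (q y (star (G s) * (H1 s * G s * H1 s - H2 s) * G s) +
            q y (star (G s * (l • 1 - H1 s * G s)) * H s * (G s * (l • 1 - H1 s * G s))))) s :=
        fun s h => by
        have a1 : HasDerivAt (fun s => Real.exp (l * s)) (Real.exp (l * s) * l) s := by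
          simpa using ((hasDerivAt_id s).const_mul l).exp
        have a2 := ((dG s h).const_smul l).sub (((dG s h).mul (d2 s h)).mul (dG s h))
        refine (a1.mul ((q y).hasFDerivAt.comp_hasDerivAt s a2)).congr_deriv ?_
        rw [← map_add, mul_assoc, ← mul_add, Function.comp_apply, ← smul_eq_mul l (q y _), ← map_smul,
          ← map_add]
        refine congrArg (fun A => Real.exp (l * s) * q y A) ?_
        have e1 : ∀ A, G s * (H s * A) = A := fun A => by rw [← mul_assoc, GH s h, one_mul]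
        simp only [star_mul, star_sub, star_smul, star_one, star_trivial, sG s h, hs1 s h, mul_sub,
          sub_mul, mul_add, add_mul, mul_smul_comm, smul_mul_assoc, mul_assoc, e1, HG s h, one_mul,
          mul_one, neg_mul, mul_neg, Pi.mul_apply, Pi.sub_apply, Pi.smul_apply]
        module
      have mono := monotoneOn_of_hasDerivWithinAt_nonneg (convex_Ico 0 T)
        (fun s h => (dm s h).continuousAt.continuousWithinAt)
        (fun s h => (dm s (interior_subset h)).hasDerivWithinAt) fun s h =>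
          mul_nonneg (Real.exp_pos _).le (add_nonneg
            (hq.pos (fun x => hG' s ▸ hc s (interior_subset h) x) _ _)
            (hq.pos (hp s (interior_subset h)) _ _))
      have m1 := mono z0 ht ht.1
      have cv : l • G 0 - G 0 * H1 0 * G 0 = star (G 0) * (l • H 0 - H1 0) * G 0 := by
        simp only [sG 0 z0, mul_sub, sub_mul, mul_smul_comm, smul_mul_assoc, GH 0 z0, one_mul]
      simp only [cv] at m1
      exact nonneg_of_mul_nonneg_right
        ((mul_nonneg (Real.exp_pos _).le (hq.pos m0 _ _)).trans m1) (Real.exp_pos _)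
    intro x
    have e1 : ∀ A, H t * (G t * A) = A := fun A => by rw [← mul_assoc, HG t ht, one_mul]
    have cv : l • H t - H1 t = star (H t) * (l • G t - G t * H1 t * G t) * H t := by
      simp only [hs t ht, mul_sub, sub_mul, mul_smul_comm, smul_mul_assoc, mul_assoc, e1, GH t ht,
        mul_one]
    rw [cv]
    exact hq.pos m2 _ _
  refine ⟨Real.exp (l * T) * ‖H 0‖, by positivity, fun t ht x => ?_⟩
  have dm : ∀ s ∈ Ico 0 T, HasDerivAt (fun s => -(Real.exp (-(l * s)) * q x (H s)))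
      (Real.exp (-(l * s)) * q x (l • H s - H1 s)) s := fun s h => by
    have a1 : HasDerivAt (fun s => Real.exp (-(l * s))) (Real.exp (-(l * s)) * -l) s := by
      simpa using ((hasDerivAt_id s).const_mul l).neg.exp
    refine (a1.mul ((q x).hasFDerivAt.comp_hasDerivAt s (d1 s h))).neg.congr_deriv ?_
    rw [map_sub, map_smul, smul_eq_mul, Function.comp_apply]
    ring
  have mono := monotoneOn_of_hasDerivWithinAt_nonneg (convex_Ico 0 T)
    (fun s h => (dm s h).continuousAt.continuousWithinAt)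
    (fun s h => (dm s (interior_subset h)).hasDerivWithinAt) fun s h =>
      mul_nonneg (Real.exp_pos _).le (key s (interior_subset h) x)
  have m1 := mono z0 ht ht.1
  simp only [mul_zero, neg_zero, Real.exp_zero, one_mul, neg_le_neg_iff] at m1
  have b1 := hq.le x (H 0)
  have b2 : Real.exp (-(l * T)) ≤ Real.exp (-(l * t)) :=
    Real.exp_le_exp.2 (neg_le_neg (mul_le_mul_of_nonneg_left ht.2.le hl0))
  have b3 := mul_le_mul_of_nonneg_right b2 (hp t ht x)
  have b4 : Real.exp (l * T) * Real.exp (-(l * T)) = 1 := by rw [← Real.exp_add]; simp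
  have b5 := mul_le_mul_of_nonneg_left (b3.trans (m1.trans b1)) (Real.exp_pos (l * T)).le
  rw [← mul_assoc, b4, one_mul] at b5
  linarith

end Vale.Agent.P253
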