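import Vale.Agent.P253.Loc

/-! Sections of an equivariant holomorphic map extend to the whole space. -/

namespace Vale.Agent.P253

open Complex Set Filter Topology Metric
open scoped InnerProductSpace ContDiff

variable {n : ℕ} {Ω : Set (Cn n)} {h : Met n} {ψ σ₀ : Cn n → Cn n} {a : Fin n → ℝ}

theorem rot_term (a : Fin n → ℝ) (ζ : ℂ) (y : Cn n) (j : Fin n) :
    ‖rot a ζ y j‖ ^ 2 = Real.exp (-(a j * ζ.im)) ^ 2 * ‖y j‖ ^ 2 := by
  have : rot a ζ y j = exp (I * a j * ζ) * y j := rfl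
  rw [this, norm_mul, norm_exp, mul_pow]
  simp

theorem rot_le (ha : ∀ j, 0 < a j) {ζ : ℂ} (hζ : 0 ≤ ζ.im) (y : Cn n) : ‖rot a ζ y‖ ≤ ‖y‖ := by
  refine (sq_le_sq₀ (norm_nonneg _) (norm_nonneg _)).1 ?_
  rw [EuclideanSpace.norm_sq_eq, EuclideanSpace.norm_sq_eq]
  refine Finset.sum_le_sum fun j _ => ?_
  rw [rot_term]
  refine mul_le_of_le_one_left (sq_nonneg _) (pow_le_one₀ (Real.exp_pos _).le ?_)
  exact Real.exp_le_one_iff.2 (neg_nonpos.2 (mul_nonneg (ha j).le hζ))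

theorem rot_lt (ha : ∀ j, 0 < a j) {ζ : ℂ} (hζ : 0 < ζ.im) {y : Cn n} (hy : y ≠ 0) :
    ‖rot a ζ y‖ < ‖y‖ := by
  refine (sq_lt_sq₀ (norm_nonneg _) (norm_nonneg _)).1 ?_
  rw [EuclideanSpace.norm_sq_eq, EuclideanSpace.norm_sq_eq]
  have lt1 : ∀ j, Real.exp (-(a j * ζ.im)) ^ 2 < 1 := fun j => pow_lt_one₀ (Real.exp_pos _).le
    (Real.exp_lt_one_iff.2 (neg_neg_of_pos (mul_pos (ha j) hζ))) two_ne_zero
  obtain ⟨j, hj⟩ : ∃ j, y j ≠ 0 := by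
    by_contra k
    exact hy (PiLp.ext fun j => by simpa using not_exists.1 k j)
  refine Finset.sum_lt_sum (fun j _ => ?_) ⟨j, Finset.mem_univ _, ?_⟩ <;> rw [rot_term]
  · exact mul_le_of_le_one_left (sq_nonneg _) (lt1 j).le
  · exact mul_lt_of_lt_one_left (by positivity) (lt1 j)

theorem unit_of_inj {A : Cn n →L[ℂ] Cn n} (h : ∀ x, A x = 0 → x = 0) : IsUnit A := by
  have h1 : Function.Injective A := (injective_iff_map_eq_zero A).2 h
  exact ContinuousLinearMap.isUnit_iff_bijective.2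
    ⟨h1, (LinearMap.injective_iff_surjective (f := (A : Cn n →ₗ[ℂ] Cn n))).1 h1⟩

theorem locinv {x : Cn n} (hψ : AnalyticAt ℂ ψ x) (hu : IsUnit (fderiv ℂ ψ x)) :
    ∃ τ : Cn n → Cn n, AnalyticAt ℂ τ (ψ x) ∧ (∀ᶠ y in 𝓝 x, τ (ψ y) = y) ∧
      ∀ᶠ w in 𝓝 (ψ x), ψ (τ w) = w := by
  obtain ⟨u, hu⟩ := hu
  have hd : HasFDerivAt ψ ((ContinuousLinearEquiv.unitsEquiv ℂ (Cn n) u : Cn n ≃L[ℂ] Cn n) :
      Cn n →L[ℂ] Cn n) x := by
    have := hψ.differentiableAt.hasFDerivAt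
    rw [← hu] at this
    exact this
  have hc : ContDiffAt ℂ ω ψ x := hψ.contDiffAt
  exact ⟨hc.localInverse hd (by simp), (hc.to_localInverse hd (by simp)).analyticAt,
    (hc.hasStrictFDerivAt' hd (by simp)).eventually_left_inverse,
    (hc.hasStrictFDerivAt' hd (by simp)).eventually_right_inverse⟩

theorem star_two {R ε : ℝ} {w : Cn n} (hw : ‖w‖ = R) (hR : 0 < R) :
    StarConvex ℝ 0 (ball (0 : Cn n) R ∪ ball w ε) := by
  rintro y (hy | hy) s b hs hb hsb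
  · exact Or.inl ((convex_ball _ _).starConvex (mem_ball_self hR) hy hs hb hsb)
  · rw [smul_zero, zero_add]
    by_cases k : ‖b • y‖ < R
    · exact Or.inl (mem_ball_zero_iff.2 k)
    refine Or.inr (mem_ball_iff_norm.2 (lt_of_le_of_lt ?_ (mem_ball_iff_norm.1 hy)))
    refine (sq_le_sq₀ (norm_nonneg _) (norm_nonneg _)).1 ?_
    rw [norm_smul, Real.norm_of_nonneg hb, not_lt] at k
    rw [@norm_sub_sq ℂ, @norm_sub_sq ℂ, norm_smul, Real.norm_of_nonneg hb, ← Complex.coe_smul,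
      inner_smul_left, conj_ofReal]
    have h1 : RCLike.re ⟪y, w⟫_ℂ ≤ ‖y‖ * R := hw ▸ re_inner_le_norm y w
    have h2 : RCLike.re ((b : ℂ) * ⟪y, w⟫_ℂ) = b * RCLike.re ⟪y, w⟫_ℂ := re_ofReal_mul _ _
    have h3 := mul_le_mul_of_nonneg_left k (norm_nonneg y)
    have h4 : b = 1 - s := by linarith
    rw [h2]
    subst h4
    nlinarith [mul_nonneg hs (sub_nonneg.2 (h1.trans h3)), mul_nonneg (sq_nonneg s) (sq_nonneg ‖y‖)]

/-- Holomorphic sections of `ψ` over star-shaped domains with a given germ at the origin. -/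
structure Good (Ω : Set (Cn n)) (ψ σ₀ : Cn n → Cn n) (V : Set (Cn n)) (s : Cn n → Cn n) :
    Prop where
  op : IsOpen V
  st : StarConvex ℝ 0 V
  z : 0 ∈ V
  pt : ∀ w ∈ V, AnalyticAt ℂ s w ∧ s w ∈ Ω ∧ ψ (s w) = w
  ev : s =ᶠ[𝓝 0] σ₀

theorem Good.agree {V V' : Set (Cn n)} {s s' : Cn n → Cn n} (g : Good Ω ψ σ₀ V s)
    (g' : Good Ω ψ σ₀ V' s') : EqOn s s' (V ∩ V') :=
  AnalyticOnNhd.eqOn_of_preconnected_of_eventuallyEq (fun w hw => (g.pt w hw.1).1)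
    (fun w hw => (g'.pt w hw.2).1)
    ((g.st.inter g'.st).isPathConnected ⟨g.z, g'.z⟩).isConnected.isPreconnected ⟨g.z, g'.z⟩
    (g.ev.trans g'.ev.symm)

theorem Good.inv {V : Set (Cn n)} {s : Cn n → Cn n} (g : Good Ω ψ σ₀ V s)
    (hψ : AnalyticOnNhd ℂ ψ Ω) {w : Cn n} (hw : w ∈ V) :
    IsUnit (fderiv ℂ s w) ∧ fderiv ℂ s w * fderiv ℂ ψ (s w) = 1 := by
  have e : ψ ∘ s =ᶠ[𝓝 w] id := Filter.eventually_of_mem (g.op.mem_nhds hw) fun y hy => (g.pt y hy).2.2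
  have h1 : fderiv ℂ ψ (s w) * fderiv ℂ s w = 1 := by
    have := fderiv_comp w (hψ _ (g.pt w hw).2.1).differentiableAt (g.pt w hw).1.differentiableAt
    rw [e.fderiv_eq, fderiv_id] at this
    exact this.symm
  have h2 : IsUnit (fderiv ℂ s w) := unit_of_inj fun x hx => by
    have := congrArg (fun A : Cn n →L[ℂ] Cn n => A x) h1
    simpa [hx] using this.symm
  obtain ⟨u, hu⟩ := h2
  refine ⟨⟨u, hu⟩, ?_⟩
  rw [← hu] at h1 ⊢
  rw [Units.eq_inv_of_mul_eq_one_right h1, Units.mul_inv]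

theorem all_of_extend (h0 : ∃ V s, Good Ω ψ σ₀ V s)
    (hx : ∀ (R : ℝ) (s : Cn n → Cn n) (w : Cn n), Good Ω ψ σ₀ (ball 0 R) s → ‖w‖ = R →
      ∃ V s, Good Ω ψ σ₀ V s ∧ w ∈ V) : ∃ s, Good Ω ψ σ₀ univ s := by
  classical
  let P : Cn n → Prop := fun y => ∃ x : Set (Cn n) × (Cn n → Cn n), Good Ω ψ σ₀ x.1 x.2 ∧ y ∈ x.1
  let σ : Cn n → Cn n := fun y => if hy : P y then hy.choose.2 y else 0
  have e : ∀ V s, Good Ω ψ σ₀ V s → EqOn σ s V := fun V s g y hy => by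
    have hy' : P y := ⟨(V, s), g, hy⟩
    simp only [σ, dif_pos hy']
    exact hy'.choose_spec.1.agree g ⟨hy'.choose_spec.2, hy⟩
  have e' : ∀ V s, Good Ω ψ σ₀ V s → ∀ y ∈ V, σ =ᶠ[𝓝 y] s := fun V s g y hy =>
    Filter.eventually_of_mem (g.op.mem_nhds hy) (e V s g)
  obtain ⟨V, s, g⟩ := h0
  have gU : Good Ω ψ σ₀ {y | P y} σ := by
    refine ⟨isOpen_iff_mem_nhds.2 ?_, ?_, ⟨(V, s), g, g.z⟩, ?_, (e' V s g 0 g.z).trans g.ev⟩
    · rintro y ⟨x, gx, hy⟩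
      exact mem_of_superset (gx.op.mem_nhds hy) fun y' hy' => ⟨x, gx, hy'⟩
    · rintro y ⟨x, gx, hy⟩ s b hs hb hsb
      exact ⟨x, gx, gx.st hy hs hb hsb⟩
    · rintro y ⟨x, gx, hy⟩
      rw [e _ _ gx hy]
      exact ⟨(gx.pt y hy).1.congr (e' _ _ gx y hy).symm, (gx.pt y hy).2⟩
  by_cases k : ({y | P y}ᶜ).Nonempty
  · obtain ⟨w, hw, hd⟩ := gU.op.isClosed_compl.exists_infDist_eq_dist k 0
    have hs : ball (0 : Cn n) ‖w‖ ⊆ {y | P y} := by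
      have := ball_infDist_subset_compl (x := (0 : Cn n)) (s := {y | P y}ᶜ)
      rwa [hd, compl_compl, dist_zero_left] at this
    have hR : 0 < ‖w‖ := norm_pos_iff.2 fun e => hw (e ▸ gU.z)
    obtain ⟨V', s', g', hw'⟩ := hx ‖w‖ σ w ⟨isOpen_ball,
      (convex_ball _ _).starConvex (mem_ball_self hR), mem_ball_self hR,
      fun y hy => gU.pt y (hs hy), gU.ev⟩ rfl
    exact absurd ⟨(V', s'), g', hw'⟩ hw
  · rw [not_nonempty_iff_eq_empty, compl_empty_iff] at k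
    exact ⟨σ, k ▸ gU⟩

end Vale.Agent.P253
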