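import Vale.Agent.P253.Ric

/-! The metric in a holomorphic frame along a holomorphic curve. -/

namespace Vale.Agent.P253

open Complex Set Filter Topology
open scoped InnerProductSpace ContDiff

variable {B ι : Type} [CStarAlgebra B] {q : ι → B →L[ℝ] ℝ} {n : ℕ}

theorem line {V : Type} [NormedAddCommGroup V] [NormedSpace ℂ V] [NormedSpace ℝ V]
    [IsScalarTower ℝ ℂ V] {f : ℂ → V} (hf : Differentiable ℂ f) (w u : ℂ) (s : ℝ) :
    HasDerivAt (fun s : ℝ => f (w + s * u)) (u • deriv f (w + s * u)) s := by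
  have h1 : HasDerivAt (fun s : ℝ => w + s * u) u s := by
    simpa using (ofRealCLM.hasDerivAt.mul_const u).const_add w
  have h2 := ((hf (w + s * u)).hasDerivAt.hasFDerivAt.restrictScalars ℝ).comp_hasDerivAt s h1
  simpa [Function.comp_def] using h2

/-- The metric in the frame `D` along `c`. -/
noncomputable def HH (h : Cn n → B) (c : ℂ → Cn n) (D : ℂ → B) (w : ℂ) : B :=
  star (D w) * h (c w) * D w

noncomputable def P1 (h : Cn n → B) (c : ℂ → Cn n) (u w : ℂ) : B :=
  fderiv ℝ h (c w) (u • deriv c w)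

noncomputable def P2 (h : Cn n → B) (c : ℂ → Cn n) (u w : ℂ) : B :=
  fderiv ℝ (fderiv ℝ h) (c w) (u • deriv c w) (u • deriv c w) +
    fderiv ℝ h (c w) (u • u • deriv (deriv c) w)

noncomputable def H1 (h : Cn n → B) (c : ℂ → Cn n) (D : ℂ → B) (u w : ℂ) : B :=
  (star (u • deriv D w) * h (c w) + star (D w) * P1 h c u w) * D w +
    star (D w) * h (c w) * (u • deriv D w)

noncomputable def H2 (h : Cn n → B) (c : ℂ → Cn n) (D : ℂ → B) (u w : ℂ) : B :=
  ((star (u • u • deriv (deriv D) w) * h (c w) + star (u • deriv D w) * P1 h c u w +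
    (star (u • deriv D w) * P1 h c u w + star (D w) * P2 h c u w)) * D w +
    (star (u • deriv D w) * h (c w) + star (D w) * P1 h c u w) * (u • deriv D w)) +
    ((star (u • deriv D w) * h (c w) + star (D w) * P1 h c u w) * (u • deriv D w) +
      star (D w) * h (c w) * (u • u • deriv (deriv D) w))

variable {h : Cn n → B} {c : ℂ → Cn n} {D : ℂ → B}

theorem prod3 {a a1 f f1 : ℝ → B} {a2 f2 : B} {s : ℝ} (ha : HasDerivAt a (a1 s) s)
    (ha1 : HasDerivAt a1 a2 s) (hf : HasDerivAt f (f1 s) s) (hf1 : HasDerivAt f1 f2 s) :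
    HasDerivAt (fun s => star (a s) * f s * a s)
      ((star (a1 s) * f s + star (a s) * f1 s) * a s + star (a s) * f s * a1 s) s ∧
    HasDerivAt (fun s => (star (a1 s) * f s + star (a s) * f1 s) * a s + star (a s) * f s * a1 s)
      (((star a2 * f s + star (a1 s) * f1 s + (star (a1 s) * f1 s + star (a s) * f2)) * a s +
        (star (a1 s) * f s + star (a s) * f1 s) * a1 s) +
        ((star (a1 s) * f s + star (a s) * f1 s) * a1 s + star (a s) * f s * a2)) s :=
  ⟨(ha.star.fun_mul hf).fun_mul ha, (((ha1.star.fun_mul hf).fun_add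
    (ha.star.fun_mul hf1)).fun_mul ha).fun_add ((ha.star.fun_mul hf).fun_mul ha1)⟩

theorem ders (hc : Differentiable ℂ c) (hD : Differentiable ℂ D) (w u : ℂ) (s : ℝ)
    (hh : ContDiffAt ℝ 2 h (c (w + s * u))) :
    HasDerivAt (fun s : ℝ => HH h c D (w + s * u)) (H1 h c D u (w + s * u)) s ∧
    HasDerivAt (fun s : ℝ => H1 h c D u (w + s * u)) (H2 h c D u (w + s * u)) s := by
  have c1 := line hc w u s
  have c2 := (line hc.deriv w u s).fun_const_smul u
  have a1 := line hD w u s
  have a2 := (line hD.deriv w u s).fun_const_smul u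
  have f1 : HasDerivAt (fun s : ℝ => h (c (w + s * u))) (P1 h c u (w + s * u)) s :=
    (hh.differentiableAt (by norm_num)).hasFDerivAt.comp_hasDerivAt s c1
  have g1 : DifferentiableAt ℝ (fderiv ℝ h) (c (w + s * u)) :=
    (hh.fderiv_right (m := 1) (by norm_num)).differentiableAt (by norm_num)
  have g2 : HasDerivAt (fun s : ℝ => fderiv ℝ h (c (w + s * u)))
      (fderiv ℝ (fderiv ℝ h) (c (w + s * u)) (u • deriv c (w + s * u))) s :=
    g1.hasFDerivAt.comp_hasDerivAt s c1
  have f2 : HasDerivAt (fun s : ℝ => P1 h c u (w + s * u)) (P2 h c u (w + s * u)) s :=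
    g2.clm_apply c2
  unfold HH H1 H2
  exact prod3 (a1 := fun s : ℝ => u • deriv D (w + s * u))
    (f1 := fun s : ℝ => P1 h c u (w + s * u)) a1 a2 f1 f2

theorem alg {a a1 a2 f g G d e r r' m : B} (hG : a * G * star a = g) (fg : f * g = 1)
    (gf : g * f = 1)
    (h1 : (star (I • a1) * f + star a * (I • (d - e))) * a + star a * f * (I • a1) = 0)
    (h2 : ((star (I • I • a2) * f + star (I • a1) * (I • (d - e)) +
      (star (I • a1) * (I • (d - e)) + star a * (r' - m))) * a +
      (star (I • a1) * f + star a * (I • (d - e))) * (I • a1)) +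
      ((star (I • a1) * f + star a * (I • (d - e))) * (I • a1) + star a * f * (I • I • a2)) = 0) :
    ((star a1 * f + star a * (d + e)) * a + star a * f * a1) * G *
      ((star a1 * f + star a * (d + e)) * a + star a * f * a1) -
    (((star a2 * f + star a1 * (d + e) + (star a1 * (d + e) + star a * (r + m))) * a +
      (star a1 * f + star a * (d + e)) * a1) +
      ((star a1 * f + star a * (d + e)) * a1 + star a * f * a2)) =
    (4 : ℝ) • (star a * (e * g * d - (1 / 4 : ℂ) • (r + r')) * a) := by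
  have II : ∀ x : B, I • I • x = -x := fun x => by rw [smul_smul, I_mul_I, neg_one_smul]
  have k1 : star a * (d - e) * a + star a * f * a1 - star a1 * f * a = 0 := by
    have := congrArg (fun x => -(I • x)) h1
    simp only [star_smul, star_def, conj_I, smul_add, add_mul, smul_mul_assoc, mul_smul_comm,
      neg_smul, smul_neg, neg_mul, II, smul_zero, neg_zero] at this
    rw [← this]
    abel
  have e1 : (star a1 * f + star a * (d + e)) * a + star a * f * a1 =
      (2 : ℝ) • ((star a1 * f + star a * e) * a) := by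
    rw [← sub_eq_zero, ← k1]
    simp only [add_mul, mul_add, sub_mul, mul_sub]
    module
  have e2 : (star a1 * f + star a * (d + e)) * a + star a * f * a1 =
      (2 : ℝ) • (star a * (d * a + f * a1)) := by
    rw [← sub_eq_zero, ← neg_eq_zero, ← k1]
    simp only [add_mul, mul_add, sub_mul, mul_sub, mul_assoc]
    module
  have e3 : ∀ x y : B, (x * a) * G * (star a * y) = x * (g * y) := fun x y => by
    rw [← hG]
    simp only [mul_assoc]
  have fg' : ∀ x, f * (g * x) = x := fun x => by rw [← mul_assoc, fg, one_mul]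
  have gf' : ∀ x, g * (f * x) = x := fun x => by rw [← mul_assoc, gf, one_mul]
  nth_rewrite 2 [e2]
  rw [e1, smul_mul_assoc, smul_mul_assoc, mul_smul_comm, e3, ← sub_eq_zero, ← h2]
  simp only [star_smul, star_def, conj_I, star_neg, smul_add, smul_sub, add_mul, mul_add, sub_mul,
    mul_sub, smul_mul_assoc, mul_smul_comm, neg_smul, smul_neg, neg_mul, mul_neg, II, neg_neg,
    mul_assoc, fg', gf']
  module

theorem strip (hq : Fam q) (hc : Differentiable ℂ c) (hD : Differentiable ℂ D)
    (hu : ∀ w, IsUnit (D w)) {T : ℝ} (hT : 0 < T) {Ω : Set (Cn n)} (hΩ : IsOpen Ω)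
    (hh : ContDiffOn ℝ ∞ h Ω) (hs : ∀ z ∈ Ω, star (h z) = h z) (hi : ∀ z ∈ Ω, IsUnit (h z))
    (hp : ∀ z ∈ Ω, ∀ x, 0 ≤ q x (h z))
    (hR : ∀ z ∈ Ω, ∀ Y x, 0 ≤ q x
      ((1 / 2 : ℂ) • (fderiv ℝ h z Y + I • fderiv ℝ h z (I • Y)) * Ring.inverse (h z) *
        (1 / 2 : ℂ) • (fderiv ℝ h z Y - I • fderiv ℝ h z (I • Y)) -
      (1 / 4 : ℂ) • (fderiv ℝ (fderiv ℝ h) z Y Y + fderiv ℝ (fderiv ℝ h) z (I • Y) (I • Y))))
    (hm : ∀ t ∈ Ico 0 T, ∀ s : ℝ, c ((t : ℝ) + s * I) ∈ Ω ∧
      HH h c D ((t : ℝ) + s * I) = HH h c D (t : ℝ)) :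
    ∃ C : ℝ, 0 ≤ C ∧ ∀ t ∈ Ico 0 T, ∀ x, q x (HH h c D (t : ℝ)) ≤ C * q x 1 := by
  have at2 : ∀ z ∈ Ω, ContDiffAt ℝ 2 h z := fun z hz =>
    (hh.contDiffAt (hΩ.mem_nhds hz)).of_le (WithTop.coe_le_coe.2 le_top)
  have m0 : ∀ t ∈ Ico 0 T, c (t : ℝ) ∈ Ω := fun t ht => by simpa using (hm t ht 0).1
  have dr := fun t (ht : t ∈ Ico 0 T) => ders (h := h) hc hD 0 1 t (at2 _ (by simpa using m0 t ht))
  simp only [zero_add, mul_one] at dr
  have sH : ∀ w, c w ∈ Ω → star (HH h c D w) = HH h c D w := fun w hw => by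
    simp only [HH, star_mul, star_star, hs _ hw, mul_assoc]
  refine hq.riccati (H1 := fun t => H1 h c D 1 t) (H2 := fun t => H2 h c D 1 t)
    (fun t ht => (dr t ht).1) (fun t ht => (dr t ht).2) (fun t ht => sH _ (m0 t ht))
    (fun t ht => ?_) (fun t ht => ((hu _).star.mul (hi _ (m0 t ht))).mul (hu _))
    (fun t ht => hq.pos (hp _ (m0 t ht)) _) (fun t ht x => ?_) hT
  · have ev : ∀ᶠ s : ℝ in 𝓝 t, c s ∈ Ω :=
      (hc.continuous.comp continuous_ofReal).continuousAt.eventually (hΩ.mem_nhds (m0 t ht))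
    exact (dr t ht).1.star.unique ((dr t ht).1.congr_of_eventuallyEq (ev.mono fun s k => sH _ k))
  · have di := fun s : ℝ => ders (h := h) hc hD t I s (at2 _ (hm t ht s).1)
    have z1 : ∀ s : ℝ, H1 h c D I (t + s * I) = 0 := fun s => by
      have := (di s).1
      simp only [fun s => (hm t ht s).2] at this
      exact this.unique (hasDerivAt_const _ _)
    have z2 : H2 h c D I (t + (0 : ℝ) * I) = 0 := by
      have := (di 0).2
      simp only [z1] at this
      exact this.unique (hasDerivAt_const _ _)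
    have z1' := z1 0
    simp only [ofReal_zero, zero_mul, add_zero] at z1' z2
    obtain ⟨a, ha⟩ := hu t
    obtain ⟨f, hf⟩ := hi _ (m0 t ht)
    set Y := deriv c t with hY
    set d := (1 / 2 : ℂ) • (fderiv ℝ h (c t) Y - I • fderiv ℝ h (c t) (I • Y)) with hd
    set e := (1 / 2 : ℂ) • (fderiv ℝ h (c t) Y + I • fderiv ℝ h (c t) (I • Y)) with he
    have p1 : P1 h c 1 t = d + e := by
      rw [P1, one_smul, hd, he]
      module
    have pI : P1 h c I t = I • (d - e) := by
      have : d - e = -(I • fderiv ℝ h (c t) (I • Y)) := by rw [hd, he]; module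
      rw [this, smul_neg, smul_smul, I_mul_I, neg_one_smul, neg_neg, P1]
    have qI : P2 h c I t = fderiv ℝ (fderiv ℝ h) (c t) (I • Y) (I • Y) -
        fderiv ℝ h (c t) (deriv (deriv c) t) := by
      rw [P2, smul_smul, I_mul_I, neg_one_smul, map_neg, sub_eq_add_neg]
    have hG : D t * Ring.inverse (HH h c D t) * star (D t) = Ring.inverse (h (c t)) := by
      have : HH h c D t = ↑(star a * f * a) := by simp [HH, ← ha, ← hf]
      rw [this, ← ha, ← hf, Ring.inverse_unit, Ring.inverse_unit, ← Units.coe_star,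
        ← Units.val_mul, ← Units.val_mul]
      congr 1
      group
    rw [H1, pI] at z1'
    rw [H2, pI, qI] at z2
    have key := alg hG (Ring.mul_inverse_cancel _ (hi _ (m0 t ht)))
      (Ring.inverse_mul_cancel _ (hi _ (m0 t ht))) z1' z2
      (r := fderiv ℝ (fderiv ℝ h) (c t) Y Y)
    simp only [H1, H2, p1, P2, one_smul]
    rw [key, map_smul, smul_eq_mul]
    exact mul_nonneg (by norm_num) (hq.pos (hR _ (m0 t ht) Y) _ x)

end Vale.Agent.P253
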